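import Vale.Agent.P358.Defs

/-!
Auxiliary definitions used in the proofs (not in the final statement).
-/

namespace Vale.Agent.P358

open Matrix MeasureTheory Filter Topology
open scoped ComplexOrder

/-- Entropy in nats of a Hermitian matrix (not necessarily normalised). -/
noncomputable def trPhi {I : Type} [Fintype I] [DecidableEq I] (M : Matrix I I ℂ) : ℝ :=
  if h : M.IsHermitian then ∑ i, Real.negMulLog (h.eigenvalues i) else 0

/-- Output entropy (nats) of a pure input with excited population `q`. -/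
noncomputable def eN (γ ν q : ℝ) : ℝ := Real.binEntropy (outEig γ ν q)

/-- Homogeneous version of `eN`. -/
noncomputable def EE (γ ν m c : ℝ) : ℝ := m * eN γ ν (c / m)

/-- The channel applied to the first (qubit) factor of a block matrix. -/
noncomputable def gadBlocks (γ ν : ℝ) {R : Type} (A B C : Matrix R R ℂ) :
    Matrix (R ⊕ R) (R ⊕ R) ℂ :=
  fromBlocks (((1 - γ * ν : ℝ) : ℂ) • A + ((γ * (1 - ν) : ℝ) : ℂ) • C)
    (((√(1 - γ) : ℝ) : ℂ) • B) (((√(1 - γ) : ℝ) : ℂ) • Bᴴ)
    (((γ * ν : ℝ) : ℂ) • A + ((1 - γ + γ * ν : ℝ) : ℂ) • C)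

/-- The key inequality: entropic norm compression for the channel. -/
def Key (γ ν : ℝ) : Prop :=
  ∀ (R : Type) [Fintype R] [DecidableEq R] (A B C : Matrix R R ℂ),
    (fromBlocks A B Bᴴ C).PosSemidef →
    trPhi A + trPhi C + (EE γ ν (A.trace.re + C.trace.re) C.trace.re
      + Real.negMulLog (A.trace.re + C.trace.re)
      - Real.negMulLog A.trace.re - Real.negMulLog C.trace.re)
      ≤ trPhi (gadBlocks γ ν A B C)

/-- Population of the excited level of the `i`-th qubit. -/
noncomputable def pop {n : ℕ} (ρ : Matrix (Fin n → Fin 2) (Fin n → Fin 2) ℂ) (i : Fin n) : ℝ :=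
  ∑ x : Fin n → Fin 2, if x i = 1 then (ρ x x).re else 0

/-- `g s` behaves like `∑ w_i log (s + x_i)` on `s > 0`, with `N = ∑ w_i`, `T = ∑ w_i x_i` and
`P = ∑ w_i negMulLog x_i`. -/
def LogRep (g : ℝ → ℝ) (N T P : ℝ) : Prop :=
  (∀ S > 0, IntervalIntegrable g volume 0 S) ∧
  Tendsto (fun S : ℝ => (∫ s in (0 : ℝ)..S, g s) - N * (S * Real.log S - S)
    - T * Real.log S - T) atTop (𝓝 P)

/-- Roots of `x² - (a + b + c) x + b c`. -/
noncomputable def rootP (a b c : ℝ) : ℝ := ((a + b + c) + √((a + b + c) ^ 2 - 4 * b * c)) / 2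

noncomputable def rootM (a b c : ℝ) : ℝ := ((a + b + c) - √((a + b + c) ^ 2 - 4 * b * c)) / 2

/-- Scalar entropic functional. -/
noncomputable def FF (a b c : ℝ) : ℝ :=
  Real.negMulLog (rootP a b c) + Real.negMulLog (rootM a b c)
    - Real.negMulLog a - Real.negMulLog b - Real.negMulLog c

end Vale.Agent.P358
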