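import Mathlib

namespace Vale.Agent.P358

open Matrix
open scoped ComplexOrder

/-- Density matrices on a finite-dimensional system with basis `I`. -/
def IsDensity {I : Type} [Fintype I] (ρ : Matrix I I ℂ) : Prop :=
  ρ.PosSemidef ∧ ρ.trace = 1

/-- Von Neumann entropy in bits: `- ∑ λ log₂ λ` over the eigenvalues `λ`. -/
noncomputable def vonNeumann {I : Type} [Fintype I] [DecidableEq I] (ρ : Matrix I I ℂ) : ℝ :=
  if h : ρ.IsHermitian then ∑ i, Real.negMulLog (h.eigenvalues i) / Real.log 2 else 0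

/-- The generalized amplitude-damping map, extended linearly to all `2 × 2` matrices:
for `M = !![1 - q, z; z', q]` it is `!![1 - t, √(1-γ) z; √(1-γ) z', t]`
with `t = (1 - γ) q + γ ν`. -/
noncomputable def gad (γ ν : ℝ) (M : Matrix (Fin 2) (Fin 2) ℂ) : Matrix (Fin 2) (Fin 2) ℂ :=
  !![M.trace - ((1 - γ) * M 1 1 + γ * ν * M.trace), (√(1 - γ) : ℝ) * M 0 1;
     (√(1 - γ) : ℝ) * M 1 0, (1 - γ) * M 1 1 + γ * ν * M.trace]

/-- The `n`-fold tensor power of a linear map `Φ` on `2 × 2` matrices, acting on matrices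
indexed by bit strings of length `n`. -/
noncomputable def tensorPow (Φ : Matrix (Fin 2) (Fin 2) ℂ → Matrix (Fin 2) (Fin 2) ℂ) (n : ℕ)
    (ρ : Matrix (Fin n → Fin 2) (Fin n → Fin 2) ℂ) :
    Matrix (Fin n → Fin 2) (Fin n → Fin 2) ℂ :=
  fun x y => ∑ u, ∑ v, (∏ i, Φ (Matrix.single (u i) (v i) 1) (x i) (y i)) * ρ u v

/-- The set of Holevo quantities of all finite ensembles of input states. -/
def holevoSet {I J : Type} [Fintype I] [Fintype J] [DecidableEq J]
    (Φ : Matrix I I ℂ → Matrix J J ℂ) : Set ℝ :=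
  {x | ∃ (k : ℕ) (p : Fin k → ℝ) (ρ : Fin k → Matrix I I ℂ),
    (∀ a, 0 ≤ p a) ∧ ∑ a, p a = 1 ∧ (∀ a, IsDensity (ρ a)) ∧
    x = vonNeumann (∑ a, (p a : ℂ) • Φ (ρ a)) - ∑ a, p a * vonNeumann (Φ (ρ a))}

/-- The Holevo capacity. -/
noncomputable def holevo {I J : Type} [Fintype I] [Fintype J] [DecidableEq J]
    (Φ : Matrix I I ℂ → Matrix J J ℂ) : ℝ :=
  sSup (holevoSet Φ)

/-- The classical capacity `sup_{n ≥ 1} χ(Φ^{⊗ n}) / n`. -/
noncomputable def capacity (Φ : Matrix (Fin 2) (Fin 2) ℂ → Matrix (Fin 2) (Fin 2) ℂ) : ℝ :=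
  ⨆ n : ℕ, holevo (tensorPow Φ (n + 1)) / (n + 1)

/-- Output population of the excited state. -/
noncomputable def outPop (γ ν q : ℝ) : ℝ := (1 - γ) * q + γ * ν

/-- Larger eigenvalue of the output of a pure input state with excited population `q`. -/
noncomputable def outEig (γ ν q : ℝ) : ℝ :=
  (1 + √(1 - 4 * γ * (ν * (1 - ν) + (1 - γ) * (q - ν) ^ 2))) / 2

/-- The one-parameter Holevo function, in bits. -/
noncomputable def holevoFun (γ ν q : ℝ) : ℝ :=
  (Real.binEntropy (outPop γ ν q) - Real.binEntropy (outEig γ ν q)) / Real.log 2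

end Vale.Agent.P358
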