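import Vale.Agent.P358.LogRep

namespace Vale.Agent.P358

open Matrix
open scoped ComplexOrder

/-- tensor product of a family of `2 × 2` matrices -/
noncomputable def prodMat {n : ℕ} (M : Fin n → Matrix (Fin 2) (Fin 2) ℂ) :
    Matrix (Fin n → Fin 2) (Fin n → Fin 2) ℂ :=
  fun x y => ∏ i, M i (x i) (y i)

theorem prodMat_mul {n : ℕ} (A B : Fin n → Matrix (Fin 2) (Fin 2) ℂ) :
    prodMat A * prodMat B = prodMat fun i => A i * B i := by
  ext x y
  simp only [prodMat, Matrix.mul_apply]
  rw [Finset.prod_univ_sum, Fintype.piFinset_univ]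
  refine Finset.sum_congr rfl fun z _ => ?_
  rw [Finset.prod_mul_distrib]

theorem prodMat_conjTranspose {n : ℕ} (A : Fin n → Matrix (Fin 2) (Fin 2) ℂ) :
    (prodMat A)ᴴ = prodMat fun i => (A i)ᴴ := by
  ext x y
  simp [prodMat, Matrix.conjTranspose_apply]

theorem prodMat_diagonal {n : ℕ} (d : Fin n → Fin 2 → ℂ) :
    prodMat (fun i => diagonal (d i)) = diagonal fun x => ∏ i, d i (x i) := by
  ext x y
  rw [prodMat, diagonal_apply]
  split_ifs with h
  · subst h
    simp
  · obtain ⟨i, hi⟩ := Function.ne_iff.mp h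
    refine Finset.prod_eq_zero (Finset.mem_univ i) ?_
    rw [diagonal_apply_ne _ hi]

theorem prodMat_one {n : ℕ} :
    prodMat (fun _ : Fin n => (1 : Matrix (Fin 2) (Fin 2) ℂ)) = 1 := by
  have h := prodMat_diagonal (n := n) fun _ _ => (1 : ℂ)
  simpa using h

theorem prodMat_trace {n : ℕ} (A : Fin n → Matrix (Fin 2) (Fin 2) ℂ) :
    (prodMat A).trace = ∏ i, (A i).trace := by
  simp only [Matrix.trace, Matrix.diag, prodMat]
  rw [Finset.prod_univ_sum, Fintype.piFinset_univ]

/-- entropy of a unitary conjugate of a diagonal matrix -/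
theorem trPhi_conj_diagonal {I : Type} [Fintype I] [DecidableEq I] {U : Matrix I I ℂ}
    (hU : U * Uᴴ = 1) {d : I → ℝ} (hd : ∀ i, 0 ≤ d i) :
    (U * diagonal (fun i => (d i : ℂ)) * Uᴴ).PosSemidef ∧
      trPhi (U * diagonal (fun i => (d i : ℂ)) * Uᴴ) = ∑ i, Real.negMulLog (d i) := by
  have hU' : Uᴴ * U = 1 := mul_eq_one_comm.mp hU
  have hD : (diagonal (fun i => (d i : ℂ))).PosSemidef := by
    refine PosSemidef.diagonal fun i => ?_
    simpa using hd i
  have hP : (U * diagonal (fun i => (d i : ℂ)) * Uᴴ).PosSemidef :=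
    hD.mul_mul_conjTranspose_same U
  refine ⟨hP, ?_⟩
  have h1 := logRep_det hP
  have h2 : LogRep (fun s => ∑ i, Real.log (s + d i)) (∑ _i : I, 1)
      (∑ i, d i) (∑ i, Real.negMulLog (d i)) :=
    LogRep.sum Finset.univ fun i _ => LogRep.log (hd i)
  have htr : (U * diagonal (fun i => (d i : ℂ)) * Uᴴ).trace.re = ∑ i, d i := by
    rw [Matrix.trace_mul_comm, ← Matrix.mul_assoc, hU', Matrix.one_mul, Matrix.trace_diagonal]
    simp
  have hc : (Fintype.card I : ℝ) = ∑ _i : I, (1 : ℝ) := by simp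
  rw [htr, hc] at h1
  refine h1.eq (h2.congr fun s hs => ?_)
  have hdet : ((s : ℂ) • (1 : Matrix I I ℂ) + U * diagonal (fun i => (d i : ℂ)) * Uᴴ).det
      = ((∏ i, (s + d i) : ℝ) : ℂ) := by
    have e1 : (s : ℂ) • (1 : Matrix I I ℂ) + U * diagonal (fun i => (d i : ℂ)) * Uᴴ
        = U * diagonal (fun i => ((s + d i : ℝ) : ℂ)) * Uᴴ := by
      have e2 : diagonal (fun i => ((s + d i : ℝ) : ℂ))
          = (s : ℂ) • (1 : Matrix I I ℂ) + diagonal (fun i => (d i : ℂ)) := by
        ext i j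
        by_cases hij : i = j
        · subst hij; simp
        · simp [hij]
      rw [e2, Matrix.mul_add, Matrix.add_mul, Matrix.mul_smul, Matrix.smul_mul, Matrix.mul_one,
        hU]
    rw [e1, Matrix.det_mul, Matrix.det_mul, mul_right_comm, ← Matrix.det_mul, hU,
      Matrix.det_one, one_mul, Matrix.det_diagonal]
    push_cast
    rfl
  rw [hdet, Complex.ofReal_re, Real.log_prod]
  intro i _
  have := hd i
  positivity

theorem sum_negMulLog_prod {n : ℕ} (d : Fin n → Fin 2 → ℝ) (h1 : ∀ i, ∑ k, d i k = 1) :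
    ∑ x : Fin n → Fin 2, Real.negMulLog (∏ i, d i (x i)) = ∑ i, ∑ k, Real.negMulLog (d i k) := by
  induction n with
  | zero => simp
  | succ n ih =>
    have hprod : ∑ x : Fin n → Fin 2, ∏ i, d i.succ (x i) = 1 := by
      rw [← Fintype.piFinset_univ, ← Finset.prod_univ_sum]
      exact Finset.prod_eq_one fun i _ => h1 _
    rw [← (Fin.consEquiv fun _ : Fin (n + 1) => Fin 2).sum_comp, Fintype.sum_prod_type,
      Fin.sum_univ_succ (fun i : Fin (n + 1) => ∑ k, Real.negMulLog (d i k)),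
      ← ih (fun i => d i.succ) (fun i => h1 _)]
    have h2 : ∀ (a : Fin 2) (x : Fin n → Fin 2),
        Real.negMulLog (∏ i, d i ((Fin.consEquiv fun _ : Fin (n + 1) => Fin 2) (a, x) i))
          = (∏ i, d i.succ (x i)) * Real.negMulLog (d 0 a)
            + d 0 a * Real.negMulLog (∏ i, d i.succ (x i)) := by
      intro a x
      rw [Fin.prod_univ_succ]
      simp only [Fin.consEquiv_apply, Fin.cons_zero, Fin.cons_succ]
      exact Real.negMulLog_mul _ _
    simp only [h2, Finset.sum_add_distrib, ← Finset.sum_mul, ← Finset.mul_sum, hprod, one_mul,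
      h1 0]

/-- entropy of a tensor product of states -/
theorem trPhi_prodMat {n : ℕ} {M : Fin n → Matrix (Fin 2) (Fin 2) ℂ}
    (hM : ∀ i, (M i).PosSemidef) (ht : ∀ i, (M i).trace = 1) :
    (prodMat M).PosSemidef ∧ trPhi (prodMat M) = ∑ i, trPhi (M i) := by
  have hH : ∀ i, (M i).IsHermitian := fun i => (hM i).isHermitian
  set U : Fin n → Matrix (Fin 2) (Fin 2) ℂ := fun i => ((hH i).eigenvectorUnitary : Matrix _ _ ℂ)
    with hUdef
  have hU : ∀ i, U i * (U i)ᴴ = 1 := fun i => by
    have := Unitary.mul_star_self_of_mem (hH i).eigenvectorUnitary.2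
    simpa [hUdef, star_eq_conjTranspose] using this
  have hspec : ∀ i, M i = U i * diagonal (fun k => ((hH i).eigenvalues k : ℂ)) * (U i)ᴴ := by
    intro i
    have h := (hH i).spectral_theorem
    rw [Unitary.conjStarAlgAut_apply] at h
    exact h
  have hsum : ∀ i, ∑ k, (hH i).eigenvalues k = 1 := by
    intro i
    have h := (hH i).trace_eq_sum_eigenvalues
    rw [ht i] at h
    have h2 := congrArg Complex.re h
    simpa using h2.symm
  have hprod : prodMat M = prodMat U * diagonal (fun x : Fin n → Fin 2 =>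
      ((∏ i, (hH i).eigenvalues (x i) : ℝ) : ℂ)) * (prodMat U)ᴴ := by
    have h3 : (diagonal (fun x : Fin n → Fin 2 => ((∏ i, (hH i).eigenvalues (x i) : ℝ) : ℂ)))
        = prodMat fun i => diagonal (fun k => ((hH i).eigenvalues k : ℂ)) := by
      rw [prodMat_diagonal]
      push_cast
      rfl
    rw [h3, prodMat_conjTranspose, prodMat_mul, prodMat_mul]
    congr 1
    funext i
    exact hspec i
  have hUU : prodMat U * (prodMat U)ᴴ = 1 := by
    rw [prodMat_conjTranspose, prodMat_mul]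
    simp only [hU]
    exact prodMat_one
  have h4 := trPhi_conj_diagonal hUU (d := fun x : Fin n → Fin 2 =>
    ∏ i, (hH i).eigenvalues (x i)) fun x => Finset.prod_nonneg fun i _ =>
      (hM i).eigenvalues_nonneg _
  rw [← hprod] at h4
  refine ⟨h4.1, ?_⟩
  rw [h4.2, sum_negMulLog_prod _ hsum]
  refine Finset.sum_congr rfl fun i _ => ?_
  rw [trPhi, dif_pos (hH i)]

/-- entropy of a qubit state from its determinant -/
theorem trPhi_two {M : Matrix (Fin 2) (Fin 2) ℂ} (hM : M.PosSemidef) (ht : M.trace = 1)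
    {l : ℝ} (h0 : 0 ≤ l) (h1 : l ≤ 1) (hdet : M.det = ((l * (1 - l) : ℝ) : ℂ)) :
    trPhi M = Real.binEntropy l := by
  have h2 := trPhi_conj_diagonal (U := (1 : Matrix (Fin 2) (Fin 2) ℂ)) (by simp)
    (d := ![l, 1 - l]) (by
      intro i
      fin_cases i
      · exact h0
      · simpa using h1)
  rw [Real.binEntropy_eq_negMulLog_add_negMulLog_one_sub]
  have h3 : ∑ i, Real.negMulLog ((![l, 1 - l] : Fin 2 → ℝ) i)
      = Real.negMulLog l + Real.negMulLog (1 - l) := by simp
  rw [← h3, ← h2.2]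
  refine trPhi_congr hM h2.1 rfl ?_ ?_
  · rw [ht, Matrix.trace_fin_two]
    simp
  · intro s _
    have ht' := ht
    rw [Matrix.trace_fin_two] at ht'
    rw [Matrix.det_fin_two] at hdet
    rw [Matrix.det_fin_two, Matrix.det_fin_two]
    simp only [Matrix.add_apply, Matrix.smul_apply, Matrix.one_apply, Matrix.one_mul,
      Matrix.conjTranspose_one, Matrix.mul_one, Matrix.diagonal_apply, smul_eq_mul]
    simp
    push_cast at hdet
    linear_combination hdet + (s : ℂ) * ht'

theorem gad_sum (γ ν : ℝ) (M : Matrix (Fin 2) (Fin 2) ℂ) (a b : Fin 2) :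
    gad γ ν M a b = ∑ u, ∑ v, gad γ ν (Matrix.single u v 1) a b * M u v := by
  fin_cases a <;> fin_cases b <;>
    simp [gad, Fin.sum_univ_two, Matrix.trace_fin_two, Matrix.single] <;> ring

theorem tensorPow_prodMat (γ ν : ℝ) {n : ℕ} (M : Fin n → Matrix (Fin 2) (Fin 2) ℂ) :
    tensorPow (gad γ ν) n (prodMat M) = prodMat fun i => gad γ ν (M i) := by
  ext x y
  simp only [tensorPow, prodMat]
  have h1 : ∀ i, gad γ ν (M i) (x i) (y i)
      = ∑ w : Fin 2 × Fin 2, gad γ ν (Matrix.single w.1 w.2 1) (x i) (y i) * M i w.1 w.2 := by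
    intro i
    rw [gad_sum, Fintype.sum_prod_type]
  simp only [h1]
  rw [Finset.prod_univ_sum, Fintype.piFinset_univ]
  rw [← (Equiv.arrowProdEquivProdArrow (Fin n) (fun _ => Fin 2) (fun _ => Fin 2)).symm.sum_comp,
    Fintype.sum_prod_type]
  refine Finset.sum_congr rfl fun u _ => Finset.sum_congr rfl fun v _ => ?_
  rw [← Finset.prod_mul_distrib]
  rfl

end Vale.Agent.P358
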