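import Vale.Agent.P358.LogRep
import Vale.Agent.P358.ProductAux

namespace Vale.Agent.P358

open Matrix
open scoped ComplexOrder

theorem product_gad_posSemidef {γ ν : ℝ} (hγ : γ ∈ Set.Icc (0 : ℝ) 1)
    (hν : ν ∈ Set.Icc (0 : ℝ) 1) {M : Matrix (Fin 2) (Fin 2) ℂ} (hM : M.PosSemidef) :
    (gad γ ν M).PosSemidef := by
  obtain ⟨hγ0, hγ1⟩ := hγ
  obtain ⟨hν0, hν1⟩ := hν
  have hs : ((√(1 - γ) : ℝ) : ℂ) * ((√(1 - γ) : ℝ) : ℂ) = 1 - (γ : ℂ) := by
    rw [← Complex.ofReal_mul, Real.mul_self_sqrt (by linarith)]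
    push_cast
    rfl
  have c1 : (!![1, 0; 0, ((√(1 - γ) : ℝ) : ℂ)] : Matrix (Fin 2) (Fin 2) ℂ)ᴴ
      = !![1, 0; 0, ((√(1 - γ) : ℝ) : ℂ)] := by
    ext i j
    fin_cases i <;> fin_cases j <;> simp
  have c2 : (!![0, 1; 0, 0] : Matrix (Fin 2) (Fin 2) ℂ)ᴴ = !![0, 0; 1, 0] := by
    ext i j
    fin_cases i <;> fin_cases j <;> simp
  have c3 : (!![((√(1 - γ) : ℝ) : ℂ), 0; 0, 1] : Matrix (Fin 2) (Fin 2) ℂ)ᴴ
      = !![((√(1 - γ) : ℝ) : ℂ), 0; 0, 1] := by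
    ext i j
    fin_cases i <;> fin_cases j <;> simp
  have c4 : (!![0, 0; 1, 0] : Matrix (Fin 2) (Fin 2) ℂ)ᴴ = !![0, 1; 0, 0] := by
    ext i j
    fin_cases i <;> fin_cases j <;> simp
  have key : gad γ ν M =
      ((1 - ν : ℝ) : ℂ) • (!![1, 0; 0, ((√(1 - γ) : ℝ) : ℂ)] * M
          * (!![1, 0; 0, ((√(1 - γ) : ℝ) : ℂ)])ᴴ)
      + (((1 - ν) * γ : ℝ) : ℂ) • (!![0, 1; 0, 0] * M * (!![(0 : ℂ), 1; 0, 0])ᴴ)
      + ((ν : ℝ) : ℂ) • (!![((√(1 - γ) : ℝ) : ℂ), 0; 0, 1] * M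
          * (!![((√(1 - γ) : ℝ) : ℂ), 0; 0, 1])ᴴ)
      + ((ν * γ : ℝ) : ℂ) • (!![0, 0; 1, 0] * M * (!![(0 : ℂ), 0; 1, 0])ᴴ) := by
    rw [c1, c2, c3, c4, Matrix.eta_fin_two M]
    generalize M 0 0 = a
    generalize M 0 1 = b
    generalize M 1 0 = c
    generalize M 1 1 = d
    simp only [Matrix.mul_fin_two, gad, Matrix.trace_fin_two]
    ext i j
    fin_cases i <;> fin_cases j <;> simp
    · linear_combination (-(ν : ℂ) * a) * hs
    · ring
    · ring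
    · linear_combination (-(1 - (ν : ℂ)) * d) * hs
  rw [key]
  have p : ∀ (r : ℝ) (K : Matrix (Fin 2) (Fin 2) ℂ), 0 ≤ r →
      (((r : ℝ) : ℂ) • (K * M * Kᴴ)).PosSemidef := by
    intro r K hr
    exact (hM.mul_mul_conjTranspose_same K).smul (by simpa using hr)
  exact (((p _ _ (by linarith)).add (p _ _ (mul_nonneg (by linarith) hγ0))).add
    (p _ _ hν0)).add (p _ _ (mul_nonneg hν0 hγ0))

theorem product_gad_trace (γ ν : ℝ) (M : Matrix (Fin 2) (Fin 2) ℂ) :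
    (gad γ ν M).trace = M.trace := by
  simp [gad, Matrix.trace_fin_two]

/-- the two equatorial input states -/
noncomputable def eqState (q : ℝ) (s : Fin 2) : Matrix (Fin 2) (Fin 2) ℂ :=
  !![((1 - q : ℝ) : ℂ), (((-1) ^ (s : ℕ) * √(q * (1 - q)) : ℝ) : ℂ);
     (((-1) ^ (s : ℕ) * √(q * (1 - q)) : ℝ) : ℂ), ((q : ℝ) : ℂ)]

theorem eqState_isDensity {q : ℝ} (hq : q ∈ Set.Icc (0 : ℝ) 1) (s : Fin 2) :
    IsDensity (eqState q s) := by
  obtain ⟨h0, h1⟩ := hq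
  constructor
  · have e1 : √(1 - q) * √(1 - q) = 1 - q := Real.mul_self_sqrt (by linarith)
    have e2 : √q * √q = q := Real.mul_self_sqrt h0
    have e3 : √(q * (1 - q)) = √q * √(1 - q) := Real.sqrt_mul h0 _
    have e4 : ((-1 : ℝ) ^ (s : ℕ)) * ((-1) ^ (s : ℕ)) = 1 := by
      rw [← mul_pow]; simp
    have h2 : eqState q s = vecMulVec (fun i => (((![√(1 - q), (-1) ^ (s : ℕ) * √q] : Fin 2 → ℝ) i
        : ℝ) : ℂ)) (star fun i => (((![√(1 - q), (-1) ^ (s : ℕ) * √q] : Fin 2 → ℝ) i : ℝ) : ℂ)) := by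
      ext i j
      rw [vecMulVec_apply, Pi.star_apply, Complex.star_def, Complex.conj_ofReal,
        ← Complex.ofReal_mul]
      fin_cases i <;> fin_cases j
      · have : √(1 - q) * √(1 - q) = 1 - q := e1
        simp only [eqState]
        simp only [Fin.zero_eta, Fin.isValue, Matrix.of_apply, Matrix.cons_val_zero, this,
          Matrix.cons_val']
      · have : √(1 - q) * ((-1) ^ (s : ℕ) * √q) = (-1) ^ (s : ℕ) * √(q * (1 - q)) := by
          rw [e3]; ring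
        simp only [eqState]
        simp only [Fin.zero_eta, Fin.mk_one, Fin.isValue, Matrix.of_apply, Matrix.cons_val_zero,
          Matrix.cons_val_one, this, Matrix.cons_val']
      · have : ((-1) ^ (s : ℕ) * √q) * √(1 - q) = (-1) ^ (s : ℕ) * √(q * (1 - q)) := by
          rw [e3]; ring
        simp only [eqState]
        simp only [Fin.zero_eta, Fin.mk_one, Fin.isValue, Matrix.of_apply, Matrix.cons_val_zero,
          Matrix.cons_val_one, this, Matrix.cons_val']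
      · have : ((-1) ^ (s : ℕ) * √q) * ((-1) ^ (s : ℕ) * √q) = q := by
          linear_combination (√q * √q) * e4 + e2
        change ((q : ℝ) : ℂ) = (((-1) ^ (s : ℕ) * √q * ((-1) ^ (s : ℕ) * √q) : ℝ) : ℂ)
        rw [this]
    rw [h2]
    exact Matrix.posSemidef_vecMulVec_self_star _
  · simp [eqState, Matrix.trace_fin_two]

theorem outEig_mem {γ ν q : ℝ} (hγ : γ ∈ Set.Icc (0 : ℝ) 1) (hν : ν ∈ Set.Icc (0 : ℝ) 1)
    (hq : q ∈ Set.Icc (0 : ℝ) 1) :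
    0 ≤ outEig γ ν q ∧ outEig γ ν q ≤ 1 ∧
      outEig γ ν q * (1 - outEig γ ν q) = γ * (ν * (1 - ν) + (1 - γ) * (q - ν) ^ 2) := by
  obtain ⟨hγ0, hγ1⟩ := hγ
  obtain ⟨hν0, hν1⟩ := hν
  obtain ⟨hq0, hq1⟩ := hq
  have hD0 : 0 ≤ γ * (ν * (1 - ν) + (1 - γ) * (q - ν) ^ 2) := by
    have := mul_nonneg hν0 (sub_nonneg.mpr hν1)
    have := mul_nonneg (sub_nonneg.mpr hγ1) (sq_nonneg (q - ν))
    positivity
  have hD1 : 4 * γ * (ν * (1 - ν) + (1 - γ) * (q - ν) ^ 2) ≤ 1 := by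
    have e : 4 * γ * (ν * (1 - ν) + (1 - γ) * (q - ν) ^ 2)
        = 1 - (1 - 2 * ((1 - γ) * q + γ * ν)) ^ 2 - 4 * ((1 - γ) * (q * (1 - q))) := by ring
    have h1 := sq_nonneg (1 - 2 * ((1 - γ) * q + γ * ν))
    have h2 : 0 ≤ (1 - γ) * (q * (1 - q)) :=
      mul_nonneg (by linarith) (mul_nonneg hq0 (by linarith))
    linarith
  have hs0 := Real.sqrt_nonneg (1 - 4 * γ * (ν * (1 - ν) + (1 - γ) * (q - ν) ^ 2))
  have hs1 : √(1 - 4 * γ * (ν * (1 - ν) + (1 - γ) * (q - ν) ^ 2)) ≤ 1 := by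
    rw [Real.sqrt_le_left zero_le_one]
    have : 0 ≤ 4 * γ * (ν * (1 - ν) + (1 - γ) * (q - ν) ^ 2) := by linarith
    linarith
  have hss := Real.mul_self_sqrt
    (show 0 ≤ 1 - 4 * γ * (ν * (1 - ν) + (1 - γ) * (q - ν) ^ 2) by linarith)
  unfold outEig
  refine ⟨by linarith, by linarith, ?_⟩
  linear_combination (-1 / 4 : ℝ) * hss

theorem gad_eqState (γ ν q : ℝ) (s : Fin 2) :
    gad γ ν (eqState q s) = !![((1 - outPop γ ν q : ℝ) : ℂ),
      (((-1) ^ (s : ℕ) * (√(1 - γ) * √(q * (1 - q))) : ℝ) : ℂ);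
      (((-1) ^ (s : ℕ) * (√(1 - γ) * √(q * (1 - q))) : ℝ) : ℂ), ((outPop γ ν q : ℝ) : ℂ)] := by
  ext i j
  fin_cases i <;> fin_cases j <;> simp [gad, eqState, outPop, Matrix.trace_fin_two] <;> ring

theorem trPhi_gad_eqState {γ ν : ℝ} (hγ : γ ∈ Set.Icc (0 : ℝ) 1) (hν : ν ∈ Set.Icc (0 : ℝ) 1)
    {q : ℝ} (hq : q ∈ Set.Icc (0 : ℝ) 1) (s : Fin 2) :
    trPhi (gad γ ν (eqState q s)) = Real.binEntropy (outEig γ ν q) := by
  obtain ⟨h1, h2, h3⟩ := outEig_mem hγ hν hq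
  have hd := eqState_isDensity hq s
  refine trPhi_two (product_gad_posSemidef hγ hν hd.1) ?_ h1 h2 ?_
  · rw [product_gad_trace, hd.2]
  · rw [gad_eqState, Matrix.det_fin_two, h3]
    have e1 : √(1 - γ) * √(1 - γ) = 1 - γ := Real.mul_self_sqrt (by linarith [hγ.2])
    have e2 : √(q * (1 - q)) * √(q * (1 - q)) = q * (1 - q) :=
      Real.mul_self_sqrt (mul_nonneg hq.1 (by linarith [hq.2]))
    have e4 : ((-1 : ℝ) ^ (s : ℕ)) * ((-1) ^ (s : ℕ)) = 1 := by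
      rw [← mul_pow]; simp
    simp only [Matrix.of_apply, Matrix.cons_val', Matrix.cons_val_zero, Matrix.cons_val_one]
    rw [← Complex.ofReal_mul, ← Complex.ofReal_mul, ← Complex.ofReal_sub]
    congr 1
    unfold outPop
    linear_combination (-(√(1 - γ) * √(1 - γ)) * (√(q * (1 - q)) * √(q * (1 - q)))) * e4
      - (√(q * (1 - q)) * √(q * (1 - q))) * e1 - (1 - γ) * e2

theorem avg_gad_eqState (γ ν q : ℝ) (a b : Fin 2) :
    ∑ s : Fin 2, (1 / 2 : ℂ) * gad γ ν (eqState q s) a b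
      = diagonal (fun k => (((![1 - outPop γ ν q, outPop γ ν q] : Fin 2 → ℝ) k : ℝ) : ℂ)) a b := by
  simp only [gad_eqState, Fin.sum_univ_two]
  fin_cases a <;> fin_cases b <;> simp <;> ring

theorem outPop_mem {γ ν : ℝ} (hγ : γ ∈ Set.Icc (0 : ℝ) 1) (hν : ν ∈ Set.Icc (0 : ℝ) 1)
    {q : ℝ} (hq : q ∈ Set.Icc (0 : ℝ) 1) : 0 ≤ outPop γ ν q ∧ outPop γ ν q ≤ 1 := by
  obtain ⟨hγ0, hγ1⟩ := hγ
  obtain ⟨hν0, hν1⟩ := hν
  obtain ⟨hq0, hq1⟩ := hq
  unfold outPop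
  constructor
  · have := mul_nonneg (sub_nonneg.mpr hγ1) hq0
    have := mul_nonneg hγ0 hν0
    linarith
  · nlinarith [mul_nonneg (sub_nonneg.mpr hγ1) (sub_nonneg.mpr hq1),
      mul_nonneg hγ0 (sub_nonneg.mpr hν1)]

theorem diag_state {t : ℝ} (h0 : 0 ≤ t) (h1 : t ≤ 1) :
    (diagonal (fun k => (((![1 - t, t] : Fin 2 → ℝ) k : ℝ) : ℂ))).PosSemidef ∧
    (diagonal (fun k => (((![1 - t, t] : Fin 2 → ℝ) k : ℝ) : ℂ))).trace = 1 ∧
    trPhi (diagonal (fun k => (((![1 - t, t] : Fin 2 → ℝ) k : ℝ) : ℂ))) = Real.binEntropy t := by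
  have h2 := trPhi_conj_diagonal (U := (1 : Matrix (Fin 2) (Fin 2) ℂ)) (by simp)
    (d := ![1 - t, t]) (by
      intro i
      fin_cases i
      · simpa using h1
      · exact h0)
  simp only [Matrix.one_mul, Matrix.conjTranspose_one, Matrix.mul_one] at h2
  refine ⟨h2.1, ?_, ?_⟩
  · rw [Matrix.trace_diagonal, Fin.sum_univ_two]
    simp
  · rw [h2.2, Real.binEntropy_eq_negMulLog_add_negMulLog_one_sub, Fin.sum_univ_two]
    simp [add_comm]

/-- the equatorial pair of pure states achieves the one-parameter Holevo function -/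
theorem holevoFun_mem {γ ν : ℝ} (hγ : γ ∈ Set.Icc (0 : ℝ) 1) (hν : ν ∈ Set.Icc (0 : ℝ) 1)
    {q : ℝ} (hq : q ∈ Set.Icc (0 : ℝ) 1) : holevoFun γ ν q ∈ holevoSet (gad γ ν) := by
  refine ⟨2, fun _ => 1 / 2, eqState q, fun _ => by norm_num, by simp,
    fun a => eqState_isDensity hq a, ?_⟩
  have h1 : (∑ a : Fin 2, (((1 / 2 : ℝ)) : ℂ) • gad γ ν (eqState q a))
      = diagonal (fun k => (((![1 - outPop γ ν q, outPop γ ν q] : Fin 2 → ℝ) k : ℝ) : ℂ)) := by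
    ext a b
    rw [← avg_gad_eqState, Matrix.sum_apply]
    simp
  obtain ⟨ht0, ht1⟩ := outPop_mem hγ hν hq
  rw [h1]
  simp only [vonNeumann_eq, trPhi_gad_eqState hγ hν hq, (diag_state ht0 ht1).2.2]
  rw [holevoFun, Fin.sum_univ_two]
  ring

/-- product ensembles -/
theorem nsmul_holevoFun_mem {γ ν : ℝ} (hγ : γ ∈ Set.Icc (0 : ℝ) 1)
    (hν : ν ∈ Set.Icc (0 : ℝ) 1) {q : ℝ} (hq : q ∈ Set.Icc (0 : ℝ) 1) (n : ℕ) :
    (n : ℝ) * holevoFun γ ν q ∈ holevoSet (tensorPow (gad γ ν) n) := by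
  obtain ⟨ht0, ht1⟩ := outPop_mem hγ hν hq
  set e : Fin (2 ^ n) ≃ (Fin n → Fin 2) := finFunctionFinEquiv.symm with he
  have hout : ∀ s, (gad γ ν (eqState q s)).PosSemidef ∧ (gad γ ν (eqState q s)).trace = 1 :=
    fun s => ⟨product_gad_posSemidef hγ hν (eqState_isDensity hq s).1, by
      rw [product_gad_trace, (eqState_isDensity hq s).2]⟩
  refine ⟨2 ^ n, fun _ => (1 / 2) ^ n, fun a => prodMat fun i => eqState q (e a i),
    fun _ => by positivity, ?_, fun a => ⟨?_, ?_⟩, ?_⟩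
  · rw [Finset.sum_const, Finset.card_univ, Fintype.card_fin, nsmul_eq_mul]
    push_cast
    rw [← mul_pow]
    norm_num
  · exact (trPhi_prodMat (fun i => (eqState_isDensity hq _).1)
      fun i => (eqState_isDensity hq _).2).1
  · rw [prodMat_trace]
    exact Finset.prod_eq_one fun i _ => (eqState_isDensity hq _).2
  · simp only [tensorPow_prodMat]
    have h1 : (∑ a : Fin (2 ^ n), ((((1 / 2 : ℝ)) ^ n : ℝ) : ℂ) •
        prodMat fun i => gad γ ν (eqState q (e a i)))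
        = prodMat fun _ : Fin n => diagonal
          (fun k => (((![1 - outPop γ ν q, outPop γ ν q] : Fin 2 → ℝ) k : ℝ) : ℂ)) := by
      ext x y
      rw [Matrix.sum_apply]
      simp only [Matrix.smul_apply, smul_eq_mul, prodMat]
      simp only [← avg_gad_eqState]
      rw [Finset.prod_univ_sum, Fintype.piFinset_univ, ← e.sum_comp]
      refine Finset.sum_congr rfl fun a _ => ?_
      rw [Finset.prod_mul_distrib, Finset.prod_const, Finset.card_univ, Fintype.card_fin]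
      push_cast
      rfl
    rw [h1]
    simp only [vonNeumann_eq]
    rw [(trPhi_prodMat (fun _ => (diag_state ht0 ht1).1)
      fun _ => (diag_state ht0 ht1).2.1).2]
    have h2 : ∀ a : Fin (2 ^ n), trPhi (prodMat fun i => gad γ ν (eqState q (e a i)))
        = n * Real.binEntropy (outEig γ ν q) := by
      intro a
      rw [(trPhi_prodMat (fun i => (hout _).1) fun i => (hout _).2).2]
      simp only [trPhi_gad_eqState hγ hν hq]
      rw [Finset.sum_const, Finset.card_univ, Fintype.card_fin, nsmul_eq_mul]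
    simp only [h2, (diag_state ht0 ht1).2.2]
    rw [Finset.sum_const, Finset.card_univ, Fintype.card_fin, nsmul_eq_mul, Finset.sum_const,
      Finset.card_univ, Fintype.card_fin, nsmul_eq_mul]
    have h3 : ((2 ^ n : ℕ) : ℝ) * (1 / 2) ^ n = 1 := by
      push_cast
      rw [← mul_pow]
      norm_num
    rw [holevoFun, ← mul_assoc, h3]
    ring

end Vale.Agent.P358
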