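import Vale.Agent.P358.Core

namespace Vale.Agent.P358

open Matrix
open scoped ComplexOrder

theorem onb_matrix {n : Type} [Fintype n] [DecidableEq n]
    (b : OrthonormalBasis n ℂ (EuclideanSpace ℂ n)) :
    (Matrix.of fun i k => b k i)ᴴ * (Matrix.of fun i k => b k i) = 1 := by
  ext k l
  have h := (orthonormal_iff_ite.1 b.orthonormal) k l
  rw [PiLp.inner_apply] at h
  simp only [RCLike.inner_apply] at h
  rw [Matrix.mul_apply, Matrix.one_apply, ← h]
  refine Finset.sum_congr rfl fun i _ => ?_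
  simp [Matrix.conjTranspose_apply, mul_comm]

/-- singular value decomposition of a square complex matrix -/
theorem exists_svd {n : Type} [Fintype n] [DecidableEq n] (X : Matrix n n ℂ) :
    ∃ (U V : Matrix n n ℂ) (d : n → ℝ), U * Uᴴ = 1 ∧ V * Vᴴ = 1 ∧ Uᴴ * U = 1 ∧ Vᴴ * V = 1 ∧
      (∀ k, 0 ≤ d k) ∧ X = U * diagonal (fun k => (d k : ℂ)) * Vᴴ := by
  have hpsd : (Xᴴ * X).PosSemidef := Matrix.posSemidef_conjTranspose_mul_self X
  have hH := hpsd.isHermitian
  set lam := hH.eigenvalues with hlam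
  have hnn : ∀ k, 0 ≤ lam k := hpsd.eigenvalues_nonneg
  set V : Matrix n n ℂ := Matrix.of fun i k => hH.eigenvectorBasis k i with hV
  have hVV : Vᴴ * V = 1 := onb_matrix _
  have hVV' : V * Vᴴ = 1 := mul_eq_one_comm.1 hVV
  have hHV : (Xᴴ * X) * V = V * diagonal (fun k => (lam k : ℂ)) := by
    ext i k
    have h := congrFun (hH.mulVec_eigenvectorBasis k) i
    rw [Matrix.mul_diagonal, Matrix.mul_apply]
    simp only [Matrix.mulVec, dotProduct, Pi.smul_apply, Complex.real_smul] at h
    rw [hV]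
    simp only [Matrix.of_apply]
    rw [h, mul_comm]
  set W := X * V with hW
  have hWW : Wᴴ * W = diagonal (fun k => (lam k : ℂ)) := by
    rw [hW, Matrix.conjTranspose_mul, Matrix.mul_assoc, ← Matrix.mul_assoc Xᴴ, hHV,
      ← Matrix.mul_assoc, hVV, Matrix.one_mul]
  have hin : ∀ k l, ∑ i, W i l * (starRingEnd ℂ) (W i k) = if k = l then (lam k : ℂ) else 0 := by
    intro k l
    have h := congrFun (congrFun hWW k) l
    rw [Matrix.mul_apply, Matrix.diagonal_apply] at h
    rw [← h]
    refine Finset.sum_congr rfl fun i _ => ?_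
    simp [Matrix.conjTranspose_apply, mul_comm]
  set d : n → ℝ := fun k => √(lam k) with hd
  have hd2 : ∀ k, (d k : ℂ) * d k = lam k := by
    intro k
    rw [← Complex.ofReal_mul, hd]
    simp only [Real.mul_self_sqrt (hnn k)]
  let u : n → EuclideanSpace ℂ n := fun k => WithLp.toLp 2 fun i => ((d k)⁻¹ : ℂ) * W i k
  let s : Set n := {k | d k ≠ 0}
  have hon : Orthonormal ℂ (s.domRestrict u) := by
    rw [orthonormal_iff_ite]
    rintro ⟨k, hk⟩ ⟨l, hl⟩
    rw [PiLp.inner_apply]
    simp only [RCLike.inner_apply]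
    change ∑ i, ((d l : ℂ)⁻¹ * W i l) * (starRingEnd ℂ) ((d k : ℂ)⁻¹ * W i k) = _
    simp only [map_mul, map_inv₀, Complex.conj_ofReal]
    have h1 : ∑ i, ((d l : ℂ)⁻¹ * W i l) * ((d k : ℂ)⁻¹ * (starRingEnd ℂ) (W i k)) =
        (d l : ℂ)⁻¹ * (d k : ℂ)⁻¹ * ∑ i, W i l * (starRingEnd ℂ) (W i k) := by
      rw [Finset.mul_sum]
      refine Finset.sum_congr rfl fun i _ => ?_
      ring
    rw [h1, hin]
    have hk' : (d k : ℂ) ≠ 0 := by exact_mod_cast hk
    by_cases hkl : k = l
    · subst hkl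
      simp only [if_true, ← hd2 k]
      field_simp
    · have : (⟨k, hk⟩ : s) ≠ ⟨l, hl⟩ := fun h => hkl (congrArg Subtype.val h)
      simp [hkl, this]
  obtain ⟨b, hb⟩ := hon.exists_orthonormalBasis_extension_of_card_eq (by simp)
  set U : Matrix n n ℂ := Matrix.of fun i k => b k i with hU
  have hUU : Uᴴ * U = 1 := onb_matrix _
  have hUU' : U * Uᴴ = 1 := mul_eq_one_comm.1 hUU
  have hWU : W = U * diagonal (fun k => (d k : ℂ)) := by
    ext i k
    rw [Matrix.mul_diagonal]
    by_cases hk : d k = 0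
    · rw [hk]
      have h1 := hin k k
      rw [if_pos rfl, ← hd2 k, hk] at h1
      simp only [Complex.ofReal_zero, mul_zero] at h1
      have h2 : ∑ i, Complex.normSq (W i k) = 0 := by
        have h3 : ((∑ i, Complex.normSq (W i k) : ℝ) : ℂ) = 0 := by
          rw [← h1]
          push_cast
          refine Finset.sum_congr rfl fun i _ => ?_
          rw [Complex.mul_conj]
        exact_mod_cast h3
      have h4 := (Finset.sum_eq_zero_iff_of_nonneg fun i _ => Complex.normSq_nonneg (W i k)).1 h2 i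
        (Finset.mem_univ i)
      rw [Complex.normSq_eq_zero.1 h4]
      simp
    · have h1 : b k = u k := hb k hk
      have h2 : U i k = u k i := by rw [hU]; simp only [Matrix.of_apply]; rw [h1]
      rw [h2]
      have hk' : (d k : ℂ) ≠ 0 := by exact_mod_cast hk
      change W i k = ((d k)⁻¹ : ℂ) * W i k * d k
      field_simp
  refine ⟨U, V, d, hUU', hVV', hUU, hVV, fun k => Real.sqrt_nonneg _, ?_⟩
  rw [← hWU, hW, Matrix.mul_assoc, hVV', Matrix.mul_one]

end Vale.Agent.P358
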