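import Vale.Agent.P358.LogRep
import Vale.Agent.P358.Svd

namespace Vale.Agent.P358

open Matrix
open scoped ComplexOrder

/-- Schur-type bound: the entropy is at most the entropy of the diagonal. -/
theorem trPhi_le_diag' {I : Type} [Fintype I] [DecidableEq I] {M : Matrix I I ℂ}
    (hM : M.PosSemidef) : trPhi M ≤ ∑ i, Real.negMulLog (M i i).re := by
  have hH := hM.isHermitian
  rw [trPhi, dif_pos hH]
  set lam := hH.eigenvalues with hlam
  have hnn : ∀ k, 0 ≤ lam k := hM.eigenvalues_nonneg
  set V : Matrix I I ℂ := Matrix.of fun i k => hH.eigenvectorBasis k i with hV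
  have hVV : Vᴴ * V = 1 := onb_matrix _
  have hVV' : V * Vᴴ = 1 := mul_eq_one_comm.1 hVV
  have hHV : M * V = V * diagonal (fun k => (lam k : ℂ)) := by
    ext i k
    have h := congrFun (hH.mulVec_eigenvectorBasis k) i
    rw [Matrix.mul_diagonal, Matrix.mul_apply]
    simp only [Matrix.mulVec, dotProduct, Pi.smul_apply, Complex.real_smul] at h
    rw [hV]
    simp only [Matrix.of_apply]
    rw [h, mul_comm]
  have hMV : M = V * diagonal (fun k => (lam k : ℂ)) * Vᴴ := by
    rw [← hHV, Matrix.mul_assoc, hVV', Matrix.mul_one]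
  have hdiag : ∀ i, (M i i).re = ∑ j, Complex.normSq (V i j) * lam j := by
    intro i
    have h1 : M i i = ∑ j, ((Complex.normSq (V i j) * lam j : ℝ) : ℂ) := by
      conv_lhs => rw [hMV]
      rw [Matrix.mul_apply]
      refine Finset.sum_congr rfl fun j _ => ?_
      rw [Matrix.mul_diagonal, Matrix.conjTranspose_apply]
      push_cast
      rw [← Complex.mul_conj]
      simp only [RCLike.star_def]
      ring
    rw [h1, ← Complex.ofReal_sum, Complex.ofReal_re]
  have hrow : ∀ i, ∑ j, Complex.normSq (V i j) = 1 := by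
    intro i
    have h1 := congrFun (congrFun hVV' i) i
    rw [Matrix.mul_apply, Matrix.one_apply_eq] at h1
    have h2 : ((∑ j, Complex.normSq (V i j) : ℝ) : ℂ) = 1 := by
      rw [← h1]
      push_cast
      refine Finset.sum_congr rfl fun j _ => ?_
      rw [Matrix.conjTranspose_apply, ← Complex.mul_conj]
      rfl
    exact_mod_cast h2
  have hcol : ∀ j, ∑ i, Complex.normSq (V i j) = 1 := by
    intro j
    have h1 := congrFun (congrFun hVV j) j
    rw [Matrix.mul_apply, Matrix.one_apply_eq] at h1
    have h2 : ((∑ i, Complex.normSq (V i j) : ℝ) : ℂ) = 1 := by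
      rw [← h1]
      push_cast
      refine Finset.sum_congr rfl fun i _ => ?_
      rw [Matrix.conjTranspose_apply, ← Complex.mul_conj, mul_comm]
      rfl
    exact_mod_cast h2
  have hjen : ∀ i, ∑ j, Complex.normSq (V i j) * Real.negMulLog (lam j) ≤
      Real.negMulLog (M i i).re := by
    intro i
    rw [hdiag i]
    have h := Real.concaveOn_negMulLog.le_map_sum (t := Finset.univ)
      (w := fun j => Complex.normSq (V i j)) (p := lam)
      (fun j _ => Complex.normSq_nonneg _) (hrow i) (fun j _ => hnn j)
    simpa only [smul_eq_mul] using h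
  calc ∑ j, Real.negMulLog (lam j)
      = ∑ j, (∑ i, Complex.normSq (V i j)) * Real.negMulLog (lam j) := by
        refine Finset.sum_congr rfl fun j _ => ?_
        rw [hcol j, one_mul]
    _ = ∑ i, ∑ j, Complex.normSq (V i j) * Real.negMulLog (lam j) := by
        rw [Finset.sum_comm]
        refine Finset.sum_congr rfl fun j _ => ?_
        rw [Finset.sum_mul]
    _ ≤ ∑ i, Real.negMulLog (M i i).re := Finset.sum_le_sum fun i _ => hjen i

end Vale.Agent.P358
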