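import Vale.Agent.P358.UpperShannon
import Vale.Agent.P358.UpperDiag

namespace Vale.Agent.P358

open Matrix
open scoped ComplexOrder

/-- Schur-type bound: the entropy is at most the entropy of the diagonal. -/
theorem trPhi_le_diag {I : Type} [Fintype I] [DecidableEq I] {M : Matrix I I ℂ}
    (hM : M.PosSemidef) : trPhi M ≤ ∑ i, Real.negMulLog (M i i).re :=
  trPhi_le_diag' hM

/-- subadditivity of the Shannon entropy over the bits -/
theorem shannon_le_marginals {n : ℕ} (p : (Fin n → Fin 2) → ℝ) (hp : ∀ x, 0 ≤ p x)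
    (h1 : ∑ x, p x = 1) :
    ∑ x, Real.negMulLog (p x) ≤
      ∑ i, Real.binEntropy (∑ x : Fin n → Fin 2, if x i = 1 then p x else 0) :=
  shannon_le_marginals' p hp h1

theorem entropy_le_marginals {n : ℕ} {ρ : Matrix (Fin n → Fin 2) (Fin n → Fin 2) ℂ}
    (hρ : IsDensity ρ) : trPhi ρ ≤ ∑ i, Real.binEntropy (pop ρ i) := by
  refine (trPhi_le_diag hρ.1).trans ?_
  refine shannon_le_marginals (fun x => (ρ x x).re) (fun x => ?_) ?_
  · have h := hρ.1.diag_nonneg (i := x)
    exact (Complex.le_def.1 h).1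
  · have h := congrArg Complex.re hρ.2
    rw [Matrix.trace, Complex.re_sum] at h
    simpa using h

end Vale.Agent.P358
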