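import Vale.Agent.P358.Tensor
import Vale.Agent.P358.Upper
import Vale.Agent.P358.Product

namespace Vale.Agent.P358

open Matrix
open scoped ComplexOrder

theorem final_pop_sum {n k : ℕ} (p : Fin k → ℝ)
    (M : Fin k → Matrix (Fin n → Fin 2) (Fin n → Fin 2) ℂ) (i : Fin n) :
    pop (∑ a, (p a : ℂ) • M a) i = ∑ a, p a * pop (M a) i := by
  unfold pop
  simp only [Finset.mul_sum]
  rw [Finset.sum_comm]
  refine Finset.sum_congr rfl fun x _ => ?_
  by_cases h : x i = 1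
  · simp only [h, if_true]
    rw [Matrix.sum_apply, Complex.re_sum]
    refine Finset.sum_congr rfl fun a _ => ?_
    rw [Matrix.smul_apply, smul_eq_mul, Complex.re_ofReal_mul]
  · simp [h]

theorem final_mix {I : Type} [Fintype I] {k : ℕ} {p : Fin k → ℝ} (hp : ∀ a, 0 ≤ p a)
    (hp1 : ∑ a, p a = 1) {M : Fin k → Matrix I I ℂ} (hM : ∀ a, IsDensity (M a)) :
    IsDensity (∑ a, (p a : ℂ) • M a) := by
  refine ⟨?_, ?_⟩
  · refine Matrix.posSemidef_sum _ fun a _ => (hM a).1.smul ?_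
    simpa using hp a
  · rw [Matrix.trace_sum]
    simp only [Matrix.trace_smul, (hM _).2, smul_eq_mul, mul_one]
    rw [← Complex.ofReal_sum, hp1, Complex.ofReal_one]

theorem final_pop_mem {n : ℕ} {ρ : Matrix (Fin n → Fin 2) (Fin n → Fin 2) ℂ}
    (hρ : IsDensity ρ) (i : Fin n) : pop ρ i ∈ Set.Icc (0 : ℝ) 1 := by
  have hd : ∀ x, 0 ≤ (ρ x x).re := fun x => (Complex.le_def.1 (hρ.1.diag_nonneg (i := x))).1
  have ht : ∑ x, (ρ x x).re = 1 := by
    have := congrArg Complex.re hρ.2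
    rw [Matrix.trace, Complex.re_sum] at this
    simpa [Matrix.diag] using this
  unfold pop
  refine ⟨Finset.sum_nonneg fun x _ => ?_, ?_⟩
  · split_ifs
    · exact hd x
    · exact le_rfl
  · rw [← ht]
    refine Finset.sum_le_sum fun x _ => ?_
    split_ifs
    · exact le_rfl
    · exact hd x

theorem final_upper {γ ν : ℝ} (hγ : γ ∈ Set.Icc (0 : ℝ) 1) (hν : ν ∈ Set.Icc (0 : ℝ) 1)
    (hk : Key γ ν) {K : ℝ} (hK : ∀ q ∈ Set.Icc (0 : ℝ) 1, holevoFun γ ν q ≤ K) (n : ℕ) {x : ℝ}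
    (hx : x ∈ holevoSet (tensorPow (gad γ ν) n)) : x ≤ n * K := by
  obtain ⟨k, p, ρ, hp, hp1, hρ, rfl⟩ := hx
  have hlog : 0 < Real.log 2 := Real.log_pos (by norm_num)
  have hout : ∀ a, IsDensity (tensorPow (gad γ ν) n (ρ a)) := fun a =>
    ⟨tensorPow_posSemidef hγ hν (hρ a).1, by rw [tensorPow_trace, (hρ a).2]⟩
  set q : Fin n → ℝ := fun i => ∑ a, p a * pop (ρ a) i with hq
  have hqmem : ∀ i, q i ∈ Set.Icc (0 : ℝ) 1 := by
    intro i
    have h := final_pop_mem (final_mix hp hp1 hρ) i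
    rwa [final_pop_sum] at h
  have h1 : trPhi (∑ a, (p a : ℂ) • tensorPow (gad γ ν) n (ρ a))
      ≤ ∑ i, Real.binEntropy (outPop γ ν (q i)) := by
    refine (entropy_le_marginals (final_mix hp hp1 hout)).trans (le_of_eq ?_)
    refine Finset.sum_congr rfl fun i _ => ?_
    congr 1
    rw [final_pop_sum]
    simp only [pop_tensorPow, (hρ _).2, Complex.one_re, mul_one, mul_add]
    rw [Finset.sum_add_distrib, ← Finset.sum_mul, hp1, outPop, hq, Finset.mul_sum, one_mul]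
    congr 1
    exact Finset.sum_congr rfl fun a _ => by ring
  have h2 : ∀ a, ∑ i, eN γ ν (pop (ρ a) i) ≤ trPhi (tensorPow (gad γ ν) n (ρ a)) := by
    intro a
    have h := tensorPow_lower hγ hν hk (hρ a).1
    rw [(hρ a).2, Complex.one_re] at h
    simpa [EE] using h
  have h3 : ∑ i, eN γ ν (q i) ≤ ∑ a, p a * trPhi (tensorPow (gad γ ν) n (ρ a)) := by
    calc ∑ i, eN γ ν (q i) ≤ ∑ i, ∑ a, p a * eN γ ν (pop (ρ a) i) := by
          refine Finset.sum_le_sum fun i _ => ?_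
          have h := (convexOn_eN hγ hν).map_sum_le (t := Finset.univ) (w := p)
            (p := fun a => pop (ρ a) i) (fun a _ => hp a) hp1
            (fun a _ => final_pop_mem (hρ a) i)
          simpa [hq] using h
      _ = ∑ a, p a * ∑ i, eN γ ν (pop (ρ a) i) := by
          rw [Finset.sum_comm]
          exact Finset.sum_congr rfl fun a _ => (Finset.mul_sum _ _ _).symm
      _ ≤ _ := Finset.sum_le_sum fun a _ => mul_le_mul_of_nonneg_left (h2 a) (hp a)
  simp only [vonNeumann_eq]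
  have h4 : ∑ a, p a * (trPhi (tensorPow (gad γ ν) n (ρ a)) / Real.log 2)
      = (∑ a, p a * trPhi (tensorPow (gad γ ν) n (ρ a))) / Real.log 2 := by
    rw [Finset.sum_div]
    exact Finset.sum_congr rfl fun a _ => by ring
  rw [h4, ← sub_div, div_le_iff₀ hlog]
  have h5 : ∀ i, Real.binEntropy (outPop γ ν (q i)) - eN γ ν (q i) ≤ K * Real.log 2 := by
    intro i
    have h := hK (q i) (hqmem i)
    rw [holevoFun, div_le_iff₀ hlog] at h
    exact h
  calc trPhi (∑ a, (p a : ℂ) • tensorPow (gad γ ν) n (ρ a))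
        - ∑ a, p a * trPhi (tensorPow (gad γ ν) n (ρ a))
      ≤ ∑ i, Real.binEntropy (outPop γ ν (q i)) - ∑ i, eN γ ν (q i) := by linarith
    _ = ∑ i, (Real.binEntropy (outPop γ ν (q i)) - eN γ ν (q i)) := by
        rw [Finset.sum_sub_distrib]
    _ ≤ ∑ _i : Fin n, K * Real.log 2 := Finset.sum_le_sum fun i _ => h5 i
    _ = n * K * Real.log 2 := by
        rw [Finset.sum_const, Finset.card_univ, Fintype.card_fin, nsmul_eq_mul]
        ring

theorem final_gad_single {γ ν : ℝ} (hγ : γ ∈ Set.Icc (0 : ℝ) 1) (hν : ν ∈ Set.Icc (0 : ℝ) 1)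
    {x : ℝ} (hx : x ∈ holevoSet (gad γ ν)) : x ∈ holevoSet (tensorPow (gad γ ν) 1) := by
  obtain ⟨k, p, ρ, hp, hp1, hρ, rfl⟩ := hx
  have hgad : ∀ a, IsDensity (gad γ ν (ρ a)) := fun a =>
    ⟨product_gad_posSemidef hγ hν (hρ a).1, by rw [product_gad_trace, (hρ a).2]⟩
  have hone : ∀ M : Matrix (Fin 2) (Fin 2) ℂ, IsDensity M →
      trPhi (prodMat fun _ : Fin 1 => M) = trPhi M := by
    intro M hM
    rw [(trPhi_prodMat (fun _ => hM.1) fun _ => hM.2).2]
    simp
  refine ⟨k, p, fun a => prodMat fun _ : Fin 1 => ρ a, hp, hp1, fun a => ⟨?_, ?_⟩, ?_⟩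
  · exact (trPhi_prodMat (fun _ => (hρ a).1) fun _ => (hρ a).2).1
  · rw [prodMat_trace]
    exact Finset.prod_eq_one fun i _ => (hρ a).2
  · simp only [tensorPow_prodMat]
    have h1 : (∑ a, (p a : ℂ) • prodMat fun _ : Fin 1 => gad γ ν (ρ a))
        = prodMat fun _ : Fin 1 => ∑ a, (p a : ℂ) • gad γ ν (ρ a) := by
      ext x y
      simp [prodMat, Matrix.sum_apply]
    rw [h1]
    simp only [vonNeumann_eq]
    rw [hone _ (final_mix hp hp1 hgad)]
    simp only [hone _ (hgad _)]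

theorem final_continuous (γ ν : ℝ) : Continuous (holevoFun γ ν) := by
  unfold holevoFun outPop outEig
  refine Continuous.div_const (Continuous.sub ?_ ?_) _
  · exact Real.binEntropy_continuous.comp (by fun_prop)
  · exact Real.binEntropy_continuous.comp (by fun_prop)

theorem main_of_key {γ ν : ℝ} (hγ : γ ∈ Set.Icc (0 : ℝ) 1) (hν : ν ∈ Set.Icc (0 : ℝ) 1)
    (hk : Key γ ν) :
    (∀ n : ℕ, BddAbove (holevoSet (tensorPow (gad γ ν) n))) ∧
    BddAbove (holevoSet (gad γ ν)) ∧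
    (∀ n : ℕ, holevo (tensorPow (gad γ ν) n) = n * holevo (gad γ ν)) ∧
    capacity (gad γ ν) = holevo (gad γ ν) ∧
    IsGreatest (holevoFun γ ν '' Set.Icc 0 1) (holevo (gad γ ν)) := by
  obtain ⟨q₀, hq₀, hmax⟩ := (isCompact_Icc (a := (0 : ℝ)) (b := 1)).exists_isMaxOn
    ⟨0, by simp⟩ (final_continuous γ ν).continuousOn
  have hK : ∀ q ∈ Set.Icc (0 : ℝ) 1, holevoFun γ ν q ≤ holevoFun γ ν q₀ := fun q hq => hmax hq
  have hup := fun n => fun x => final_upper hγ hν hk hK n (x := x)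
  have hgr : ∀ n : ℕ, IsGreatest (holevoSet (tensorPow (gad γ ν) n))
      (n * holevoFun γ ν q₀) := fun n =>
    ⟨nsmul_holevoFun_mem hγ hν hq₀ n, fun x hx => hup n x hx⟩
  have hgr1 : IsGreatest (holevoSet (gad γ ν)) (holevoFun γ ν q₀) := by
    refine ⟨holevoFun_mem hγ hν hq₀, fun x hx => ?_⟩
    have h := hup 1 x (final_gad_single hγ hν hx)
    simpa using h
  have e1 : holevo (gad γ ν) = holevoFun γ ν q₀ := hgr1.csSup_eq
  have e2 : ∀ n : ℕ, holevo (tensorPow (gad γ ν) n) = n * holevoFun γ ν q₀ := fun n =>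
    (hgr n).csSup_eq
  refine ⟨fun n => (hgr n).bddAbove, hgr1.bddAbove, fun n => by rw [e2, e1], ?_, ?_⟩
  · unfold capacity
    have h : ∀ n : ℕ, holevo (tensorPow (gad γ ν) (n + 1)) / ((n : ℝ) + 1)
        = holevoFun γ ν q₀ := by
      intro n
      rw [e2]
      push_cast
      have : (n : ℝ) + 1 ≠ 0 := by positivity
      field_simp
    simp only [h, e1, ciSup_const]
  · rw [e1]
    exact ⟨⟨q₀, hq₀, rfl⟩, by rintro _ ⟨q, hq, rfl⟩; exact hK q hq⟩

end Vale.Agent.P358
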