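import Vale.Agent.P358.PinchAux

namespace Vale.Agent.P358

open Matrix
open scoped ComplexOrder

/-- midpoint inequality for `log |det (K + J)| - log det K` -/
theorem skew_midpoint {m : Type} [Fintype m] [DecidableEq m] {K0 K1 J : Matrix m m ℂ}
    (h0 : K0.PosDef) (h1 : K1.PosDef) (hJ : Jᴴ = -J) :
    ‖((1 / 2 : ℝ) • (K0 + K1) + J).det‖ ^ 2 * (‖K0.det‖ * ‖K1.det‖)
      ≤ ‖(K0 + J).det‖ * ‖(K1 + J).det‖ * ‖((1 / 2 : ℝ) • (K0 + K1)).det‖ ^ 2 := by
  obtain ⟨K, hK⟩ : ∃ K : Matrix m m ℂ, K = (1 / 2 : ℝ) • (K0 + K1) := ⟨_, rfl⟩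
  have hKpd : K.PosDef := by
    rw [hK]; exact (h0.add_posSemidef h1.posSemidef).smul (by norm_num)
  obtain ⟨Z, hZ⟩ := exists_gram hKpd.posSemidef
  have hZu : IsUnit Z.det := by
    have h2 : K.det ≠ 0 := hKpd.det_pos.ne'
    rw [hZ, det_mul] at h2
    exact isUnit_iff_ne_zero.mpr (left_ne_zero_of_mul h2)
  have hl : Z⁻¹ * Z = 1 := Matrix.nonsing_inv_mul _ hZu
  have hr : Z * Z⁻¹ = 1 := Matrix.mul_nonsing_inv _ hZu
  obtain ⟨S, hS⟩ : ∃ S : Matrix m m ℂ, S = Z⁻¹ := ⟨_, rfl⟩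
  rw [← hS] at hl hr
  have hSu : IsUnit S := IsUnit.of_mul_eq_one _ hl
  have hch : Zᴴ * Sᴴ = 1 := by rw [← conjTranspose_mul, hl, conjTranspose_one]
  have hch' : Sᴴ * Zᴴ = 1 := by rw [← conjTranspose_mul, hr, conjTranspose_one]
  obtain ⟨E, hE⟩ : ∃ E : Matrix m m ℂ, E = S * ((1 / 2 : ℝ) • (K1 - K0)) * Sᴴ := ⟨_, rfl⟩
  obtain ⟨J', hJ'⟩ : ∃ J' : Matrix m m ℂ, J' = S * J * Sᴴ := ⟨_, rfl⟩
  have hSK : S * K * Sᴴ = 1 := by
    rw [hZ]
    calc S * (Z * Zᴴ) * Sᴴ = (S * Z) * (Zᴴ * Sᴴ) := by simp only [mul_assoc]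
      _ = 1 := by rw [hl, hch, one_mul]
  have hK0 : K0 = K - (1 / 2 : ℝ) • (K1 - K0) := by
    rw [hK, ← smul_sub]
    have : K0 + K1 - (K1 - K0) = (2 : ℝ) • K0 := by rw [two_smul]; abel
    rw [this, smul_smul]; norm_num
  have hK1 : K1 = K + (1 / 2 : ℝ) • (K1 - K0) := by
    rw [hK, ← smul_add]
    have : K0 + K1 + (K1 - K0) = (2 : ℝ) • K1 := by rw [two_smul]; abel
    rw [this, smul_smul]; norm_num
  have e0 : S * K0 * Sᴴ = 1 - E := by
    conv_lhs => rw [hK0]
    rw [mul_sub, sub_mul, hSK, hE]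
  have e1 : S * K1 * Sᴴ = 1 + E := by
    conv_lhs => rw [hK1]
    rw [mul_add, add_mul, hSK, hE]
  have hEh : E.IsHermitian := by
    have : E = S * K1 * Sᴴ - 1 := by rw [e1]; abel
    rw [this]
    exact (h1.posSemidef.mul_mul_conjTranspose_same S).isHermitian.sub isHermitian_one
  have hinj : Function.Injective (Matrix.vecMul · S) :=
    Matrix.vecMul_injective_iff_isUnit.mpr hSu
  have p0 : (1 - E).PosDef := by
    rw [← e0]; exact h0.mul_mul_conjTranspose_same hinj
  have p1 : (1 + E).PosDef := by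
    rw [← e1]; exact h1.mul_mul_conjTranspose_same hinj
  have hJ'h : J'ᴴ = -J' := by
    rw [hJ', conjTranspose_mul, conjTranspose_mul, hJ, conjTranspose_conjTranspose]
    noncomm_ring
  have hmain := skew_normalised hEh p0 p1 hJ'h
  have f0 : 1 - E + J' = S * (K0 + J) * Sᴴ := by
    rw [mul_add, add_mul, e0, hJ']
  have f1 : 1 + E + J' = S * (K1 + J) * Sᴴ := by
    rw [mul_add, add_mul, e1, hJ']
  have fK : 1 + J' = S * (K + J) * Sᴴ := by
    rw [mul_add, add_mul, hSK, hJ']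
  rw [f0, f1, fK, ← e0, ← e1] at hmain
  simp only [det_mul, norm_mul, det_conjTranspose, norm_star] at hmain
  have hs : 0 < ‖S.det‖ := by
    rw [norm_pos_iff]
    exact ((Matrix.isUnit_iff_isUnit_det S).mp hSu).ne_zero
  have hKd : ‖S.det‖ * ‖K.det‖ * ‖S.det‖ = 1 := by
    have := congrArg (fun M : Matrix m m ℂ => ‖M.det‖) hSK
    simpa only [det_mul, norm_mul, det_conjTranspose, norm_star, det_one, norm_one] using this
  rw [← hK]
  obtain ⟨x, hx⟩ : ∃ x : ℝ, x = ‖S.det‖ := ⟨_, rfl⟩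
  obtain ⟨k, hk⟩ : ∃ k : ℝ, k = ‖K.det‖ := ⟨_, rfl⟩
  rw [← hx] at hmain hKd hs
  rw [← hk] at hKd ⊢
  have hxk : x ^ 2 * k = 1 := by rw [← hKd]; ring
  have h8 : (x ^ 2) ^ 4 * (‖(K + J).det‖ ^ 2 * (‖K0.det‖ * ‖K1.det‖) )
      ≤ (x ^ 2) ^ 4 * (‖(K0 + J).det‖ * ‖(K1 + J).det‖ * k ^ 2) := by
    calc (x ^ 2) ^ 4 * (‖(K + J).det‖ ^ 2 * (‖K0.det‖ * ‖K1.det‖))
        = (x * ‖(K + J).det‖ * x) ^ 2 * (x * ‖K0.det‖ * x * (x * ‖K1.det‖ * x)) := by ring
      _ ≤ x * ‖(K0 + J).det‖ * x * (x * ‖(K1 + J).det‖ * x) := hmain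
      _ = (x ^ 2) ^ 2 * (x ^ 2 * k) ^ 0 * (‖(K0 + J).det‖ * ‖(K1 + J).det‖) := by ring
      _ = (x ^ 2) ^ 2 * (x ^ 2 * k) ^ 2 * (‖(K0 + J).det‖ * ‖(K1 + J).det‖) := by
          rw [hxk]; ring
      _ = (x ^ 2) ^ 4 * (‖(K0 + J).det‖ * ‖(K1 + J).det‖ * k ^ 2) := by ring
  exact le_of_mul_le_mul_left h8 (by positivity)

/-- symmetric version -/
theorem skew_twirl {m : Type} [Fintype m] [DecidableEq m] {K J U : Matrix m m ℂ}
    (hK : K.PosDef) (hJ : Jᴴ = -J) (hU : U * Uᴴ = 1) (hUJ : U * J * Uᴴ = J) :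
    ‖((1 / 2 : ℝ) • (K + U * K * Uᴴ) + J).det‖ * ‖K.det‖
      ≤ ‖(K + J).det‖ * ‖((1 / 2 : ℝ) • (K + U * K * Uᴴ)).det‖ := by
  have hU' : Uᴴ * U = 1 := mul_eq_one_comm.mp hU
  have hUu : IsUnit U := IsUnit.of_mul_eq_one _ hU
  have h1 : (U * K * Uᴴ).PosDef :=
    hK.mul_mul_conjTranspose_same (Matrix.vecMul_injective_iff_isUnit.mpr hUu)
  have h := skew_midpoint hK h1 hJ
  have d1 : ∀ M : Matrix m m ℂ, (U * M * Uᴴ).det = M.det := by
    intro M
    rw [det_mul, det_mul, mul_comm, ← mul_assoc, ← det_mul, hU', det_one, one_mul]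
  have e : U * K * Uᴴ + J = U * (K + J) * Uᴴ := by
    rw [mul_add, add_mul, hUJ]
  rw [e, d1, d1] at h
  have h2 : (‖((1 / 2 : ℝ) • (K + U * K * Uᴴ) + J).det‖ * ‖K.det‖) ^ 2
      ≤ (‖(K + J).det‖ * ‖((1 / 2 : ℝ) • (K + U * K * Uᴴ)).det‖) ^ 2 := by
    calc _ = ‖((1 / 2 : ℝ) • (K + U * K * Uᴴ) + J).det‖ ^ 2 * (‖K.det‖ * ‖K.det‖) := by ring
      _ ≤ _ := h
      _ = _ := by ring
  exact (pow_le_pow_iff_left₀ (by positivity) (by positivity) two_ne_zero).mp h2

/-- partial pinching -/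
noncomputable def pin {n : Type} [DecidableEq n] (S : Finset n) (M : Matrix n n ℂ) :
    Matrix n n ℂ :=
  fun i j => if i = j ∨ (i ∉ S ∧ j ∉ S) then M i j else 0

noncomputable def flip {n : Type} [DecidableEq n] (k : n) : Matrix n n ℂ :=
  diagonal (fun i => if i = k then (-1 : ℂ) else 1)

theorem flip_conj {n : Type} [Fintype n] [DecidableEq n] (k : n) : (flip k)ᴴ = flip k := by
  unfold flip
  rw [diagonal_conjTranspose]
  congr 1
  ext i
  by_cases h : i = k <;> simp [h]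

theorem flip_mul_flip {n : Type} [Fintype n] [DecidableEq n] (k : n) : flip k * flip k = 1 := by
  unfold flip
  rw [diagonal_mul_diagonal, ← diagonal_one]
  congr 1
  ext i
  by_cases h : i = k <;> simp [h]

theorem pin_insert {n : Type} [Fintype n] [DecidableEq n] (S : Finset n) (k : n)
    (M : Matrix n n ℂ) :
    (1 / 2 : ℝ) • (pin S M + flip k * pin S M * flip k) = pin (insert k S) M := by
  ext i j
  simp only [flip, Matrix.smul_apply, Matrix.add_apply, Matrix.mul_diagonal,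
    Matrix.diagonal_mul, pin, Finset.mem_insert, not_or]
  by_cases hij : i = j
  · subst hij
    by_cases hik : i = k <;> simp [hik] <;> ring
  · by_cases hik : i = k
    · subst hik
      have hji : ¬ j = i := fun h => hij h.symm
      by_cases h1 : i ∈ S <;> by_cases h2 : j ∈ S <;> simp [hij, hji, h1, h2]
    · by_cases hjk : j = k
      · subst hjk
        by_cases h1 : i ∈ S <;> by_cases h2 : j ∈ S <;> simp [hij, h1, h2]
      · by_cases h1 : i ∈ S <;> by_cases h2 : j ∈ S <;> simp [hij, hik, hjk, h1, h2] <;> ring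

theorem pin_empty {n : Type} [DecidableEq n] (M : Matrix n n ℂ) : pin ∅ M = M := by
  ext i j
  simp [pin]

theorem pin_univ {n : Type} [Fintype n] [DecidableEq n] (M : Matrix n n ℂ) :
    pin Finset.univ M = diagonal (fun i => M i i) := by
  ext i j
  by_cases h : i = j
  · subst h; simp [pin]
  · simp [pin, h]

theorem posDef_fromBlocks {n : Type} [Fintype n] [DecidableEq n] {B C : Matrix n n ℂ}
    (hB : B.PosDef) (hC : C.PosDef) : (fromBlocks C 0 0 B).PosDef := by
  obtain ⟨Z, hZ⟩ := exists_gram hB.posSemidef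
  obtain ⟨W, hW⟩ := exists_gram hC.posSemidef
  have e : fromBlocks C 0 0 B = fromBlocks W 0 0 Z * (fromBlocks W 0 0 Z)ᴴ := by
    rw [fromBlocks_conjTranspose, fromBlocks_multiply, hZ, hW]; simp
  have hp : (fromBlocks C 0 0 B).PosSemidef := by
    rw [e]; exact posSemidef_self_mul_conjTranspose _
  rw [hp.posDef_iff_det_ne_zero, det_fromBlocks_zero₂₁]
  exact mul_ne_zero hC.det_pos.ne' hB.det_pos.ne'

/-- Pinching to the diagonal decreases `det (C + D B⁻¹ D) / det C`. -/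
theorem pinch_det {n : Type} [Fintype n] [DecidableEq n] (B C : Matrix n n ℂ)
    (hB : B.PosDef) (hC : C.PosDef) (d : n → ℝ) :
    B.det.re * C.det.re * ∏ k, ((B k k).re * (C k k).re + d k ^ 2) ≤
      (fromBlocks C (-diagonal (fun k => (d k : ℂ))) (diagonal (fun k => (d k : ℂ))) B).det.re
        * ∏ k, ((B k k).re * (C k k).re) := by
  obtain ⟨D, hD⟩ : ∃ D : Matrix n n ℂ, D = diagonal (fun k => (d k : ℂ)) := ⟨_, rfl⟩
  obtain ⟨J, hJ⟩ : ∃ J : Matrix (n ⊕ n) (n ⊕ n) ℂ, J = fromBlocks 0 (-D) D 0 := ⟨_, rfl⟩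
  have hDh : Dᴴ = D := by
    rw [hD, diagonal_conjTranspose]; congr 1; ext k; simp
  have hJh : Jᴴ = -J := by
    rw [hJ, fromBlocks_conjTranspose, fromBlocks_neg]; simp [hDh]
  have hflipD : ∀ k, flip k * D * flip k = D := by
    intro k
    rw [hD, flip, diagonal_mul_diagonal, diagonal_mul_diagonal]
    congr 1
    ext i
    by_cases h : i = k <;> simp [h]
  -- induction over pinched coordinates
  have hind : ∀ S : Finset n, (pin S B).PosDef ∧ (pin S C).PosDef ∧
      ‖(fromBlocks (pin S C) 0 0 (pin S B) + J).det‖ * ‖(fromBlocks C 0 0 B).det‖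
        ≤ ‖(fromBlocks C 0 0 B + J).det‖ * ‖(fromBlocks (pin S C) 0 0 (pin S B)).det‖ := by
    intro S
    induction S using Finset.induction_on with
    | empty => rw [pin_empty, pin_empty]; exact ⟨hB, hC, le_rfl⟩
    | insert k S hk ih =>
      obtain ⟨ihB, ihC, ih⟩ := ih
      have hfu : IsUnit (flip k) := IsUnit.of_mul_eq_one _ (flip_mul_flip k)
      have hpd : ∀ M : Matrix n n ℂ, (pin S M).PosDef → (pin (insert k S) M).PosDef := by
        intro M hM
        rw [← pin_insert]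
        refine PosDef.smul (hM.add_posSemidef ?_) (by norm_num)
        have := hM.posSemidef.mul_mul_conjTranspose_same (flip k)
        rwa [flip_conj] at this
      refine ⟨hpd B ihB, hpd C ihC, ?_⟩
      obtain ⟨K, hK⟩ : ∃ K : Matrix (n ⊕ n) (n ⊕ n) ℂ,
        K = fromBlocks (pin S C) 0 0 (pin S B) := ⟨_, rfl⟩
      obtain ⟨U, hU⟩ : ∃ U : Matrix (n ⊕ n) (n ⊕ n) ℂ,
        U = fromBlocks (flip k) 0 0 (flip k) := ⟨_, rfl⟩
      have hUh : Uᴴ = U := by
        rw [hU, fromBlocks_conjTranspose]; simp [flip_conj]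
      have hUU : U * Uᴴ = 1 := by
        rw [hUh, hU, fromBlocks_multiply]; simp [flip_mul_flip]
      have hUJ : U * J * Uᴴ = J := by
        rw [hUh, hU, hJ, fromBlocks_multiply, fromBlocks_multiply]
        simp [hflipD]
      have hKpd : K.PosDef := by rw [hK]; exact posDef_fromBlocks ihB ihC
      have htw := skew_twirl hKpd hJh hUU hUJ
      have hav : (1 / 2 : ℝ) • (K + U * K * Uᴴ)
          = fromBlocks (pin (insert k S) C) 0 0 (pin (insert k S) B) := by
        rw [hUh, hU, hK, fromBlocks_multiply, fromBlocks_multiply, fromBlocks_add,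
          fromBlocks_smul, ← pin_insert S k B, ← pin_insert S k C]
        simp
      rw [hav, hK] at htw
      rw [hK] at hKpd
      have hpos : 0 < ‖(fromBlocks (pin S C) 0 0 (pin S B)).det‖ :=
        norm_pos_iff.mpr hKpd.det_pos.ne'
      refine le_of_mul_le_mul_left ?_ hpos
      calc ‖(fromBlocks (pin S C) 0 0 (pin S B)).det‖ *
            (‖(fromBlocks (pin (insert k S) C) 0 0 (pin (insert k S) B) + J).det‖ *
              ‖(fromBlocks C 0 0 B).det‖)
          = (‖(fromBlocks (pin (insert k S) C) 0 0 (pin (insert k S) B) + J).det‖ *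
            ‖(fromBlocks (pin S C) 0 0 (pin S B)).det‖) * ‖(fromBlocks C 0 0 B).det‖ := by ring
        _ ≤ (‖(fromBlocks (pin S C) 0 0 (pin S B) + J).det‖ *
            ‖(fromBlocks (pin (insert k S) C) 0 0 (pin (insert k S) B)).det‖) *
            ‖(fromBlocks C 0 0 B).det‖ := by gcongr
        _ = (‖(fromBlocks (pin S C) 0 0 (pin S B) + J).det‖ * ‖(fromBlocks C 0 0 B).det‖) *
            ‖(fromBlocks (pin (insert k S) C) 0 0 (pin (insert k S) B)).det‖ := by ring
        _ ≤ (‖(fromBlocks C 0 0 B + J).det‖ * ‖(fromBlocks (pin S C) 0 0 (pin S B)).det‖) *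
            ‖(fromBlocks (pin (insert k S) C) 0 0 (pin (insert k S) B)).det‖ := by gcongr
        _ = _ := by ring
  obtain ⟨-, -, hfin⟩ := hind Finset.univ
  rw [pin_univ, pin_univ] at hfin
  have hbpos : ∀ k, 0 < (B k k).re := fun k => (Complex.pos_iff.mp (hB.diag_pos (i := k))).1
  have hcpos : ∀ k, 0 < (C k k).re := fun k => (Complex.pos_iff.mp (hC.diag_pos (i := k))).1
  have hbre : ∀ k, B k k = (((B k k).re : ℝ) : ℂ) := fun k =>
    Complex.ext rfl (by simpa using (Complex.pos_iff.mp (hB.diag_pos (i := k))).2.symm)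
  have hcre : ∀ k, C k k = (((C k k).re : ℝ) : ℂ) := fun k =>
    Complex.ext rfl (by simpa using (Complex.pos_iff.mp (hC.diag_pos (i := k))).2.symm)
  -- value of the pinched determinant
  have hval : (fromBlocks (diagonal (fun i => C i i)) 0 0 (diagonal (fun i => B i i)) + J).det
      = ((∏ k, ((B k k).re * (C k k).re + d k ^ 2) : ℝ) : ℂ) := by
    have hbd : IsUnit (diagonal (fun i => B i i)).det := by
      rw [det_diagonal]
      refine isUnit_iff_ne_zero.mpr (Finset.prod_ne_zero_iff.mpr fun k _ => ?_)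
      exact (hB.diag_pos (i := k)).ne'
    have : Invertible (diagonal (fun i => B i i)) := Matrix.invertibleOfIsUnitDet _ hbd
    have hinv : (diagonal (fun i => B i i))⁻¹ = diagonal (fun i => (B i i)⁻¹) := by
      refine Matrix.inv_eq_right_inv ?_
      rw [diagonal_mul_diagonal, ← diagonal_one]
      congr 1
      ext k
      exact mul_inv_cancel₀ (hB.diag_pos (i := k)).ne'
    rw [hJ, fromBlocks_add, zero_add, zero_add, add_zero, add_zero, det_fromBlocks₂₂,
      invOf_eq_nonsing_inv, hinv, hD, neg_mul, neg_mul, sub_neg_eq_add, diagonal_mul_diagonal,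
      diagonal_mul_diagonal, diagonal_add, det_diagonal, det_diagonal, ← Finset.prod_mul_distrib,
      Complex.ofReal_prod]
    refine Finset.prod_congr rfl fun k _ => ?_
    have hb0 : (B k k) ≠ 0 := (hB.diag_pos (i := k)).ne'
    push_cast
    rw [← hbre k, ← hcre k]
    field_simp
  have hval2 : ‖(fromBlocks (diagonal (fun i => C i i)) 0 0 (diagonal (fun i => B i i))).det‖
      = ∏ k, ((B k k).re * (C k k).re) := by
    rw [det_fromBlocks_zero₂₁, det_diagonal, det_diagonal, ← Finset.prod_mul_distrib, norm_prod]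
    refine Finset.prod_congr rfl fun k _ => ?_
    rw [norm_mul, hbre k, hcre k, Complex.norm_real, Complex.norm_real,
      Real.norm_of_nonneg (hbpos k).le, Real.norm_of_nonneg (hcpos k).le]
    simp [mul_comm]
  have hdet0 : ‖(fromBlocks C 0 0 B).det‖ = B.det.re * C.det.re := by
    rw [det_fromBlocks_zero₂₁, norm_mul, norm_det_of_posSemidef hB.posSemidef,
      norm_det_of_posSemidef hC.posSemidef]
    ring
  have hsum : fromBlocks C 0 0 B + J = fromBlocks C (-D) D B := by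
    rw [hJ, fromBlocks_add]; simp
  -- the full determinant is a nonnegative real number
  have hfull : ‖(fromBlocks C (-D) D B).det‖ = (fromBlocks C (-D) D B).det.re := by
    have hbu : IsUnit B.det := isUnit_iff_ne_zero.mpr hB.det_pos.ne'
    have : Invertible B := Matrix.invertibleOfIsUnitDet _ hbu
    rw [det_fromBlocks₂₂, invOf_eq_nonsing_inv, neg_mul, neg_mul, sub_neg_eq_add]
    have hps : (C + D * B⁻¹ * D).PosSemidef := by
      have h3 : (D * B⁻¹ * D).PosSemidef := by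
        have := hB.inv.posSemidef.mul_mul_conjTranspose_same D
        rwa [hDh] at this
      exact hC.posSemidef.add h3
    have hb := Complex.nonneg_iff.mp hB.posSemidef.det_nonneg
    have hcc := Complex.nonneg_iff.mp hps.det_nonneg
    rw [norm_mul, norm_det_of_posSemidef hB.posSemidef, norm_det_of_posSemidef hps,
      Complex.mul_re, ← hb.2, ← hcc.2]
    ring
  rw [hval, hval2, hdet0, hsum, hfull, Complex.norm_real, Real.norm_of_nonneg] at hfin
  · rw [← hD]
    linarith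
  · exact Finset.prod_nonneg fun k _ =>
      add_nonneg (mul_nonneg (hbpos k).le (hcpos k).le) (sq_nonneg _)

end Vale.Agent.P358
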