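import Vale.Agent.P358.Core

namespace Vale.Agent.P358

open Set

private theorem scE_artanh {s : ℝ} (h0 : 0 ≤ s) (h1 : s < 1) :
    2 * s ≤ Real.log (1 + s) - Real.log (1 - s) := by
  have habs : |s| < 1 := by rw [abs_of_nonneg h0]; exact h1
  have h := Real.hasSum_log_sub_log_of_abs_lt_one habs
  have := h.summable.tsum_eq_zero_add
  have h2 : (fun k : ℕ => (2 : ℝ) * (1 / (2 * k + 1)) * s ^ (2 * k + 1)) 0 ≤
      Real.log (1 + s) - Real.log (1 - s) := by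
    refine le_hasSum h 0 ?_
    intro j _
    positivity
  simpa using h2

/-- the composite function -/
private noncomputable def scE_f (r : ℝ) : ℝ := Real.binEntropy ((1 + √(1 - r ^ 2)) / 2)

private noncomputable def scE_f' (r : ℝ) : ℝ :=
  r / √(1 - r ^ 2) * ((Real.log (1 + √(1 - r ^ 2)) - Real.log (1 - √(1 - r ^ 2))) / 2)

private noncomputable def scE_f'' (r : ℝ) : ℝ :=
  ((Real.log (1 + √(1 - r ^ 2)) - Real.log (1 - √(1 - r ^ 2))) / 2 - √(1 - r ^ 2)) /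
    (√(1 - r ^ 2)) ^ 3

private theorem scE_cont : Continuous scE_f := by
  unfold scE_f
  exact Real.binEntropy_continuous.comp (by fun_prop)

private theorem scE_facts {r : ℝ} (h0 : 0 < r) (h1 : r < 1) :
    0 < √(1 - r ^ 2) ∧ √(1 - r ^ 2) < 1 ∧ √(1 - r ^ 2) ^ 2 = 1 - r ^ 2 := by
  have h : 0 < 1 - r ^ 2 := by nlinarith
  refine ⟨Real.sqrt_pos.mpr h, ?_, Real.sq_sqrt h.le⟩
  rw [Real.sqrt_lt' one_pos]
  nlinarith

private theorem scE_sqrt_deriv {r : ℝ} (h0 : 0 < r) (h1 : r < 1) :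
    HasDerivAt (fun r : ℝ => √(1 - r ^ 2)) (-r / √(1 - r ^ 2)) r := by
  have h : (1 - r ^ 2) ≠ 0 := by nlinarith
  have h2 : HasDerivAt (fun r : ℝ => 1 - r ^ 2) (-(2 * r)) r := by
    have := (hasDerivAt_pow 2 r).const_sub 1
    simpa using this
  have h3 := h2.sqrt h
  refine h3.congr_deriv ?_
  obtain ⟨hs, _, _⟩ := scE_facts h0 h1
  field_simp

private theorem scE_deriv {r : ℝ} (h0 : 0 < r) (h1 : r < 1) :
    HasDerivAt scE_f (scE_f' r) r := by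
  obtain ⟨hs, hs1, hsq⟩ := scE_facts h0 h1
  have hd := scE_sqrt_deriv h0 h1
  have h2 : HasDerivAt (fun r : ℝ => (1 + √(1 - r ^ 2)) / 2) ((-r / √(1 - r ^ 2)) / 2) r :=
    (hd.const_add 1).div_const 2
  have h3 := Real.hasDerivAt_binEntropy (p := (1 + √(1 - r ^ 2)) / 2) (by positivity)
    (by intro h; nlinarith)
  have h4 := h3.comp r h2
  refine h4.congr_deriv ?_
  unfold scE_f'
  have e1 : Real.log (1 - (1 + √(1 - r ^ 2)) / 2) = Real.log (1 - √(1 - r ^ 2)) - Real.log 2 := by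
    rw [← Real.log_div (by nlinarith) (by norm_num)]
    congr 1; ring
  have e2 : Real.log ((1 + √(1 - r ^ 2)) / 2) = Real.log (1 + √(1 - r ^ 2)) - Real.log 2 := by
    rw [← Real.log_div (by nlinarith) (by norm_num)]
  rw [e1, e2]
  ring

private theorem scE_deriv2 {r : ℝ} (h0 : 0 < r) (h1 : r < 1) :
    HasDerivAt scE_f' (scE_f'' r) r := by
  obtain ⟨hs, hs1, hsq⟩ := scE_facts h0 h1
  have hd := scE_sqrt_deriv h0 h1
  have ha := (hasDerivAt_id r).div hd hs.ne'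
  have hb := (hd.const_add 1).log (by positivity)
  have hc := (hd.const_sub 1).log (by nlinarith)
  have hm := ha.mul ((hb.sub hc).div_const 2)
  refine HasDerivAt.congr_deriv (f := scE_f') hm ?_
  unfold scE_f''
  simp only [id, Pi.div_apply]
  set s := √(1 - r ^ 2) with hsdef
  have h1s : 1 + s ≠ 0 := by positivity
  have h2s : 1 - s ≠ 0 := by nlinarith
  have hr : r ^ 2 = 1 - s ^ 2 := by linarith
  have hL : ((fun y : ℝ => Real.log (1 + √(1 - y ^ 2))) - fun y : ℝ =>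
      Real.log (1 - √(1 - y ^ 2))) r = Real.log (1 + s) - Real.log (1 - s) := rfl
  rw [hL]
  field_simp
  rw [hr]
  ring

private theorem scE_convex : ConvexOn ℝ (Icc (0 : ℝ) 1) scE_f := by
  have hint : interior (Icc (0 : ℝ) 1) = Ioo 0 1 := interior_Icc
  refine convexOn_of_hasDerivWithinAt2_nonneg (f' := scE_f') (f'' := scE_f'') (convex_Icc 0 1)
    scE_cont.continuousOn ?_ ?_ ?_
  · intro x hx
    rw [hint] at hx
    exact (scE_deriv hx.1 hx.2).hasDerivWithinAt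
  · intro x hx
    rw [hint] at hx
    exact (scE_deriv2 hx.1 hx.2).hasDerivWithinAt
  · intro x hx
    rw [hint] at hx
    obtain ⟨hs, hs1, hsq⟩ := scE_facts hx.1 hx.2
    unfold scE_f''
    have := scE_artanh hs.le hs1
    apply div_nonneg _ (by positivity)
    linarith

private theorem scE_mono : MonotoneOn scE_f (Icc (0 : ℝ) 1) := by
  have hint : interior (Icc (0 : ℝ) 1) = Ioo 0 1 := interior_Icc
  refine monotoneOn_of_deriv_nonneg (convex_Icc 0 1) scE_cont.continuousOn ?_ ?_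
  · intro x hx
    rw [hint] at hx
    exact (scE_deriv hx.1 hx.2).differentiableAt.differentiableWithinAt
  · intro x hx
    rw [hint] at hx
    rw [(scE_deriv hx.1 hx.2).deriv]
    obtain ⟨hs, hs1, hsq⟩ := scE_facts hx.1 hx.2
    have := scE_artanh hs.le hs1
    unfold scE_f'
    have h1 : 0 ≤ (Real.log (1 + √(1 - x ^ 2)) - Real.log (1 - √(1 - x ^ 2))) / 2 := by linarith
    have h2 : 0 ≤ x / √(1 - x ^ 2) := div_nonneg hx.1.le hs.le
    exact mul_nonneg h2 h1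

private noncomputable def scE_r (γ ν q : ℝ) : ℝ :=
  √(4 * γ * (ν * (1 - ν)) + 4 * γ * (1 - γ) * (q - ν) ^ 2)

private theorem scE_r_nonneg {γ ν : ℝ} (hγ : γ ∈ Icc (0 : ℝ) 1) (hν : ν ∈ Icc (0 : ℝ) 1) (q : ℝ) :
    0 ≤ 4 * γ * (ν * (1 - ν)) + 4 * γ * (1 - γ) * (q - ν) ^ 2 := by
  obtain ⟨h1, h2⟩ := hγ
  obtain ⟨h3, h4⟩ := hν
  have : 0 ≤ ν * (1 - ν) := mul_nonneg h3 (by linarith)
  have : 0 ≤ 1 - γ := by linarith
  positivity

private theorem scE_r_mem {γ ν : ℝ} (hγ : γ ∈ Icc (0 : ℝ) 1) (hν : ν ∈ Icc (0 : ℝ) 1) {q : ℝ}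
    (hq : q ∈ Icc (0 : ℝ) 1) : scE_r γ ν q ∈ Icc (0 : ℝ) 1 := by
  refine ⟨Real.sqrt_nonneg _, ?_⟩
  unfold scE_r
  rw [Real.sqrt_le_one]
  have e : 1 - (4 * γ * (ν * (1 - ν)) + 4 * γ * (1 - γ) * (q - ν) ^ 2) =
      (1 - 2 * ((1 - γ) * q + γ * ν)) ^ 2 + 4 * (1 - γ) * (q * (1 - q)) := by ring
  have h1 : 0 ≤ 4 * (1 - γ) * (q * (1 - q)) :=
    mul_nonneg (by linarith [hγ.2]) (mul_nonneg hq.1 (by linarith [hq.2]))
  nlinarith [sq_nonneg (1 - 2 * ((1 - γ) * q + γ * ν))]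

private theorem scE_eN {γ ν : ℝ} (hγ : γ ∈ Icc (0 : ℝ) 1) (hν : ν ∈ Icc (0 : ℝ) 1) (q : ℝ) :
    eN γ ν q = scE_f (scE_r γ ν q) := by
  unfold eN scE_f scE_r outEig
  rw [Real.sq_sqrt (scE_r_nonneg hγ hν q)]
  congr 4
  ring

private theorem scE_r_convex {γ ν : ℝ} (hγ : γ ∈ Icc (0 : ℝ) 1) (hν : ν ∈ Icc (0 : ℝ) 1)
    (x y a b : ℝ) (ha : 0 ≤ a) (hb : 0 ≤ b) (hab : a + b = 1) :
    scE_r γ ν (a * x + b * y) ≤ a * scE_r γ ν x + b * scE_r γ ν y := by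
  unfold scE_r
  set A := 4 * γ * (ν * (1 - ν)) with hA
  set B := 4 * γ * (1 - γ) with hB
  have hA0 : 0 ≤ A := by
    have : 0 ≤ ν * (1 - ν) := mul_nonneg hν.1 (by linarith [hν.2])
    have := hγ.1
    positivity
  have hB0 : 0 ≤ B := by
    have : 0 ≤ 1 - γ := by linarith [hγ.2]
    have := hγ.1
    positivity
  have hx : 0 ≤ A + B * (x - ν) ^ 2 := by positivity
  have hy : 0 ≤ A + B * (y - ν) ^ 2 := by positivity
  apply Real.sqrt_le_iff.mpr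
  refine ⟨by positivity, ?_⟩
  have hcs : A + B * ((x - ν) * (y - ν)) ≤ √(A + B * (x - ν) ^ 2) * √(A + B * (y - ν) ^ 2) := by
    rw [← Real.sqrt_mul hx]
    apply Real.le_sqrt_of_sq_le
    nlinarith [mul_nonneg (mul_nonneg hA0 hB0) (sq_nonneg ((x - ν) - (y - ν)))]
  have h2 := Real.sq_sqrt hx
  have h3 := Real.sq_sqrt hy
  have hb' : b = 1 - a := by linarith
  have h4 := mul_le_mul_of_nonneg_left hcs (mul_nonneg ha hb)
  have e : (a * √(A + B * (x - ν) ^ 2) + b * √(A + B * (y - ν) ^ 2)) ^ 2 =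
      a ^ 2 * (√(A + B * (x - ν) ^ 2)) ^ 2 + b ^ 2 * (√(A + B * (y - ν) ^ 2)) ^ 2 +
        2 * (a * b * (√(A + B * (x - ν) ^ 2) * √(A + B * (y - ν) ^ 2))) := by ring
  rw [e, h2, h3]
  have e2 : A + B * (a * x + b * y - ν) ^ 2 = a ^ 2 * (A + B * (x - ν) ^ 2) +
      b ^ 2 * (A + B * (y - ν) ^ 2) + 2 * (a * b * (A + B * ((x - ν) * (y - ν)))) := by
    rw [hb']; ring
  rw [e2]
  linarith

theorem convexOn_eN {γ ν : ℝ} (hγ : γ ∈ Set.Icc (0 : ℝ) 1) (hν : ν ∈ Set.Icc (0 : ℝ) 1) :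
    ConvexOn ℝ (Set.Icc 0 1) (eN γ ν) := by
  refine ⟨convex_Icc 0 1, ?_⟩
  intro x hx y hy a b ha hb hab
  simp only [smul_eq_mul]
  have hmem : a * x + b * y ∈ Icc (0 : ℝ) 1 := by
    have := (convex_Icc (0 : ℝ) 1) hx hy ha hb hab
    simpa using this
  rw [scE_eN hγ hν, scE_eN hγ hν, scE_eN hγ hν]
  have hrx := scE_r_mem hγ hν hx
  have hry := scE_r_mem hγ hν hy
  have hr2 : a * scE_r γ ν x + b * scE_r γ ν y ∈ Icc (0 : ℝ) 1 := by
    have := (convex_Icc (0 : ℝ) 1) hrx hry ha hb hab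
    simpa using this
  refine (scE_mono (scE_r_mem hγ hν hmem) hr2 (scE_r_convex hγ hν x y a b ha hb hab)).trans ?_
  have := scE_convex.2 hrx hry ha hb hab
  simpa using this

theorem EE_subadd {γ ν : ℝ} (hγ : γ ∈ Set.Icc (0 : ℝ) 1) (hν : ν ∈ Set.Icc (0 : ℝ) 1)
    {m₁ c₁ m₂ c₂ : ℝ} (h₁ : 0 ≤ c₁) (h₁' : c₁ ≤ m₁) (h₂ : 0 ≤ c₂) (h₂' : c₂ ≤ m₂) :
    EE γ ν (m₁ + m₂) (c₁ + c₂) ≤ EE γ ν m₁ c₁ + EE γ ν m₂ c₂ := by
  unfold EE
  rcases (h₁.trans h₁').eq_or_lt with hm | hm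
  · have : c₁ = 0 := by linarith
    rw [← hm, this]; simp
  rcases (h₂.trans h₂').eq_or_lt with hm2 | hm2
  · have : c₂ = 0 := by linarith
    rw [← hm2, this]; simp
  have hM : 0 < m₁ + m₂ := by linarith
  have hx : c₁ / m₁ ∈ Icc (0 : ℝ) 1 := ⟨by positivity, (div_le_one hm).mpr h₁'⟩
  have hy : c₂ / m₂ ∈ Icc (0 : ℝ) 1 := ⟨by positivity, (div_le_one hm2).mpr h₂'⟩
  have hw1 : 0 ≤ m₁ / (m₁ + m₂) := by positivity
  have hw2 : 0 ≤ m₂ / (m₁ + m₂) := by positivity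
  have hw3 : m₁ / (m₁ + m₂) + m₂ / (m₁ + m₂) = 1 := by field_simp
  have h := (convexOn_eN hγ hν).2 hx hy hw1 hw2 hw3
  simp only [smul_eq_mul] at h
  have e : m₁ / (m₁ + m₂) * (c₁ / m₁) + m₂ / (m₁ + m₂) * (c₂ / m₂) = (c₁ + c₂) / (m₁ + m₂) := by
    field_simp
  rw [e] at h
  have h2 := mul_le_mul_of_nonneg_left h hM.le
  refine h2.trans (le_of_eq ?_)
  field_simp

/-- `EE` and `FF` for pure amplitude damping. -/
theorem FF_eq_EE {γ : ℝ} (hγ : γ ∈ Set.Icc (0 : ℝ) 1) {a c : ℝ} (ha : 0 ≤ a) (hc : 0 ≤ c) :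
    FF a (γ * c) ((1 - γ) * c) + (Real.negMulLog γ + Real.negMulLog (1 - γ)) * c =
      EE γ 0 (a + c) c + Real.negMulLog (a + c) - Real.negMulLog a - Real.negMulLog c := by
  rcases (add_nonneg ha hc).eq_or_lt with hm | hm
  · have hc0 : c = 0 := by linarith
    have ha0 : a = 0 := by linarith
    subst hc0 ha0
    simp [FF, EE, rootP, rootM]
  set m := a + c with hmdef
  set l := outEig γ 0 (c / m) with hl
  have hsq : m * √(1 - 4 * γ * (0 * (1 - 0) + (1 - γ) * (c / m - 0) ^ 2)) =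
      √((a + γ * c + (1 - γ) * c) ^ 2 - 4 * (γ * c) * ((1 - γ) * c)) := by
    have : (a + γ * c + (1 - γ) * c) ^ 2 - 4 * (γ * c) * ((1 - γ) * c) =
        m ^ 2 * (1 - 4 * γ * (0 * (1 - 0) + (1 - γ) * (c / m - 0) ^ 2)) := by
      field_simp
      rw [hmdef]
      ring
    rw [this, Real.sqrt_mul (sq_nonneg m), Real.sqrt_sq hm.le]
  have hP : rootP a (γ * c) ((1 - γ) * c) = m * l := by
    rw [rootP, hl, outEig, ← hsq, hmdef]; ring
  have hM : rootM a (γ * c) ((1 - γ) * c) = m * (1 - l) := by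
    rw [rootM, hl, outEig, ← hsq, hmdef]; ring
  rw [FF, EE, eN, ← hl, hP, hM, Real.binEntropy_eq_negMulLog_add_negMulLog_one_sub,
    Real.negMulLog_mul, Real.negMulLog_mul, Real.negMulLog_mul, Real.negMulLog_mul]
  ring

end Vale.Agent.P358
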