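import Vale.Agent.P358.LogRep

namespace Vale.Agent.P358

theorem disc_nonneg {a b c : ℝ} (ha : 0 ≤ a) (hb : 0 ≤ b) (hc : 0 ≤ c) :
    0 ≤ (a + b + c) ^ 2 - 4 * b * c := by
  have h1 : (a + b + c) ^ 2 - 4 * b * c = a ^ 2 + 2 * a * (b + c) + (b - c) ^ 2 := by ring
  rw [h1]
  positivity

theorem rootP_add_rootM (a b c : ℝ) : rootP a b c + rootM a b c = a + b + c := by
  unfold rootP rootM
  ring

theorem rootP_mul_rootM {a b c : ℝ} (ha : 0 ≤ a) (hb : 0 ≤ b) (hc : 0 ≤ c) :
    rootP a b c * rootM a b c = b * c := by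
  unfold rootP rootM
  have h := Real.sq_sqrt (disc_nonneg ha hb hc)
  have h2 : ((a + b + c) + √((a + b + c) ^ 2 - 4 * b * c)) / 2 *
      (((a + b + c) - √((a + b + c) ^ 2 - 4 * b * c)) / 2) =
      ((a + b + c) ^ 2 - √((a + b + c) ^ 2 - 4 * b * c) ^ 2) / 4 := by ring
  rw [h2, h]
  ring

theorem rootP_nonneg {a b c : ℝ} (ha : 0 ≤ a) (hb : 0 ≤ b) (hc : 0 ≤ c) : 0 ≤ rootP a b c := by
  unfold rootP
  positivity

theorem rootM_nonneg {a b c : ℝ} (ha : 0 ≤ a) (hb : 0 ≤ b) (hc : 0 ≤ c) : 0 ≤ rootM a b c := by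
  unfold rootM
  have h : √((a + b + c) ^ 2 - 4 * b * c) ≤ a + b + c := by
    rw [Real.sqrt_le_left (by positivity)]
    have : 0 ≤ 4 * b * c := by positivity
    linarith
  linarith

theorem FF_zero {b c : ℝ} (_hb : 0 ≤ b) (_hc : 0 ≤ c) : FF 0 b c = 0 := by
  have h1 : √((0 + b + c) ^ 2 - 4 * b * c) = |b - c| := by
    rw [← Real.sqrt_sq_eq_abs]
    congr 1
    ring
  unfold FF rootP rootM
  rw [h1, Real.negMulLog_zero]
  rcases abs_cases (b - c) with ⟨h, -⟩ | ⟨h, -⟩
  · rw [h]
    have e1 : (0 + b + c + (b - c)) / 2 = b := by ring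
    have e2 : (0 + b + c - (b - c)) / 2 = c := by ring
    rw [e1, e2]
    ring
  · rw [h]
    have e1 : (0 + b + c + -(b - c)) / 2 = c := by ring
    have e2 : (0 + b + c - -(b - c)) / 2 = b := by ring
    rw [e1, e2]
    ring

theorem FF_homog {t : ℝ} (ht : 0 ≤ t) (a b c : ℝ) :
    FF (t * a) (t * b) (t * c) = t * FF a b c := by
  have h1 : √((t * a + t * b + t * c) ^ 2 - 4 * (t * b) * (t * c)) =
      t * √((a + b + c) ^ 2 - 4 * b * c) := by
    have : (t * a + t * b + t * c) ^ 2 - 4 * (t * b) * (t * c) =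
        t ^ 2 * ((a + b + c) ^ 2 - 4 * b * c) := by ring
    rw [this, Real.sqrt_mul (sq_nonneg t), Real.sqrt_sq ht]
  have h2 : rootP (t * a) (t * b) (t * c) = t * rootP a b c := by
    unfold rootP
    rw [h1]
    ring
  have h3 : rootM (t * a) (t * b) (t * c) = t * rootM a b c := by
    unfold rootM
    rw [h1]
    ring
  have h4 := rootP_add_rootM a b c
  unfold FF
  rw [h2, h3, Real.negMulLog_mul, Real.negMulLog_mul, Real.negMulLog_mul, Real.negMulLog_mul,
    Real.negMulLog_mul]
  linear_combination Real.negMulLog t * h4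

theorem logRep_FF {a b c : ℝ} (ha : 0 ≤ a) (hb : 0 ≤ b) (hc : 0 ≤ c) :
    LogRep (fun s => Real.log (1 + s * a / ((s + b) * (s + c))) - Real.log (1 + a / s)) 0 0
      (FF a b c) := by
  have hP := rootP_nonneg ha hb hc
  have hM := rootM_nonneg ha hb hc
  have h1 := (((((LogRep.log hP).add (LogRep.log hM)).sub (LogRep.log ha)).sub
    (LogRep.log hb)).sub (LogRep.log hc)).add (LogRep.log le_rfl)
  have e0 : (1 : ℝ) + 1 - 1 - 1 - 1 + 1 = 0 := by norm_num
  have e1 : rootP a b c + rootM a b c - a - b - c + 0 = 0 := by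
    rw [rootP_add_rootM]; ring
  have e2 : Real.negMulLog (rootP a b c) + Real.negMulLog (rootM a b c) - Real.negMulLog a
      - Real.negMulLog b - Real.negMulLog c + Real.negMulLog 0 = FF a b c := by
    unfold FF
    rw [Real.negMulLog_zero]
    ring
  rw [e0, e1, e2] at h1
  refine h1.congr fun s hs => ?_
  have p1 : 0 < s + rootP a b c := by linarith
  have p2 : 0 < s + rootM a b c := by linarith
  have p3 : 0 < s + a := by linarith
  have p4 : 0 < s + b := by linarith
  have p5 : 0 < s + c := by linarith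
  have q1 : (s + rootP a b c) * (s + rootM a b c) = (s + b) * (s + c) + s * a := by
    have := rootP_mul_rootM ha hb hc
    have h4 := rootP_add_rootM a b c
    linear_combination this + s * h4
  have q2 : 1 + s * a / ((s + b) * (s + c)) =
      ((s + rootP a b c) * (s + rootM a b c)) / ((s + b) * (s + c)) := by
    rw [q1]
    field_simp
  have q3 : 1 + a / s = (s + a) / s := by field_simp
  rw [q2, q3, Real.log_div (by positivity) (by positivity), Real.log_mul p1.ne' p2.ne',
    Real.log_mul p4.ne' p5.ne', Real.log_div p3.ne' hs.ne', add_zero]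
  ring

/-- sublinearity of the scalar functional -/
theorem FF_sum {n : Type} [Fintype n] (a b c : n → ℝ) (ha : ∀ k, 0 ≤ a k) (hb : ∀ k, 0 ≤ b k)
    (hc : ∀ k, 0 ≤ c k) :
    FF (∑ k, a k) (∑ k, b k) (∑ k, c k) ≤ ∑ k, FF (a k) (b k) (c k) := by
  set A := ∑ k, a k with hA
  set B := ∑ k, b k with hB
  set C := ∑ k, c k with hC
  have hA0 : 0 ≤ A := Finset.sum_nonneg fun k _ => ha k
  have hB0 : 0 ≤ B := Finset.sum_nonneg fun k _ => hb k
  have hC0 : 0 ≤ C := Finset.sum_nonneg fun k _ => hc k
  rcases hA0.eq_or_lt with hAz | hApos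
  · have hall : ∀ k, a k = 0 := fun k =>
      (Finset.sum_eq_zero_iff_of_nonneg fun i _ => ha i).1 hAz.symm k (Finset.mem_univ k)
    rw [← hAz, FF_zero hB0 hC0]
    refine Finset.sum_nonneg fun k _ => ?_
    rw [hall k, FF_zero (hb k) (hc k)]
  set p : n → ℝ := fun k => a k / A with hp
  have hp0 : ∀ k, 0 ≤ p k := fun k => div_nonneg (ha k) hA0
  have hp1 : ∑ k, p k = 1 := by
    rw [hp, ← Finset.sum_div, ← hA, div_self hApos.ne']
  have hbp : ∀ k, p k * (b k / p k) ≤ b k := by
    intro k
    rcases (hp0 k).eq_or_lt with h | h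
    · rw [← h]; simpa using hb k
    · rw [mul_div_cancel₀ _ h.ne']
  have hcp : ∀ k, p k * (c k / p k) ≤ c k := by
    intro k
    rcases (hp0 k).eq_or_lt with h | h
    · rw [← h]; simpa using hc k
    · rw [mul_div_cancel₀ _ h.ne']
  have hterm : ∀ k, FF (a k) (b k) (c k) = p k * FF A (b k / p k) (c k / p k) := by
    intro k
    rcases (hp0 k).eq_or_lt with h | h
    · have hak : a k = 0 := by
        have h' : a k / A = 0 := h.symm
        rcases div_eq_zero_iff.1 h' with h2 | h2
        · exact h2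
        · exact absurd h2 hApos.ne'
      rw [← h, zero_mul, hak, FF_zero (hb k) (hc k)]
    · rw [← FF_homog (hp0 k), mul_div_cancel₀ _ h.ne', mul_div_cancel₀ _ h.ne']
      congr 1
      rw [hp]
      field_simp
  simp_rw [hterm]
  have hR : ∀ k ∈ (Finset.univ : Finset n),
      LogRep (fun s => p k * (Real.log (1 + s * A / ((s + b k / p k) * (s + c k / p k))) -
        Real.log (1 + A / s))) (p k * 0) (p k * 0) (p k * FF A (b k / p k) (c k / p k)) := by
    intro k _
    exact (logRep_FF hA0 (div_nonneg (hb k) (hp0 k)) (div_nonneg (hc k) (hp0 k))).const_mul _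
  have hRs := LogRep.sum Finset.univ hR
  simp only [mul_zero, Finset.sum_const_zero] at hRs
  refine (logRep_FF hA0 hB0 hC0).le hRs fun s hs => ?_
  -- pointwise inequality
  have jl : ∀ (z : n → ℝ) (Z : ℝ), (∀ k, 0 ≤ z k) → (∀ k, p k * (z k / p k) ≤ z k) →
      Z = ∑ k, z k → ∑ k, p k * Real.log (s + z k / p k) ≤ Real.log (s + Z) := by
    intro z Z hz hzp hZ
    have h1 := (strictConcaveOn_log_Ioi.concaveOn).le_map_sum (t := Finset.univ) (w := p)
      (p := fun k => s + z k / p k) (fun k _ => hp0 k) hp1 (fun k _ => by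
        have := div_nonneg (hz k) (hp0 k)
        simp only [Set.mem_Ioi]
        linarith)
    simp only [smul_eq_mul] at h1
    refine h1.trans ?_
    have h2 : ∑ k, p k * (s + z k / p k) = s + ∑ k, p k * (z k / p k) := by
      simp_rw [mul_add]
      rw [Finset.sum_add_distrib, ← Finset.sum_mul, hp1, one_mul]
    rw [h2]
    have h3 : 0 ≤ ∑ k, p k * (z k / p k) :=
      Finset.sum_nonneg fun k _ => mul_nonneg (hp0 k) (div_nonneg (hz k) (hp0 k))
    refine Real.log_le_log (by linarith) ?_
    rw [hZ]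
    have h4 : ∑ k, p k * (z k / p k) ≤ ∑ k, z k := Finset.sum_le_sum fun k _ => hzp k
    linarith
  have jB := jl b B hb hbp hB
  have jC := jl c C hc hcp hC
  set y : ℝ := s * A / ((s + B) * (s + C)) with hy
  have hy0 : 0 < y := by positivity
  have tangent : ∀ k, Real.log (1 + y) + y / (1 + y) * ((Real.log (s + B) + Real.log (s + C)) -
      (Real.log (s + b k / p k) + Real.log (s + c k / p k))) ≤
      Real.log (1 + s * A / ((s + b k / p k) * (s + c k / p k))) := by
    intro k
    have b1 : 0 < s + b k / p k := by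
      have := div_nonneg (hb k) (hp0 k); linarith
    have c1 : 0 < s + c k / p k := by
      have := div_nonneg (hc k) (hp0 k); linarith
    set r : ℝ := ((s + B) * (s + C)) / ((s + b k / p k) * (s + c k / p k)) with hr
    have hr0 : 0 < r := by positivity
    have hlog : Real.log r = (Real.log (s + B) + Real.log (s + C)) -
      (Real.log (s + b k / p k) + Real.log (s + c k / p k)) := by
      rw [hr, Real.log_div (by positivity) (by positivity),
        Real.log_mul (by positivity) (by positivity), Real.log_mul b1.ne' c1.ne']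
    have hyk : s * A / ((s + b k / p k) * (s + c k / p k)) = y * r := by
      rw [hy, hr]
      field_simp
    rw [← hlog, hyk]
    have w1 : (0 : ℝ) ≤ 1 / (1 + y) := by positivity
    have w2 : (0 : ℝ) ≤ y / (1 + y) := by positivity
    have w3 : 1 / (1 + y) + y / (1 + y) = 1 := by field_simp
    have hconc := (strictConcaveOn_log_Ioi.concaveOn).2
      (Set.mem_Ioi.2 (one_pos : (0 : ℝ) < 1)) (Set.mem_Ioi.2 hr0) w1 w2 w3
    simp only [smul_eq_mul, Real.log_one, mul_zero, zero_add, mul_one] at hconc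
    have h5 : 1 / (1 + y) + y / (1 + y) * r = (1 + y * r) / (1 + y) := by
      field_simp
    have h6 : Real.log ((1 + y * r) / (1 + y)) = Real.log (1 + y * r) - Real.log (1 + y) :=
      Real.log_div (by positivity) (by positivity)
    rw [h5, h6] at hconc
    linarith
  have hsum : ∑ k, p k * (Real.log (1 + y) + y / (1 + y) *
      ((Real.log (s + B) + Real.log (s + C)) -
      (Real.log (s + b k / p k) + Real.log (s + c k / p k)))) ≤
      ∑ k, p k * Real.log (1 + s * A / ((s + b k / p k) * (s + c k / p k))) :=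
    Finset.sum_le_sum fun k _ => mul_le_mul_of_nonneg_left (tangent k) (hp0 k)
  have hexp : ∑ k, p k * (Real.log (1 + y) + y / (1 + y) *
      ((Real.log (s + B) + Real.log (s + C)) -
      (Real.log (s + b k / p k) + Real.log (s + c k / p k)))) =
      Real.log (1 + y) + y / (1 + y) * ((Real.log (s + B) + Real.log (s + C)) -
      (∑ k, p k * Real.log (s + b k / p k) + ∑ k, p k * Real.log (s + c k / p k))) := by
    have h6 : ∀ k, p k * (Real.log (1 + y) + y / (1 + y) *
        ((Real.log (s + B) + Real.log (s + C)) -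
        (Real.log (s + b k / p k) + Real.log (s + c k / p k)))) =
        p k * (Real.log (1 + y) + y / (1 + y) * (Real.log (s + B) + Real.log (s + C))) -
        y / (1 + y) * (p k * Real.log (s + b k / p k) + p k * Real.log (s + c k / p k)) := by
      intro k; ring
    simp_rw [h6]
    rw [Finset.sum_sub_distrib, ← Finset.sum_mul, hp1, ← Finset.mul_sum, Finset.sum_add_distrib]
    ring
  have hpos : 0 ≤ y / (1 + y) * ((Real.log (s + B) + Real.log (s + C)) -
      (∑ k, p k * Real.log (s + b k / p k) + ∑ k, p k * Real.log (s + c k / p k))) := by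
    refine mul_nonneg (by positivity) ?_
    linarith
  have hfin : ∑ k, p k * (Real.log (1 + s * A / ((s + b k / p k) * (s + c k / p k))) -
      Real.log (1 + A / s)) =
      ∑ k, p k * Real.log (1 + s * A / ((s + b k / p k) * (s + c k / p k))) -
      Real.log (1 + A / s) := by
    simp_rw [mul_sub]
    rw [Finset.sum_sub_distrib, ← Finset.sum_mul, hp1, one_mul]
  rw [hfin]
  linarith

end Vale.Agent.P358
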