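import Vale.Agent.P358.KeyZeroAux
import Vale.Agent.P358.Pinch
import Vale.Agent.P358.Svd
import Vale.Agent.P358.ScalarF
import Vale.Agent.P358.ScalarE

namespace Vale.Agent.P358

open Matrix
open scoped ComplexOrder

/-- determinant factorisation in the singular bases of `X` -/
theorem det_factor {n : Type} [Fintype n] [DecidableEq n] {U V Y : Matrix n n ℂ} {d : n → ℝ}
    (hU : U * Uᴴ = 1) (hV : V * Vᴴ = 1) {g e : ℝ} (hg : 0 ≤ g) (he : 0 ≤ e) {X : Matrix n n ℂ}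
    (hX : X = U * diagonal (fun k => (d k : ℂ)) * Vᴴ) {s : ℝ} (hs : 0 < s) :
    ((s : ℂ) • (1 : Matrix (n ⊕ n) (n ⊕ n) ℂ) +
      fromBlocks (X * Xᴴ + (g : ℂ) • (Y * Yᴴ)) (((√e : ℝ) : ℂ) • (X * Yᴴ))
        (((√e : ℝ) : ℂ) • (Y * Xᴴ)) ((e : ℂ) • (Y * Yᴴ))).det =
    (fromBlocks ((s : ℂ) • (1 : Matrix n n ℂ) + (e : ℂ) • (Vᴴ * (Yᴴ * Y) * V))
      (-diagonal (fun k => ((√s * d k : ℝ) : ℂ))) (diagonal (fun k => ((√s * d k : ℝ) : ℂ)))
      ((s : ℂ) • (1 : Matrix n n ℂ) + (g : ℂ) • (Uᴴ * (Y * Yᴴ) * U))).det := by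
  have hs' : (s : ℂ) ≠ 0 := by exact_mod_cast hs.ne'
  have hU' : Uᴴ * U = 1 := mul_eq_one_comm.mp hU
  have hV' : Vᴴ * V = 1 := mul_eq_one_comm.mp hV
  obtain ⟨N, hNdef⟩ : ∃ N : Matrix n n ℂ, N = (s : ℂ) • (1 : Matrix n n ℂ) + (g : ℂ) • (Y * Yᴴ) :=
    ⟨_, rfl⟩
  have hNpd : N.PosDef := by
    rw [hNdef]
    refine PosDef.add_posSemidef ?_ ?_
    · exact PosDef.one.smul (by exact_mod_cast hs)
    · exact (posSemidef_self_mul_conjTranspose Y).smul (by exact_mod_cast hg)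
  have hNu : IsUnit N.det := by
    exact isUnit_iff_ne_zero.mpr hNpd.det_pos.ne'
  have hse : ((√e : ℝ) : ℂ) * ((√e : ℝ) : ℂ) = (e : ℂ) := by
    rw [← Complex.ofReal_mul, Real.mul_self_sqrt he]
  have hss : ((√s : ℝ) : ℂ) * ((√s : ℝ) : ℂ) = (s : ℂ) := by
    rw [← Complex.ofReal_mul, Real.mul_self_sqrt hs.le]
  -- left side
  have hstar : (starRingEnd ℂ) ((√e : ℝ) : ℂ) = ((√e : ℝ) : ℂ) := Complex.conj_ofReal _
  have hL : ((s : ℂ) • (1 : Matrix (n ⊕ n) (n ⊕ n) ℂ) +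
      fromBlocks (X * Xᴴ + (g : ℂ) • (Y * Yᴴ)) (((√e : ℝ) : ℂ) • (X * Yᴴ))
        (((√e : ℝ) : ℂ) • (Y * Xᴴ)) ((e : ℂ) • (Y * Yᴴ)))
      = fromBlocks (N + X * Xᴴ) (X * (((√e : ℝ) : ℂ) • Y)ᴴ) ((((√e : ℝ) : ℂ) • Y) * Xᴴ)
        ((s : ℂ) • (1 : Matrix n n ℂ) + (((√e : ℝ) : ℂ) • Y) * (((√e : ℝ) : ℂ) • Y)ᴴ) := by
    rw [← Matrix.fromBlocks_one, Matrix.fromBlocks_smul, Matrix.fromBlocks_add, hNdef]
    simp only [conjTranspose_smul, Matrix.mul_smul, Matrix.smul_mul, smul_zero, zero_add,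
      smul_smul, RCLike.star_def, hstar, hse]
    congr 1
    abel
  rw [hL, det_block_gram N X _ (s : ℂ) hs' hNu]
  have hNB : Uᴴ * N * U = (s : ℂ) • (1 : Matrix n n ℂ) + (g : ℂ) • (Uᴴ * (Y * Yᴴ) * U) := by
    rw [hNdef, mul_add, add_mul, Matrix.mul_smul, mul_one, Matrix.smul_mul, hU', Matrix.mul_smul,
      Matrix.smul_mul]
  have hdetN : N.det = ((s : ℂ) • (1 : Matrix n n ℂ) + (g : ℂ) • (Uᴴ * (Y * Yᴴ) * U)).det := by
    rw [← hNB, det_conj_unitary U N hU]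
  obtain ⟨B, hB⟩ : ∃ B : Matrix n n ℂ,
    B = (s : ℂ) • (1 : Matrix n n ℂ) + (g : ℂ) • (Uᴴ * (Y * Yᴴ) * U) := ⟨_, rfl⟩
  have hBu : IsUnit B.det := by rw [hB, ← hdetN]; exact hNu
  have hNinv : B⁻¹ = Uᴴ * N⁻¹ * U := by
    refine Matrix.inv_eq_right_inv ?_
    rw [hB, ← hNB]
    calc Uᴴ * N * U * (Uᴴ * N⁻¹ * U) = Uᴴ * N * (U * Uᴴ) * N⁻¹ * U := by
          simp only [mul_assoc]
      _ = 1 := by rw [hU, mul_one, mul_assoc Uᴴ, Matrix.mul_nonsing_inv _ hNu, mul_one, hU']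
  have : Invertible B := Matrix.invertibleOfIsUnitDet B hBu
  rw [hdetN, ← hB, det_fromBlocks₂₂, invOf_eq_nonsing_inv]
  congr 1
  rw [← det_conj_unitary V _ hV]
  congr 1
  obtain ⟨D, hD⟩ : ∃ D : Matrix n n ℂ, D = diagonal (fun k => (d k : ℂ)) := ⟨_, rfl⟩
  have hDs : diagonal (fun k => ((√s * d k : ℝ) : ℂ)) = ((√s : ℝ) : ℂ) • D := by
    rw [hD, ← diagonal_smul]
    congr 1
    ext k
    simp
  have hDh : Dᴴ = D := by
    rw [hD, diagonal_conjTranspose]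
    congr 1
    ext k
    simp
  rw [hDs, hNinv]
  have hX' : X = U * D * Vᴴ := by rw [hX, hD]
  have hXh : Xᴴ = V * D * Uᴴ := by
    rw [hX', conjTranspose_mul, conjTranspose_mul, hDh, conjTranspose_conjTranspose, mul_assoc]
  have t1 : Vᴴ * (Xᴴ * N⁻¹ * X) * V = D * (Uᴴ * N⁻¹ * U) * D := by
    rw [hXh, hX']
    calc Vᴴ * (V * D * Uᴴ * N⁻¹ * (U * D * Vᴴ)) * V
        = (Vᴴ * V) * (D * (Uᴴ * N⁻¹ * U) * D) * (Vᴴ * V) := by simp only [mul_assoc]
      _ = D * (Uᴴ * N⁻¹ * U) * D := by rw [hV', one_mul, mul_one]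
  have t2 : (((√e : ℝ) : ℂ) • Y)ᴴ * (((√e : ℝ) : ℂ) • Y) = (e : ℂ) • (Yᴴ * Y) := by
    rw [conjTranspose_smul, Matrix.smul_mul, Matrix.mul_smul, smul_smul, RCLike.star_def, hstar,
      hse]
  rw [t2, mul_add, mul_add, add_mul, add_mul, Matrix.mul_smul, Matrix.mul_smul, Matrix.mul_smul,
    Matrix.smul_mul, Matrix.smul_mul, Matrix.smul_mul, mul_one, hV', t1]
  rw [neg_mul, neg_mul, sub_neg_eq_add, Matrix.smul_mul, Matrix.smul_mul, Matrix.mul_smul,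
    smul_smul, hss]
  abel

theorem key_square {n : Type} [Fintype n] [DecidableEq n] {γ : ℝ}
    (hγ : γ ∈ Set.Icc (0 : ℝ) 1) (X Y : Matrix n n ℂ) :
    trPhi (X * Xᴴ) + trPhi (Y * Yᴴ) +
      (EE γ 0 ((X * Xᴴ).trace.re + (Y * Yᴴ).trace.re) (Y * Yᴴ).trace.re
      + Real.negMulLog ((X * Xᴴ).trace.re + (Y * Yᴴ).trace.re)
      - Real.negMulLog (X * Xᴴ).trace.re - Real.negMulLog (Y * Yᴴ).trace.re) ≤
    trPhi (fromBlocks (X * Xᴴ + (γ : ℂ) • (Y * Yᴴ)) (((√(1 - γ) : ℝ) : ℂ) • (X * Yᴴ))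
        (((√(1 - γ) : ℝ) : ℂ) • (Y * Xᴴ)) (((1 - γ : ℝ) : ℂ) • (Y * Yᴴ))) := by
  obtain ⟨hγ0, hγ1⟩ := hγ
  have he : 0 ≤ 1 - γ := by linarith
  obtain ⟨U, V, d, hU, hV, hU', hV', hd, hX⟩ := exists_svd X
  obtain ⟨P, hP⟩ : ∃ P : Matrix (n ⊕ n) (n ⊕ n) ℂ,
    P = fromBlocks (X * Xᴴ + (γ : ℂ) • (Y * Yᴴ)) (((√(1 - γ) : ℝ) : ℂ) • (X * Yᴴ))
        (((√(1 - γ) : ℝ) : ℂ) • (Y * Xᴴ)) (((1 - γ : ℝ) : ℂ) • (Y * Yᴴ)) := ⟨_, rfl⟩
  have hsg : ((√γ : ℝ) : ℂ) * ((√γ : ℝ) : ℂ) = (γ : ℂ) := by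
    rw [← Complex.ofReal_mul, Real.mul_self_sqrt hγ0]
  have hse : ((√(1 - γ) : ℝ) : ℂ) * ((√(1 - γ) : ℝ) : ℂ) = ((1 - γ : ℝ) : ℂ) := by
    rw [← Complex.ofReal_mul, Real.mul_self_sqrt he]
  have hPpsd : P.PosSemidef := by
    have : P = fromBlocks X (((√γ : ℝ) : ℂ) • Y) (((√(1 - γ) : ℝ) : ℂ) • Y) 0 *
        (fromBlocks X (((√γ : ℝ) : ℂ) • Y) (((√(1 - γ) : ℝ) : ℂ) • Y) 0)ᴴ := by
      rw [hP, fromBlocks_conjTranspose, fromBlocks_multiply]
      simp only [conjTranspose_smul, Matrix.mul_smul, Matrix.smul_mul,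
        smul_smul, RCLike.star_def, Complex.conj_ofReal, hse, hsg, conjTranspose_zero,
        Matrix.mul_zero, Matrix.zero_mul, smul_zero, add_zero]
    rw [this]
    exact posSemidef_self_mul_conjTranspose _
  obtain ⟨Bm, hBm⟩ : ∃ Bm : Matrix n n ℂ, Bm = (γ : ℂ) • (Uᴴ * (Y * Yᴴ) * U) := ⟨_, rfl⟩
  obtain ⟨Cm, hCm⟩ : ∃ Cm : Matrix n n ℂ,
    Cm = ((1 - γ : ℝ) : ℂ) • (Vᴴ * (Yᴴ * Y) * V) := ⟨_, rfl⟩
  have hBpsd : Bm.PosSemidef := by
    rw [hBm]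
    exact ((posSemidef_self_mul_conjTranspose Y).conjTranspose_mul_mul_same U).smul
      (by exact_mod_cast hγ0)
  have hCpsd : Cm.PosSemidef := by
    rw [hCm]
    exact ((posSemidef_conjTranspose_mul_self Y).conjTranspose_mul_mul_same V).smul
      (by exact_mod_cast he)
  obtain ⟨a, ha⟩ : ∃ a : n → ℝ, a = fun k => d k ^ 2 := ⟨_, rfl⟩
  obtain ⟨b, hb⟩ : ∃ b : n → ℝ, b = fun k => (Bm k k).re := ⟨_, rfl⟩
  obtain ⟨c, hc⟩ : ∃ c : n → ℝ, c = fun k => (Cm k k).re := ⟨_, rfl⟩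
  have ha0 : ∀ k, 0 ≤ a k := fun k => by rw [ha]; positivity
  have hb0 : ∀ k, 0 ≤ b k := fun k => by
    rw [hb]; exact (Complex.nonneg_iff.mp (hBpsd.diag_nonneg (i := k))).1
  have hc0 : ∀ k, 0 ≤ c k := fun k => by
    rw [hc]; exact (Complex.nonneg_iff.mp (hCpsd.diag_nonneg (i := k))).1
  -- traces
  have hXX : X * Xᴴ = U * diagonal (fun k => ((a k : ℝ) : ℂ)) * Uᴴ := by
    have hDh : (diagonal (fun k => (d k : ℂ)))ᴴ = diagonal (fun k => (d k : ℂ)) := by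
      rw [diagonal_conjTranspose]; congr 1; ext k; simp
    have hDD : diagonal (fun k => (d k : ℂ)) * diagonal (fun k => (d k : ℂ))
        = diagonal (fun k => ((a k : ℝ) : ℂ)) := by
      rw [diagonal_mul_diagonal, ha]; congr 1; ext k; push_cast; ring
    rw [hX, conjTranspose_mul, conjTranspose_mul, hDh, conjTranspose_conjTranspose]
    calc U * diagonal (fun k => (d k : ℂ)) * Vᴴ * (V * (diagonal (fun k => (d k : ℂ)) * Uᴴ))
        = U * diagonal (fun k => (d k : ℂ)) * (Vᴴ * V) * (diagonal (fun k => (d k : ℂ)) * Uᴴ) := by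
          simp only [mul_assoc]
      _ = U * (diagonal (fun k => (d k : ℂ)) * diagonal (fun k => (d k : ℂ))) * Uᴴ := by
          rw [hV', mul_one]; simp only [mul_assoc]
      _ = _ := by rw [hDD]
  have htrX : (X * Xᴴ).trace.re = ∑ k, a k := by
    rw [hXX, trace_mul_comm, ← mul_assoc, hU', one_mul, trace_diagonal]; simp
  have htrB : Bm.trace.re = γ * (Y * Yᴴ).trace.re := by
    rw [hBm, trace_smul, trace_mul_comm, ← mul_assoc, hU, one_mul, smul_eq_mul,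
      Complex.re_ofReal_mul]
  have htrC : Cm.trace.re = (1 - γ) * (Y * Yᴴ).trace.re := by
    rw [hCm, trace_smul, trace_mul_comm, ← mul_assoc, hV, one_mul, smul_eq_mul,
      Complex.re_ofReal_mul, trace_mul_comm]
  have hsb : ∑ k, b k = Bm.trace.re := by simp [hb, Matrix.trace]
  have hsc : ∑ k, c k = Cm.trace.re := by simp [hc, Matrix.trace]
  have htrP : P.trace.re = ∑ k, a k + (Y * Yᴴ).trace.re := by
    have htb : ∀ A B C D : Matrix n n ℂ, (fromBlocks A B C D).trace = A.trace + D.trace := by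
      intro A B C D
      simp [Matrix.trace, Fintype.sum_sum_type]
    rw [hP, htb, trace_add, trace_smul, trace_smul, Complex.add_re, Complex.add_re,
      smul_eq_mul, smul_eq_mul, Complex.re_ofReal_mul, Complex.re_ofReal_mul, htrX]
    ring
  -- entropies of the pieces
  have hphiX : trPhi (X * Xᴴ) = ∑ k, Real.negMulLog (a k) := by
    rw [hXX]; exact trPhi_diag_conj U hU a ha0
  have hphiB : trPhi Bm = γ * trPhi (Y * Yᴴ) + Real.negMulLog γ * (Y * Yᴴ).trace.re := by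
    rw [hBm]; exact trPhi_smul_conj (posSemidef_self_mul_conjTranspose Y) hU hγ0
  have hphiC : trPhi Cm = (1 - γ) * trPhi (Y * Yᴴ)
      + Real.negMulLog (1 - γ) * (Y * Yᴴ).trace.re := by
    rw [hCm, trPhi_smul_conj (posSemidef_conjTranspose_mul_self Y) hV he, trPhi_gram_comm,
      trace_mul_comm]
  -- the comparison
  have L1 := logRep_det hBpsd
  have L2 := logRep_det hCpsd
  have L3 : LogRep (fun s => ∑ k, (Real.log (s + rootP (a k) (b k) (c k))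
      + Real.log (s + rootM (a k) (b k) (c k)))) (∑ _k : n, (1 + 1))
      (∑ k, (rootP (a k) (b k) (c k) + rootM (a k) (b k) (c k)))
      (∑ k, (Real.negMulLog (rootP (a k) (b k) (c k))
        + Real.negMulLog (rootM (a k) (b k) (c k)))) :=
    LogRep.sum Finset.univ fun k _ =>
      (LogRep.log (rootP_nonneg (ha0 k) (hb0 k) (hc0 k))).add
        (LogRep.log (rootM_nonneg (ha0 k) (hb0 k) (hc0 k)))
  have R1 := logRep_det hPpsd
  have R2 : LogRep (fun s => ∑ k, (Real.log (s + b k) + Real.log (s + c k))) (∑ _k : n, (1 + 1))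
      (∑ k, (b k + c k)) (∑ k, (Real.negMulLog (b k) + Real.negMulLog (c k))) :=
    LogRep.sum Finset.univ fun k _ => (LogRep.log (hb0 k)).add (LogRep.log (hc0 k))
  have LL := (L1.add L2).add L3
  have RR := R1.add R2
  have hN : ((Fintype.card n : ℝ) + Fintype.card n) + ∑ _k : n, ((1 : ℝ) + 1)
      = (Fintype.card (n ⊕ n) : ℝ) + ∑ _k : n, ((1 : ℝ) + 1) := by
    rw [Fintype.card_sum]; push_cast; ring
  have hT : Bm.trace.re + Cm.trace.re
      + ∑ k, (rootP (a k) (b k) (c k) + rootM (a k) (b k) (c k))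
      = P.trace.re + ∑ k, (b k + c k) := by
    have : ∀ k, rootP (a k) (b k) (c k) + rootM (a k) (b k) (c k) = a k + (b k + c k) := by
      intro k; rw [root_add]; ring
    simp only [this, Finset.sum_add_distrib]
    rw [htrP, htrB, htrC]
    ring
  rw [hN, hT] at LL
  have hcomp := LL.le RR ?_
  · -- conclude
    have hF := FF_sum a b c ha0 hb0 hc0
    have hE := FF_eq_EE (γ := γ) ⟨hγ0, hγ1⟩ (a := (X * Xᴴ).trace.re) (c := (Y * Yᴴ).trace.re)
      (by rw [htrX]; exact Finset.sum_nonneg fun k _ => ha0 k)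
      (by
        have := (posSemidef_self_mul_conjTranspose Y).trace_nonneg
        exact (Complex.nonneg_iff.mp this).1)
    rw [hsb, hsc, htrB, htrC, ← htrX] at hF
    have hFs : ∑ k, FF (a k) (b k) (c k)
        = ∑ k, (Real.negMulLog (rootP (a k) (b k) (c k))
          + Real.negMulLog (rootM (a k) (b k) (c k))) - ∑ k, Real.negMulLog (a k)
          - ∑ k, (Real.negMulLog (b k) + Real.negMulLog (c k)) := by
      rw [← Finset.sum_sub_distrib, ← Finset.sum_sub_distrib]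
      refine Finset.sum_congr rfl fun k _ => ?_
      unfold FF; ring
    rw [← hP, hphiX]
    rw [hphiB, hphiC] at hcomp
    linarith [hE, hF, hFs, hcomp]
  · intro s hs
    have hpin := pinch_det ((s : ℂ) • (1 : Matrix n n ℂ) + Bm) ((s : ℂ) • (1 : Matrix n n ℂ) + Cm)
      (PosDef.add_posSemidef (PosDef.one.smul (by exact_mod_cast hs)) hBpsd)
      (PosDef.add_posSemidef (PosDef.one.smul (by exact_mod_cast hs)) hCpsd)
      (fun k => √s * d k)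
    have hfac := det_factor (Y := Y) hU hV hγ0 he hX hs
    rw [← hP, ← hBm, ← hCm] at hfac
    rw [← hfac] at hpin
    have hbk : ∀ k, (((s : ℂ) • (1 : Matrix n n ℂ) + Bm) k k).re = s + b k := by
      intro k; simp [hb]
    have hck : ∀ k, (((s : ℂ) • (1 : Matrix n n ℂ) + Cm) k k).re = s + c k := by
      intro k; simp [hc]
    simp only [hbk, hck] at hpin
    have hrt : ∀ k, (s + b k) * (s + c k) + (√s * d k) ^ 2
        = (s + rootP (a k) (b k) (c k)) * (s + rootM (a k) (b k) (c k)) := by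
      intro k
      rw [root_prod (ha0 k) (hb0 k) (hc0 k), mul_pow, Real.sq_sqrt hs.le, ha]
    simp only [hrt] at hpin
    have hposB : 0 < ((s : ℂ) • (1 : Matrix n n ℂ) + Bm).det.re := by
      rw [det_smul_one_add hBpsd.isHermitian, Complex.ofReal_re]
      exact Finset.prod_pos fun i _ => add_pos_of_pos_of_nonneg hs (hBpsd.eigenvalues_nonneg i)
    have hposC : 0 < ((s : ℂ) • (1 : Matrix n n ℂ) + Cm).det.re := by
      rw [det_smul_one_add hCpsd.isHermitian, Complex.ofReal_re]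
      exact Finset.prod_pos fun i _ => add_pos_of_pos_of_nonneg hs (hCpsd.eigenvalues_nonneg i)
    have hposP : 0 < ((s : ℂ) • (1 : Matrix (n ⊕ n) (n ⊕ n) ℂ) + P).det.re := by
      rw [det_smul_one_add hPpsd.isHermitian, Complex.ofReal_re]
      exact Finset.prod_pos fun i _ => add_pos_of_pos_of_nonneg hs (hPpsd.eigenvalues_nonneg i)
    have hposR : ∀ k, 0 < (s + rootP (a k) (b k) (c k)) * (s + rootM (a k) (b k) (c k)) := by
      intro k
      exact mul_pos (add_pos_of_pos_of_nonneg hs (rootP_nonneg (ha0 k) (hb0 k) (hc0 k)))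
        (add_pos_of_pos_of_nonneg hs (rootM_nonneg (ha0 k) (hb0 k) (hc0 k)))
    have hposBC : ∀ k, 0 < (s + b k) * (s + c k) := fun k =>
      mul_pos (add_pos_of_pos_of_nonneg hs (hb0 k)) (add_pos_of_pos_of_nonneg hs (hc0 k))
    have hlog := Real.log_le_log
      (mul_pos (mul_pos hposB hposC) (Finset.prod_pos fun k _ => hposR k)) hpin
    rw [Real.log_mul (mul_pos hposB hposC).ne' (Finset.prod_pos fun k _ => hposR k).ne',
      Real.log_mul hposB.ne' hposC.ne',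
      Real.log_mul hposP.ne' (Finset.prod_pos fun k _ => hposBC k).ne',
      Real.log_prod (fun k _ => (hposR k).ne'), Real.log_prod (fun k _ => (hposBC k).ne')] at hlog
    have e1 : ∀ k, Real.log ((s + rootP (a k) (b k) (c k)) * (s + rootM (a k) (b k) (c k)))
        = Real.log (s + rootP (a k) (b k) (c k)) + Real.log (s + rootM (a k) (b k) (c k)) := by
      intro k
      exact Real.log_mul
        (add_pos_of_pos_of_nonneg hs (rootP_nonneg (ha0 k) (hb0 k) (hc0 k))).ne'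
        (add_pos_of_pos_of_nonneg hs (rootM_nonneg (ha0 k) (hb0 k) (hc0 k))).ne'
    have e2 : ∀ k, Real.log ((s + b k) * (s + c k)) = Real.log (s + b k) + Real.log (s + c k) := by
      intro k
      exact Real.log_mul (add_pos_of_pos_of_nonneg hs (hb0 k)).ne'
        (add_pos_of_pos_of_nonneg hs (hc0 k)).ne'
    simp only [e1, e2] at hlog
    exact hlog

theorem trace_re_fromBlocks_zero {n : Type} [Fintype n] (A : Matrix n n ℂ) :
    (fromBlocks A 0 0 (0 : Matrix n n ℂ)).trace = A.trace := by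
  simp [Matrix.trace, Fintype.sum_sum_type]

theorem gadBlocks_posSemidef {R : Type} [Fintype R] [DecidableEq R] {γ : ℝ}
    (hγ : γ ∈ Set.Icc (0 : ℝ) 1) {A B C : Matrix R R ℂ}
    (hσ : (fromBlocks A B Bᴴ C).PosSemidef) : (gadBlocks γ 0 A B C).PosSemidef := by
  obtain ⟨hγ0, hγ1⟩ := hγ
  have he : 0 ≤ 1 - γ := by linarith
  have hsg : ((√γ : ℝ) : ℂ) * ((√γ : ℝ) : ℂ) = (γ : ℂ) := by
    rw [← Complex.ofReal_mul, Real.mul_self_sqrt hγ0]
  have hse : ((√(1 - γ) : ℝ) : ℂ) * ((√(1 - γ) : ℝ) : ℂ) = ((1 - γ : ℝ) : ℂ) := by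
    rw [← Complex.ofReal_mul, Real.mul_self_sqrt he]
  obtain ⟨K0, hK0⟩ : ∃ K0 : Matrix (R ⊕ R) (R ⊕ R) ℂ,
    K0 = fromBlocks 1 0 0 (((√(1 - γ) : ℝ) : ℂ) • (1 : Matrix R R ℂ)) := ⟨_, rfl⟩
  obtain ⟨K1, hK1⟩ : ∃ K1 : Matrix (R ⊕ R) (R ⊕ R) ℂ,
    K1 = fromBlocks 0 (((√γ : ℝ) : ℂ) • (1 : Matrix R R ℂ)) 0 0 := ⟨_, rfl⟩
  have h1 : gadBlocks γ 0 A B C = K0 * fromBlocks A B Bᴴ C * K0ᴴ
      + K1 * fromBlocks A B Bᴴ C * K1ᴴ := by
    rw [hK0, hK1, fromBlocks_conjTranspose, fromBlocks_conjTranspose, fromBlocks_multiply,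
      fromBlocks_multiply, fromBlocks_multiply, fromBlocks_multiply, fromBlocks_add, gadBlocks]
    simp only [conjTranspose_smul, conjTranspose_one, conjTranspose_zero, Matrix.mul_smul,
      Matrix.smul_mul, Matrix.one_mul, Matrix.mul_one, Matrix.zero_mul, Matrix.mul_zero,
      smul_smul, RCLike.star_def, Complex.conj_ofReal, smul_zero, add_zero, zero_add, hse, hsg]
    simp
  rw [h1]
  exact (hσ.mul_mul_conjTranspose_same K0).add (hσ.mul_mul_conjTranspose_same K1)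

theorem key_zero {γ : ℝ} (hγ : γ ∈ Set.Icc (0 : ℝ) 1) : Key γ 0 := by
  intro R _ _ A B C hσ
  obtain ⟨Z, hZ⟩ := exists_gram hσ
  obtain ⟨X, hX⟩ : ∃ X : Matrix (R ⊕ R) (R ⊕ R) ℂ,
    X = fromBlocks Z.toBlocks₁₁ Z.toBlocks₁₂ 0 0 := ⟨_, rfl⟩
  obtain ⟨Y, hY⟩ : ∃ Y : Matrix (R ⊕ R) (R ⊕ R) ℂ,
    Y = fromBlocks Z.toBlocks₂₁ Z.toBlocks₂₂ 0 0 := ⟨_, rfl⟩
  have hZb : Z * Zᴴ = fromBlocks
      (Z.toBlocks₁₁ * Z.toBlocks₁₁ᴴ + Z.toBlocks₁₂ * Z.toBlocks₁₂ᴴ)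
      (Z.toBlocks₁₁ * Z.toBlocks₂₁ᴴ + Z.toBlocks₁₂ * Z.toBlocks₂₂ᴴ)
      (Z.toBlocks₂₁ * Z.toBlocks₁₁ᴴ + Z.toBlocks₂₂ * Z.toBlocks₁₂ᴴ)
      (Z.toBlocks₂₁ * Z.toBlocks₂₁ᴴ + Z.toBlocks₂₂ * Z.toBlocks₂₂ᴴ) := by
    conv_lhs => rw [← fromBlocks_toBlocks Z]
    rw [fromBlocks_conjTranspose, fromBlocks_multiply]
  rw [hZb] at hZ
  obtain ⟨hA, hB, hB', hC⟩ := fromBlocks_inj.mp hZ
  have hXX : X * Xᴴ = fromBlocks A 0 0 0 := by
    rw [hX, fromBlocks_conjTranspose, fromBlocks_multiply, hA]; simp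
  have hXY : X * Yᴴ = fromBlocks B 0 0 0 := by
    rw [hX, hY, fromBlocks_conjTranspose, fromBlocks_multiply, hB]; simp
  have hYX : Y * Xᴴ = fromBlocks Bᴴ 0 0 0 := by
    rw [hX, hY, fromBlocks_conjTranspose, fromBlocks_multiply, hB']; simp
  have hYY : Y * Yᴴ = fromBlocks C 0 0 0 := by
    rw [hY, fromBlocks_conjTranspose, fromBlocks_multiply, hC]; simp
  have hApsd : A.PosSemidef := by
    have := hσ.submatrix (Sum.inl : R → R ⊕ R)
    have e : (fromBlocks A B Bᴴ C).submatrix Sum.inl Sum.inl = A := by ext i j; rfl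
    rwa [e] at this
  have hCpsd : C.PosSemidef := by
    have := hσ.submatrix (Sum.inr : R → R ⊕ R)
    have e : (fromBlocks A B Bᴴ C).submatrix Sum.inr Sum.inr = C := by ext i j; rfl
    rwa [e] at this
  have hk := key_square hγ X Y
  rw [hXX, hXY, hYX, hYY, trace_re_fromBlocks_zero, trace_re_fromBlocks_zero,
    trPhi_fromBlocks_zero hApsd, trPhi_fromBlocks_zero hCpsd] at hk
  refine hk.trans_eq ?_
  -- identify the padded output with the channel output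
  have hgpsd : (gadBlocks γ 0 A B C).PosSemidef := gadBlocks_posSemidef hγ hσ
  have hg : gadBlocks γ 0 A B C = fromBlocks (A + (γ : ℂ) • C) (((√(1 - γ) : ℝ) : ℂ) • B)
      (((√(1 - γ) : ℝ) : ℂ) • Bᴴ) (((1 - γ : ℝ) : ℂ) • C) := by
    unfold gadBlocks
    simp
  rw [← trPhi_fromBlocks_zero (J := R ⊕ R) hgpsd, hg]
  have hbig : (fromBlocks (fromBlocks (A + (γ : ℂ) • C) (((√(1 - γ) : ℝ) : ℂ) • B)
      (((√(1 - γ) : ℝ) : ℂ) • Bᴴ) (((1 - γ : ℝ) : ℂ) • C)) 0 0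
      (0 : Matrix (R ⊕ R) (R ⊕ R) ℂ)).PosSemidef := by
    rw [← hg]
    have h1 : (fromBlocks (gadBlocks γ 0 A B C) 0 0 (0 : Matrix (R ⊕ R) (R ⊕ R) ℂ))
        = (fromCols (1 : Matrix (R ⊕ R) (R ⊕ R) ℂ) (0 : Matrix (R ⊕ R) (R ⊕ R) ℂ))ᴴ
          * gadBlocks γ 0 A B C
          * (fromCols (1 : Matrix (R ⊕ R) (R ⊕ R) ℂ) (0 : Matrix (R ⊕ R) (R ⊕ R) ℂ)) := by
      ext (i | i) (j | j) <;> simp [Matrix.mul_apply, Matrix.one_apply]
    rw [h1]
    exact hgpsd.conjTranspose_mul_mul_same _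
  rw [← trPhi_reindex hbig (Equiv.sumSumSumComm R R R R)]
  congr 1
  ext ((i | i) | (i | i)) ((j | j) | (j | j)) <;> simp [Equiv.sumSumSumComm]

theorem key_one {γ : ℝ} (hγ : γ ∈ Set.Icc (0 : ℝ) 1) : Key γ 1 := by
  intro R _ _ A B C hσ
  have hσ' : (fromBlocks C Bᴴ Bᴴᴴ A).PosSemidef := by
    have := hσ.submatrix (Sum.swap : R ⊕ R → R ⊕ R)
    have e : (fromBlocks A B Bᴴ C).submatrix Sum.swap Sum.swap = fromBlocks C Bᴴ Bᴴᴴ A := by
      ext (i | i) (j | j) <;> simp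
    rwa [e] at this
  have h0 := key_zero hγ R C Bᴴ A hσ'
  have hE : EE γ 0 (C.trace.re + A.trace.re) A.trace.re
      = EE γ 1 (A.trace.re + C.trace.re) C.trace.re := by
    unfold EE eN outEig
    rw [add_comm C.trace.re]
    by_cases hz : A.trace.re + C.trace.re = 0
    · rw [hz]; simp
    · congr 5
      have : A.trace.re / (A.trace.re + C.trace.re)
          = 1 - C.trace.re / (A.trace.re + C.trace.re) := by
        field_simp; ring
      rw [this]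
      ring
  have hg : (gadBlocks γ 0 C Bᴴ A).submatrix (Equiv.sumComm R R) (Equiv.sumComm R R)
      = gadBlocks γ 1 A B C := by
    ext (i | i) (j | j) <;> simp [gadBlocks]
    ring
  rw [hE, add_comm C.trace.re, ← trPhi_reindex (gadBlocks_posSemidef hγ hσ') (Equiv.sumComm R R),
    hg] at h0
  linarith

end Vale.Agent.P358
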