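import Vale.Agent.P358.LogRep

namespace Vale.Agent.P358

open Matrix
open scoped ComplexOrder

open scoped MatrixOrder Matrix.Norms.L2Operator in
theorem exists_gram {n : Type} [Fintype n] [DecidableEq n] {M : Matrix n n ℂ}
    (hM : M.PosSemidef) : ∃ Z : Matrix n n ℂ, M = Z * Zᴴ := by
  obtain ⟨W, hW⟩ := CStarAlgebra.nonneg_iff_eq_star_mul_self.mp hM.nonneg
  exact ⟨Wᴴ, by rw [conjTranspose_conjTranspose, ← star_eq_conjTranspose]; exact hW⟩

theorem det_block_gram {n : Type} [Fintype n] [DecidableEq n] (N X Y : Matrix n n ℂ) (s : ℂ)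
    (hs : s ≠ 0) (hN : IsUnit N.det) :
    (fromBlocks (N + X * Xᴴ) (X * Yᴴ) (Y * Xᴴ) (s • (1 : Matrix n n ℂ) + Y * Yᴴ)).det
      = N.det * (s • (1 : Matrix n n ℂ) + s • (Xᴴ * N⁻¹ * X) + Yᴴ * Y).det := by
  have h1 : fromBlocks (N + X * Xᴴ) (X * Yᴴ) (Y * Xᴴ) (s • (1 : Matrix n n ℂ) + Y * Yᴴ)
      = fromBlocks N 0 0 (s • (1 : Matrix n n ℂ)) + fromRows X Y * fromCols Xᴴ Yᴴ := by
    rw [fromRows_mul_fromCols, fromBlocks_add]
    simp
  have hdet : (fromBlocks N 0 0 (s • (1 : Matrix n n ℂ))).det = N.det * s ^ Fintype.card n := by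
    rw [det_fromBlocks_zero₂₁]; simp
  have hinv : (fromBlocks N 0 0 (s • (1 : Matrix n n ℂ)))⁻¹
      = fromBlocks N⁻¹ 0 0 (s⁻¹ • (1 : Matrix n n ℂ)) := by
    refine Matrix.inv_eq_right_inv ?_
    rw [fromBlocks_multiply]
    simp [Matrix.mul_nonsing_inv _ hN, smul_smul, hs]
  rw [h1, det_add_mul _ _ (by rw [hdet]; exact hN.mul (IsUnit.pow _ (isUnit_iff_ne_zero.mpr hs))),
    hdet, hinv]
  have h2 : fromCols Xᴴ Yᴴ * fromBlocks N⁻¹ 0 0 (s⁻¹ • (1 : Matrix n n ℂ)) * fromRows X Y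
      = Xᴴ * N⁻¹ * X + s⁻¹ • (Yᴴ * Y) := by
    rw [fromCols_mul_fromBlocks, fromCols_mul_fromRows]
    simp
  rw [h2]
  have h3 : s • (1 : Matrix n n ℂ) + s • (Xᴴ * N⁻¹ * X) + Yᴴ * Y
      = s • (1 + (Xᴴ * N⁻¹ * X + s⁻¹ • (Yᴴ * Y))) := by
    rw [smul_add, smul_add, smul_smul, mul_inv_cancel₀ hs, one_smul, add_assoc]
  rw [h3, det_smul]
  ring

/-- unitary conjugation does not change determinants -/
theorem det_conj_unitary {n : Type} [Fintype n] [DecidableEq n] (V M : Matrix n n ℂ)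
    (hV : V * Vᴴ = 1) : (Vᴴ * M * V).det = M.det := by
  rw [det_mul, det_mul, mul_comm, ← mul_assoc, ← det_mul, hV, det_one, one_mul]

theorem trPhi_smul_conj {n : Type} [Fintype n] [DecidableEq n] {M U : Matrix n n ℂ}
    (hM : M.PosSemidef) (hU : U * Uᴴ = 1) {t : ℝ} (ht : 0 ≤ t) :
    trPhi ((t : ℂ) • (Uᴴ * M * U)) = t * trPhi M + Real.negMulLog t * M.trace.re := by
  have hH := hM.isHermitian
  have hpsd : ((t : ℂ) • (Uᴴ * M * U)).PosSemidef :=
    (hM.conjTranspose_mul_mul_same U).smul (by exact_mod_cast ht)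
  have h1 := logRep_det hpsd
  have h2 : LogRep (fun s => ∑ i, Real.log (s + t * hH.eigenvalues i)) (∑ _i : n, 1)
      (∑ i, t * hH.eigenvalues i) (∑ i, Real.negMulLog (t * hH.eigenvalues i)) :=
    LogRep.sum Finset.univ fun i _ => LogRep.log (mul_nonneg ht (hM.eigenvalues_nonneg i))
  have htr : M.trace.re = ∑ i, hH.eigenvalues i := by
    rw [hH.trace_eq_sum_eigenvalues]; simp
  have htr2 : ((t : ℂ) • (Uᴴ * M * U)).trace.re = ∑ i, t * hH.eigenvalues i := by
    rw [trace_smul, trace_mul_comm, ← mul_assoc, hU, one_mul, smul_eq_mul,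
      Complex.re_ofReal_mul, htr, Finset.mul_sum]
  have hc : (Fintype.card n : ℝ) = ∑ _i : n, (1 : ℝ) := by simp
  rw [htr2, hc] at h1
  have h3 := (h1.congr (g' := fun s => ∑ i, Real.log (s + t * hH.eigenvalues i)) ?_).eq h2
  · rw [h3, htr, trPhi, dif_pos hH, Finset.mul_sum, Finset.mul_sum, ← Finset.sum_add_distrib]
    refine Finset.sum_congr rfl fun i _ => ?_
    rw [Real.negMulLog_mul]
    ring
  · intro s hs
    have hd : ((s : ℂ) • (1 : Matrix n n ℂ) + (t : ℂ) • (Uᴴ * M * U)).det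
        = ((∏ i, (s + t * hH.eigenvalues i) : ℝ) : ℂ) := by
      have e1 : (s : ℂ) • (1 : Matrix n n ℂ) + (t : ℂ) • (Uᴴ * M * U)
          = Uᴴ * ((s : ℂ) • (1 : Matrix n n ℂ) + (t : ℂ) • M) * U := by
        have hU' : Uᴴ * U = 1 := mul_eq_one_comm.mp hU
        rw [mul_add, add_mul, Matrix.mul_smul, mul_one, Matrix.smul_mul, hU', Matrix.mul_smul,
          Matrix.smul_mul]
      rw [e1, det_conj_unitary U _ hU]
      rcases ht.eq_or_lt with h0 | h0
      · subst h0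
        simp
      · have e2 : (s : ℂ) • (1 : Matrix n n ℂ) + (t : ℂ) • M
            = (t : ℂ) • (((s / t : ℝ) : ℂ) • (1 : Matrix n n ℂ) + M) := by
          rw [smul_add, smul_smul]
          congr 2
          push_cast
          field_simp
        rw [e2, det_smul, det_smul_one_add hH]
        have h4 : ((t : ℂ)) ^ Fintype.card n = ∏ _i : n, (t : ℂ) := by simp
        rw [h4]
        push_cast
        rw [← Finset.prod_mul_distrib]
        refine Finset.prod_congr rfl fun i _ => ?_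
        have : (t : ℂ) ≠ 0 := by exact_mod_cast h0.ne'
        field_simp
    rw [hd, Complex.ofReal_re, Real.log_prod]
    intro i _
    have := hM.eigenvalues_nonneg i
    positivity

theorem trPhi_gram_comm {n : Type} [Fintype n] [DecidableEq n] (Y : Matrix n n ℂ) :
    trPhi (Yᴴ * Y) = trPhi (Y * Yᴴ) := by
  refine trPhi_congr (posSemidef_conjTranspose_mul_self Y) (posSemidef_self_mul_conjTranspose Y)
    rfl (trace_mul_comm _ _) fun s hs => ?_
  have hs' : (s : ℂ) ≠ 0 := by exact_mod_cast hs.ne'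
  have e : ∀ A B : Matrix n n ℂ, (s : ℂ) • (1 : Matrix n n ℂ) + A * B
      = (s : ℂ) • (1 + ((s : ℂ)⁻¹ • A) * B) := by
    intro A B
    rw [smul_add, Matrix.smul_mul, smul_smul, mul_inv_cancel₀ hs', one_smul]
  rw [e, e, det_smul, det_smul, det_one_add_mul_comm]
  rw [Matrix.mul_smul, Matrix.smul_mul]

theorem trPhi_diag_conj {n : Type} [Fintype n] [DecidableEq n] (U : Matrix n n ℂ)
    (hU : U * Uᴴ = 1) (d : n → ℝ) (hd : ∀ k, 0 ≤ d k) :
    trPhi (U * diagonal (fun k => (d k : ℂ)) * Uᴴ) = ∑ k, Real.negMulLog (d k) := by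
  have hD : (diagonal (fun k => (d k : ℂ))).PosSemidef :=
    posSemidef_diagonal_iff.mpr fun k => by exact_mod_cast hd k
  have hU' : Uᴴ * U = 1 := mul_eq_one_comm.mp hU
  have hpsd := hD.mul_mul_conjTranspose_same U
  have h1 := logRep_det hpsd
  have h2 : LogRep (fun s => ∑ i, Real.log (s + d i)) (∑ _i : n, 1)
      (∑ i, d i) (∑ i, Real.negMulLog (d i)) :=
    LogRep.sum Finset.univ fun i _ => LogRep.log (hd i)
  have htr : (U * diagonal (fun k => (d k : ℂ)) * Uᴴ).trace.re = ∑ i, d i := by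
    rw [trace_mul_comm, ← mul_assoc, hU', one_mul, trace_diagonal]
    simp
  have hc : (Fintype.card n : ℝ) = ∑ _i : n, (1 : ℝ) := by simp
  rw [htr, hc] at h1
  refine (h1.congr fun s hs => ?_).eq h2
  have e1 : (s : ℂ) • (1 : Matrix n n ℂ) + U * diagonal (fun k => (d k : ℂ)) * Uᴴ
      = (Uᴴ)ᴴ * ((s : ℂ) • (1 : Matrix n n ℂ) + diagonal (fun k => (d k : ℂ))) * Uᴴ := by
    rw [conjTranspose_conjTranspose, mul_add, add_mul, Matrix.mul_smul, mul_one,
      Matrix.smul_mul, hU]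
  have e2 : (s : ℂ) • (1 : Matrix n n ℂ) + diagonal (fun k => (d k : ℂ))
      = diagonal (fun k => ((s + d k : ℝ) : ℂ)) := by
    rw [smul_one_eq_diagonal, diagonal_add]
    congr 1
    ext k
    push_cast
    rfl
  rw [e1, det_conj_unitary (Uᴴ) _ (by rw [conjTranspose_conjTranspose, hU']), e2, det_diagonal,
    ← Complex.ofReal_prod, Complex.ofReal_re, Real.log_prod]
  intro i _
  have := hd i
  positivity

theorem rootP_nonneg {a b c : ℝ} (ha : 0 ≤ a) (hb : 0 ≤ b) (hc : 0 ≤ c) : 0 ≤ rootP a b c := by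
  unfold rootP
  positivity

theorem rootM_nonneg {a b c : ℝ} (ha : 0 ≤ a) (hb : 0 ≤ b) (hc : 0 ≤ c) : 0 ≤ rootM a b c := by
  unfold rootM
  have : √((a + b + c) ^ 2 - 4 * b * c) ≤ a + b + c := by
    rw [Real.sqrt_le_left (by positivity)]
    nlinarith [mul_nonneg hb hc]
  linarith

theorem root_add (a b c : ℝ) : rootP a b c + rootM a b c = a + b + c := by
  unfold rootP rootM; ring

theorem root_mul {a b c : ℝ} (ha : 0 ≤ a) (hb : 0 ≤ b) (hc : 0 ≤ c) :
    rootP a b c * rootM a b c = b * c := by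
  have h : 0 ≤ (a + b + c) ^ 2 - 4 * b * c := by
    nlinarith [sq_nonneg (b - c), mul_nonneg ha hb, mul_nonneg ha hc, sq_nonneg a]
  have := Real.sq_sqrt h
  unfold rootP rootM
  nlinarith

theorem root_prod {a b c : ℝ} (ha : 0 ≤ a) (hb : 0 ≤ b) (hc : 0 ≤ c) (s : ℝ) :
    (s + rootP a b c) * (s + rootM a b c) = (s + b) * (s + c) + s * a := by
  have h1 := root_add a b c
  have h2 := root_mul ha hb hc
  have : (s + rootP a b c) * (s + rootM a b c)
      = s ^ 2 + s * (rootP a b c + rootM a b c) + rootP a b c * rootM a b c := by ring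
  rw [this, h1, h2]
  ring

end Vale.Agent.P358
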