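import Vale.Agent.P358.Core

namespace Vale.Agent.P358

open Matrix MeasureTheory Filter Topology
open scoped ComplexOrder

theorem LogRep.log {x : ℝ} (hx : 0 ≤ x) :
    LogRep (fun s => Real.log (s + x)) 1 x (Real.negMulLog x) := by
  refine ⟨fun S _ => ?_, ?_⟩
  · have h := (intervalIntegral.intervalIntegrable_log' (a := 0 + x) (b := S + x)).comp_add_right x
    simpa using h
  · have hint : ∀ S : ℝ, ∫ s in (0 : ℝ)..S, Real.log (s + x)
        = (S + x) * Real.log (S + x) - x * Real.log x - S := by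
      intro S
      rw [intervalIntegral.integral_comp_add_right (fun s => Real.log s), integral_log]
      simp only [zero_add]
      ring
    have hlim : Tendsto (fun S : ℝ => S * Real.log (1 + x / S) + x * Real.log (1 + x / S)
        - x + Real.negMulLog x) atTop (𝓝 (x + x * Real.log (1 + 0) - x + Real.negMulLog x)) := by
      refine Tendsto.add_const _ (Tendsto.sub_const (Tendsto.add
        (Real.tendsto_mul_log_one_add_div_atTop x) ?_) _)
      refine Tendsto.const_mul _ ?_
      refine (Real.continuousAt_log (by norm_num)).tendsto.comp ?_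
      exact tendsto_const_nhds.add (tendsto_const_nhds.div_atTop tendsto_id)
    have hval : x + x * Real.log (1 + 0) - x + Real.negMulLog x = Real.negMulLog x := by
      simp
    rw [hval] at hlim
    refine hlim.congr' ?_
    filter_upwards [eventually_gt_atTop (0 : ℝ)] with S hS
    rw [hint S]
    have h1 : (1 + x / S) = (S + x) / S := by field_simp
    rw [h1, Real.log_div (by positivity) hS.ne', Real.negMulLog]
    ring

theorem LogRep.add {g g' : ℝ → ℝ} {N T P N' T' P' : ℝ} (h : LogRep g N T P)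
    (h' : LogRep g' N' T' P') : LogRep (fun s => g s + g' s) (N + N') (T + T') (P + P') := by
  refine ⟨fun S hS => (h.1 S hS).add (h'.1 S hS), ?_⟩
  refine (h.2.add h'.2).congr' ?_
  filter_upwards [eventually_gt_atTop (0 : ℝ)] with S hS
  rw [intervalIntegral.integral_add (h.1 S hS) (h'.1 S hS)]
  ring

theorem LogRep.const_mul {g : ℝ → ℝ} {N T P : ℝ} (h : LogRep g N T P) (w : ℝ) :
    LogRep (fun s => w * g s) (w * N) (w * T) (w * P) := by
  refine ⟨fun S hS => (h.1 S hS).const_mul w, ?_⟩
  refine (h.2.const_mul w).congr' ?_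
  filter_upwards [eventually_gt_atTop (0 : ℝ)] with S hS
  rw [intervalIntegral.integral_const_mul]
  ring

theorem LogRep.sub {g g' : ℝ → ℝ} {N T P N' T' P' : ℝ} (h : LogRep g N T P)
    (h' : LogRep g' N' T' P') : LogRep (fun s => g s - g' s) (N - N') (T - T') (P - P') := by
  refine ⟨fun S hS => (h.1 S hS).sub (h'.1 S hS), ?_⟩
  refine (h.2.sub h'.2).congr' ?_
  filter_upwards [eventually_gt_atTop (0 : ℝ)] with S hS
  rw [intervalIntegral.integral_sub (h.1 S hS) (h'.1 S hS)]
  ring

theorem LogRep.zero : LogRep (fun _ => 0) 0 0 0 := by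
  refine ⟨fun S _ => intervalIntegrable_const, ?_⟩
  simp

theorem LogRep.sum {ι : Type*} (s : Finset ι) {g : ι → ℝ → ℝ} {N T P : ι → ℝ}
    (h : ∀ i ∈ s, LogRep (g i) (N i) (T i) (P i)) :
    LogRep (fun x => ∑ i ∈ s, g i x) (∑ i ∈ s, N i) (∑ i ∈ s, T i) (∑ i ∈ s, P i) := by
  classical
  induction s using Finset.induction_on with
  | empty => simpa using LogRep.zero
  | insert a s ha ih =>
    have h1 := (h a (Finset.mem_insert_self a s)).add
      (ih fun i hi => h i (Finset.mem_insert_of_mem hi))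
    simpa [Finset.sum_insert ha] using h1

theorem LogRep.congr {g g' : ℝ → ℝ} {N T P : ℝ} (h : LogRep g N T P)
    (hg : ∀ s > 0, g s = g' s) : LogRep g' N T P := by
  have hae : ∀ S > 0, ∀ᵐ x ∂(volume.restrict (Set.uIoc (0 : ℝ) S)), g x = g' x := by
    intro S hS
    rw [Set.uIoc_of_le hS.le]
    filter_upwards [ae_restrict_mem measurableSet_Ioc] with x hx
    exact hg x hx.1
  refine ⟨fun S hS => (h.1 S hS).congr_ae (hae S hS), ?_⟩
  refine h.2.congr' ?_
  filter_upwards [eventually_gt_atTop (0 : ℝ)] with S hS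
  have : ∫ s in (0 : ℝ)..S, g s = ∫ s in (0 : ℝ)..S, g' s := by
    rw [intervalIntegral.integral_of_le hS.le, intervalIntegral.integral_of_le hS.le]
    refine setIntegral_congr_fun measurableSet_Ioc fun x hx => hg x hx.1
  rw [this]

/-- comparison principle -/
theorem LogRep.le {g g' : ℝ → ℝ} {N T P P' : ℝ} (h : LogRep g N T P)
    (h' : LogRep g' N T P') (hg : ∀ s > 0, g s ≤ g' s) : P ≤ P' := by
  refine le_of_tendsto_of_tendsto h.2 h'.2 ?_
  filter_upwards [eventually_gt_atTop (0 : ℝ)] with S hS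
  have : ∫ s in (0 : ℝ)..S, g s ≤ ∫ s in (0 : ℝ)..S, g' s :=
    intervalIntegral.integral_mono_on_of_le_Ioo hS.le (h.1 S hS) (h'.1 S hS)
      fun x hx => hg x hx.1
  linarith

theorem LogRep.eq {g : ℝ → ℝ} {N T P P' : ℝ} (h : LogRep g N T P)
    (h' : LogRep g N T P') : P = P' :=
  le_antisymm (h.le h' fun _ _ => le_rfl) (h'.le h fun _ _ => le_rfl)

theorem det_smul_one_add {I : Type} [Fintype I] [DecidableEq I] {M : Matrix I I ℂ}
    (hM : M.IsHermitian) (s : ℝ) :
    ((s : ℂ) • (1 : Matrix I I ℂ) + M).det = ((∏ i, (s + hM.eigenvalues i) : ℝ) : ℂ) := by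
  have h1 : ((s : ℂ) • (1 : Matrix I I ℂ) + M).det
      = (-1) ^ Fintype.card I * (M.charpoly.eval (-(s : ℂ))) := by
    rw [Matrix.eval_charpoly, ← Matrix.det_neg]
    congr 1
    simp [sub_eq_add_neg, ← smul_one_eq_diagonal]
    exact add_comm _ _
  rw [h1, hM.charpoly_eq, Polynomial.eval_prod]
  simp only [Polynomial.eval_sub, Polynomial.eval_X, Polynomial.eval_C]
  have h2 : ((-1 : ℂ)) ^ Fintype.card I = ∏ _i : I, (-1 : ℂ) := by simp
  rw [h2, ← Finset.prod_mul_distrib]
  push_cast
  refine Finset.prod_congr rfl fun i _ => ?_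
  simp
  ring

theorem logRep_det {I : Type} [Fintype I] [DecidableEq I] {M : Matrix I I ℂ}
    (hM : M.PosSemidef) :
    LogRep (fun s => Real.log ((s : ℂ) • (1 : Matrix I I ℂ) + M).det.re)
      (Fintype.card I) M.trace.re (trPhi M) := by
  have hH := hM.isHermitian
  have h1 : LogRep (fun s => ∑ i, Real.log (s + hH.eigenvalues i)) (∑ _i : I, 1)
      (∑ i, hH.eigenvalues i) (∑ i, Real.negMulLog (hH.eigenvalues i)) :=
    LogRep.sum Finset.univ fun i _ => LogRep.log (hM.eigenvalues_nonneg i)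
  have htr : M.trace.re = ∑ i, hH.eigenvalues i := by
    rw [hH.trace_eq_sum_eigenvalues]
    simp
  have hphi : trPhi M = ∑ i, Real.negMulLog (hH.eigenvalues i) := by
    rw [trPhi, dif_pos hH]
  rw [htr, hphi]
  have hc : (Fintype.card I : ℝ) = ∑ _i : I, (1 : ℝ) := by simp
  rw [hc]
  refine h1.congr fun s hs => ?_
  rw [det_smul_one_add hH, Complex.ofReal_re, Real.log_prod]
  intro i _
  have := hM.eigenvalues_nonneg i
  positivity

/-- equal characteristic polynomials give equal entropies -/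
theorem trPhi_congr {I J : Type} [Fintype I] [DecidableEq I] [Fintype J] [DecidableEq J]
    {M : Matrix I I ℂ} {M' : Matrix J J ℂ} (hM : M.PosSemidef) (hM' : M'.PosSemidef)
    (hcard : Fintype.card I = Fintype.card J) (htr : M.trace = M'.trace)
    (h : ∀ s : ℝ, 0 < s → ((s : ℂ) • (1 : Matrix I I ℂ) + M).det
      = ((s : ℂ) • (1 : Matrix J J ℂ) + M').det) : trPhi M = trPhi M' := by
  have h1 := logRep_det hM
  have h2 := logRep_det hM'
  rw [hcard, htr] at h1
  refine (h1.congr (g' := fun s => Real.log ((s : ℂ) • (1 : Matrix J J ℂ) + M').det.re)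
    fun s hs => ?_).eq h2
  rw [h s hs]

theorem trPhi_reindex {I J : Type} [Fintype I] [DecidableEq I] [Fintype J] [DecidableEq J]
    {M : Matrix I I ℂ} (hM : M.PosSemidef) (e : J ≃ I) : trPhi (M.submatrix e e) = trPhi M := by
  refine trPhi_congr (hM.submatrix e) hM (Fintype.card_congr e) ?_ fun s _ => ?_
  · simp only [Matrix.trace, Matrix.diag, Matrix.submatrix_apply]
    exact e.sum_comp (fun i => M i i)
  · rw [← Matrix.det_submatrix_equiv_self e]
    congr 1
    ext i j
    simp [Matrix.one_apply]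

/-- zero padding does not change the entropy -/
theorem trPhi_fromBlocks_zero {I J : Type} [Fintype I] [DecidableEq I] [Fintype J]
    [DecidableEq J] {M : Matrix I I ℂ} (hM : M.PosSemidef) :
    trPhi (fromBlocks M 0 0 (0 : Matrix J J ℂ)) = trPhi M := by
  have hpsd : (fromBlocks M 0 0 (0 : Matrix J J ℂ)).PosSemidef := by
    have h1 : (fromBlocks M 0 0 (0 : Matrix J J ℂ))
        = (fromCols (1 : Matrix I I ℂ) (0 : Matrix I J ℂ))ᴴ * M
          * (fromCols (1 : Matrix I I ℂ) (0 : Matrix I J ℂ)) := by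
      ext (i | i) (j | j) <;> simp [Matrix.mul_apply, Matrix.one_apply]
    rw [h1]
    exact hM.conjTranspose_mul_mul_same _
  have h1 := logRep_det hpsd
  have h2 := logRep_det hM
  have h3 : LogRep (fun s => ∑ _j : J, Real.log (s + 0)) (∑ _j : J, 1) (∑ _j : J, 0)
      (∑ _j : J, Real.negMulLog 0) :=
    LogRep.sum Finset.univ fun i _ => LogRep.log le_rfl
  have h4 := h2.add h3
  have htr : (fromBlocks M 0 0 (0 : Matrix J J ℂ)).trace.re = M.trace.re := by
    simp [Matrix.trace]
  rw [htr, Fintype.card_sum] at h1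
  simp only [Finset.sum_const, Finset.card_univ, nsmul_eq_mul, mul_zero,
    Real.negMulLog_zero, add_zero, mul_one] at h4
  push_cast at h1
  refine h1.eq (h4.congr fun s hs => ?_)
  have hdet : ((s : ℂ) • (1 : Matrix (I ⊕ J) (I ⊕ J) ℂ) + fromBlocks M 0 0 0).det
      = ((s : ℂ) • (1 : Matrix I I ℂ) + M).det * (s : ℂ) ^ Fintype.card J := by
    have : ((s : ℂ) • (1 : Matrix (I ⊕ J) (I ⊕ J) ℂ) + fromBlocks M 0 0 0)
        = fromBlocks ((s : ℂ) • (1 : Matrix I I ℂ) + M) 0 0 ((s : ℂ) • (1 : Matrix J J ℂ)) := by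
      rw [← Matrix.fromBlocks_one, Matrix.fromBlocks_smul, Matrix.fromBlocks_add]
      simp
    rw [this, Matrix.det_fromBlocks_zero₂₁]
    simp
  have hpos : 0 < ((s : ℂ) • (1 : Matrix I I ℂ) + M).det.re := by
    rw [det_smul_one_add hM.isHermitian, Complex.ofReal_re]
    refine Finset.prod_pos fun i _ => ?_
    have := hM.eigenvalues_nonneg i
    positivity
  rw [hdet, ← Complex.ofReal_pow, Complex.re_mul_ofReal,
    Real.log_mul hpos.ne' (pow_pos hs _).ne', Real.log_pow]

theorem vonNeumann_eq {I : Type} [Fintype I] [DecidableEq I] (M : Matrix I I ℂ) :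
    vonNeumann M = trPhi M / Real.log 2 := by
  unfold vonNeumann trPhi
  split_ifs with h
  · rw [Finset.sum_div]
  · simp

end Vale.Agent.P358
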