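import Vale.Agent.P358.KeyZeroAux

namespace Vale.Agent.P358

open Matrix
open scoped ComplexOrder

variable {m : Type} [Fintype m] [DecidableEq m]

theorem norm_det_of_posSemidef {M : Matrix m m ℂ} (hM : M.PosSemidef) : ‖M.det‖ = M.det.re := by
  have h := Complex.nonneg_iff.mp hM.det_nonneg
  have : M.det = ((M.det.re : ℝ) : ℂ) := Complex.ext rfl (by simpa using h.2.symm)
  rw [this, Complex.norm_real, Complex.ofReal_re, Real.norm_of_nonneg h.1]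

theorem one_le_norm_det_one_add {Q : Matrix m m ℂ} (hQ : Q.PosSemidef) :
    1 ≤ ‖(1 + Q).det‖ := by
  have h := det_smul_one_add hQ.isHermitian 1
  simp only [Complex.ofReal_one, one_smul] at h
  rw [h, Complex.norm_real, Real.norm_of_nonneg
    (Finset.prod_nonneg fun i _ => by have := hQ.eigenvalues_nonneg i; positivity)]
  calc (1 : ℝ) = ∏ _i : m, (1 : ℝ) := by simp
    _ ≤ ∏ i, (1 + hQ.isHermitian.eigenvalues i) := by
        refine Finset.prod_le_prod (fun _ _ => zero_le_one) fun i _ => ?_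
        have := hQ.eigenvalues_nonneg i
        linarith

/-- monotonicity of the determinant -/
theorem norm_det_le_add {P Q : Matrix m m ℂ} (hP : P.PosDef) (hQ : Q.PosSemidef) :
    ‖P.det‖ ≤ ‖(P + Q).det‖ := by
  obtain ⟨Z, hZ⟩ := exists_gram hP.posSemidef
  have hZu : IsUnit Z.det := by
    have h1 : P.det ≠ 0 := hP.det_pos.ne'
    rw [hZ, det_mul] at h1
    exact isUnit_iff_ne_zero.mpr (left_ne_zero_of_mul h1)
  have hZh : IsUnit (Zᴴ).det := by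
    rw [det_conjTranspose]
    exact isUnit_iff_ne_zero.mpr (by simpa using hZu.ne_zero)
  have h2 : P + Q = Z * (1 + Z⁻¹ * Q * (Z⁻¹)ᴴ) * Zᴴ := by
    rw [mul_add, add_mul, mul_one, ← hZ]
    congr 1
    rw [conjTranspose_nonsing_inv]
    calc Q = (Z * Z⁻¹) * Q * ((Zᴴ)⁻¹ * Zᴴ) := by
          rw [Matrix.mul_nonsing_inv _ hZu, Matrix.nonsing_inv_mul _ hZh, one_mul, mul_one]
      _ = Z * (Z⁻¹ * Q * (Zᴴ)⁻¹) * Zᴴ := by simp only [mul_assoc]
  have h3 : (Z⁻¹ * Q * (Z⁻¹)ᴴ).PosSemidef := hQ.mul_mul_conjTranspose_same _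
  rw [h2, det_mul, det_mul, hZ, det_mul, norm_mul, norm_mul, norm_mul]
  have h4 := one_le_norm_det_one_add h3
  have h5 : 0 ≤ ‖Z.det‖ := norm_nonneg _
  have h6 : 0 ≤ ‖(Zᴴ).det‖ := norm_nonneg _
  calc ‖Z.det‖ * ‖(Zᴴ).det‖ = ‖Z.det‖ * 1 * ‖(Zᴴ).det‖ := by ring
    _ ≤ ‖Z.det‖ * ‖(1 + Z⁻¹ * Q * (Z⁻¹)ᴴ).det‖ * ‖(Zᴴ).det‖ := by gcongr

/-- Hua's determinant inequality -/
theorem hua {A B : Matrix m m ℂ} (hA : (1 - Aᴴ * A).PosDef) (hB : (1 - Bᴴ * B).PosDef) :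
    ‖(1 - Aᴴ * A).det‖ * ‖(1 - Bᴴ * B).det‖ ≤ ‖(1 - Aᴴ * B).det‖ ^ 2 := by
  obtain ⟨N, hN⟩ : ∃ N : Matrix m m ℂ, N = (1 - Aᴴ * A)⁻¹ := ⟨_, rfl⟩
  have hu : IsUnit (1 - Aᴴ * A).det := isUnit_iff_ne_zero.mpr hA.det_pos.ne'
  have h1 : N * (Aᴴ * A) = N - 1 := by
    have := Matrix.nonsing_inv_mul _ hu
    rw [← hN, mul_sub, mul_one] at this
    rw [← this]; abel
  have h2 : (Aᴴ * A) * N = N - 1 := by
    have := Matrix.mul_nonsing_inv _ hu
    rw [← hN, sub_mul, one_mul] at this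
    rw [← this]; abel
  have hNpd : N.PosDef := by rw [hN]; exact hA.inv
  have key : ∀ P Q R S : Matrix m m ℂ, N * P = N - 1 → P * N = N - 1 →
      (1 - R) * N * (1 - Q) = (1 - S) + ((P - Q - R + S) + (P - R) * N * (P - Q)) := by
    intro P Q R S hNP hPN
    have e1 : P * N * P = N - 1 - P := by rw [hPN, sub_mul, one_mul, hNP]
    have e2 : P * N * Q = N * Q - Q := by rw [hPN, sub_mul, one_mul]
    have e3 : R * N * P = R * N - R := by rw [mul_assoc, hNP, mul_sub, mul_one]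
    have e4 : (P - R) * N * (P - Q) = P * N * P - P * N * Q - R * N * P + R * N * Q := by
      noncomm_ring
    rw [e4, e1, e2, e3]
    noncomm_ring
  have hk := key (Aᴴ * A) (Aᴴ * B) (Bᴴ * A) (Bᴴ * B) h1 h2
  have hp1 : (Aᴴ * A - Aᴴ * B - Bᴴ * A + Bᴴ * B).PosSemidef := by
    have : Aᴴ * A - Aᴴ * B - Bᴴ * A + Bᴴ * B = (A - B)ᴴ * (A - B) := by
      rw [conjTranspose_sub]; noncomm_ring
    rw [this]
    exact posSemidef_conjTranspose_mul_self _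
  have hp2 : ((Aᴴ * A - Bᴴ * A) * N * (Aᴴ * A - Aᴴ * B)).PosSemidef := by
    have : (Aᴴ * A - Bᴴ * A) * N * (Aᴴ * A - Aᴴ * B)
        = (Aᴴ * A - Aᴴ * B)ᴴ * N * (Aᴴ * A - Aᴴ * B) := by
      rw [conjTranspose_sub, conjTranspose_mul, conjTranspose_mul, conjTranspose_conjTranspose]
    rw [this]
    exact hNpd.posSemidef.conjTranspose_mul_mul_same _
  have hdet : ‖(1 - Bᴴ * B).det‖ ≤ ‖((1 - Bᴴ * A) * N * (1 - Aᴴ * B)).det‖ := by
    rw [hk]
    exact norm_det_le_add hB (hp1.add hp2)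
  have hconj : ‖(1 - Bᴴ * A).det‖ = ‖(1 - Aᴴ * B).det‖ := by
    have : (1 - Bᴴ * A) = (1 - Aᴴ * B)ᴴ := by
      rw [conjTranspose_sub, conjTranspose_one, conjTranspose_mul, conjTranspose_conjTranspose]
    rw [this, det_conjTranspose, norm_star]
  have hNdet : ‖(1 - Aᴴ * A).det‖ * ‖N.det‖ = 1 := by
    rw [← norm_mul, ← det_mul, hN, Matrix.mul_nonsing_inv _ hu, det_one, norm_one]
  rw [det_mul, det_mul, norm_mul, norm_mul, hconj] at hdet
  calc ‖(1 - Aᴴ * A).det‖ * ‖(1 - Bᴴ * B).det‖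
      ≤ ‖(1 - Aᴴ * A).det‖ * (‖(1 - Aᴴ * B).det‖ * ‖N.det‖ * ‖(1 - Aᴴ * B).det‖) := by gcongr
    _ = (‖(1 - Aᴴ * A).det‖ * ‖N.det‖) * ‖(1 - Aᴴ * B).det‖ ^ 2 := by ring
    _ = ‖(1 - Aᴴ * B).det‖ ^ 2 := by rw [hNdet, one_mul]

theorem det_one_sub_mul_comm' (A B : Matrix m m ℂ) : (1 - A * B).det = (1 - B * A).det := by
  have h := det_one_add_mul_comm (-A) B
  simpa [sub_eq_add_neg] using h

/-- normalised form -/
theorem skew_normalised {E J : Matrix m m ℂ} (hE : E.IsHermitian) (h1 : (1 - E).PosDef)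
    (h2 : (1 + E).PosDef) (hJ : Jᴴ = -J) :
    ‖(1 + J).det‖ ^ 2 * (‖(1 - E).det‖ * ‖(1 + E).det‖)
      ≤ ‖(1 - E + J).det‖ * ‖(1 + E + J).det‖ := by
  have hEh : Eᴴ = E := hE
  -- invertibility of 1 + J
  have hJJ : (1 + J)ᴴ * (1 + J) = 1 + Jᴴ * J := by
    rw [conjTranspose_add, conjTranspose_one, hJ]; noncomm_ring
  have hJJ' : (1 + J) * (1 + J)ᴴ = 1 + J * Jᴴ := by
    rw [conjTranspose_add, conjTranspose_one, hJ]; noncomm_ring
  have hpd : (1 + Jᴴ * J).PosDef :=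
    PosDef.one.add_posSemidef (posSemidef_conjTranspose_mul_self J)
  have hu : IsUnit (1 + J).det := by
    have h := hpd.det_pos.ne'
    rw [← hJJ, det_mul] at h
    exact isUnit_iff_ne_zero.mpr (right_ne_zero_of_mul h)
  have huh : IsUnit ((1 + J)ᴴ).det := by
    rw [det_conjTranspose]
    exact isUnit_iff_ne_zero.mpr (by simpa using hu.ne_zero)
  obtain ⟨V, hV⟩ : ∃ V : Matrix m m ℂ, V = (1 + J)⁻¹ := ⟨_, rfl⟩
  have hVl : V * (1 + J) = 1 := by rw [hV, Matrix.nonsing_inv_mul _ hu]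
  have hVr : (1 + J) * V = 1 := by rw [hV, Matrix.mul_nonsing_inv _ hu]
  have hVu : IsUnit V := IsUnit.of_mul_eq_one _ hVl
  have hc1 : Vᴴ * (1 + J)ᴴ = 1 := by
    rw [← conjTranspose_mul, hVr, conjTranspose_one]
  have hc2 : (1 + J)ᴴ * Vᴴ = 1 := by
    rw [← conjTranspose_mul, hVl, conjTranspose_one]
  -- contraction properties
  have hcon1 : (1 - Vᴴ * V).PosSemidef := by
    have : 1 - Vᴴ * V = Vᴴ * (Jᴴ * J) * V := by
      have e : Jᴴ * J = (1 + J)ᴴ * (1 + J) - 1 := by rw [hJJ]; abel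
      rw [e, mul_sub, sub_mul, mul_one]
      congr 1
      calc (1 : Matrix m m ℂ) = (Vᴴ * (1 + J)ᴴ) * ((1 + J) * V) := by rw [hc1, hVr, one_mul]
        _ = Vᴴ * ((1 + J)ᴴ * (1 + J)) * V := by simp only [mul_assoc]
    rw [this]
    exact (posSemidef_conjTranspose_mul_self J).conjTranspose_mul_mul_same V
  have hcon2 : (1 - V * Vᴴ).PosSemidef := by
    have : 1 - V * Vᴴ = V * (J * Jᴴ) * Vᴴ := by
      have e : J * Jᴴ = (1 + J) * (1 + J)ᴴ - 1 := by rw [hJJ']; abel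
      rw [e, mul_sub, sub_mul, mul_one]
      congr 1
      calc (1 : Matrix m m ℂ) = (V * (1 + J)) * ((1 + J)ᴴ * Vᴴ) := by rw [hc2, hVl, one_mul]
        _ = V * ((1 + J) * (1 + J)ᴴ) * Vᴴ := by simp only [mul_assoc]
    rw [this]
    exact (posSemidef_self_mul_conjTranspose J).mul_mul_conjTranspose_same V
  -- 1 - E^2 is positive definite
  have hE2 : (1 - E * E).PosDef := by
    have e : 1 - E * E = (1 / 2 : ℝ) • ((1 - E) * (1 + E) * (1 - E)ᴴ
        + (1 + E) * (1 - E) * (1 + E)ᴴ) := by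
      rw [conjTranspose_sub, conjTranspose_add, conjTranspose_one, hEh]
      have : (1 - E) * (1 + E) * (1 - E) + (1 + E) * (1 - E) * (1 + E)
          = (2 : ℝ) • (1 - E * E) := by
        rw [two_smul]; noncomm_ring
      rw [this, smul_smul]
      norm_num
    rw [e]
    refine PosDef.smul (PosDef.add_posSemidef ?_ ?_) (by norm_num)
    · refine h2.mul_mul_conjTranspose_same ?_
      exact Matrix.vecMul_injective_iff_isUnit.mpr h1.isUnit
    · exact h1.posSemidef.mul_mul_conjTranspose_same _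
  -- Hua with A = E Vᴴ, B = V E
  have hBpd : (1 - (V * E)ᴴ * (V * E)).PosDef := by
    have e : 1 - (V * E)ᴴ * (V * E) = (1 - E * E) + Eᴴ * (1 - Vᴴ * V) * E := by
      rw [conjTranspose_mul, hEh]; noncomm_ring
    rw [e]
    exact hE2.add_posSemidef (hcon1.conjTranspose_mul_mul_same E)
  have hApd : (1 - (E * Vᴴ)ᴴ * (E * Vᴴ)).PosDef := by
    have e : 1 - (E * Vᴴ)ᴴ * (E * Vᴴ) = V * (1 - E * E) * Vᴴ + (1 - V * Vᴴ) := by
      rw [conjTranspose_mul, conjTranspose_conjTranspose, hEh]; noncomm_ring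
    rw [e]
    refine PosDef.add_posSemidef (hE2.mul_mul_conjTranspose_same ?_) hcon2
    exact Matrix.vecMul_injective_iff_isUnit.mpr hVu
  have hH := hua hApd hBpd
  have hd1 : ‖(1 - E * E).det‖ ≤ ‖(1 - (V * E)ᴴ * (V * E)).det‖ := by
    have e : 1 - (V * E)ᴴ * (V * E) = (1 - E * E) + Eᴴ * (1 - Vᴴ * V) * E := by
      rw [conjTranspose_mul, hEh]; noncomm_ring
    rw [e]
    exact norm_det_le_add hE2 (hcon1.conjTranspose_mul_mul_same E)
  have hd2 : ‖(1 - (E * Vᴴ)ᴴ * (E * Vᴴ)).det‖ = ‖(1 - (V * E)ᴴ * (V * E)).det‖ := by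
    have e1 : (E * Vᴴ)ᴴ * (E * Vᴴ) = V * (E * E * Vᴴ) := by
      rw [conjTranspose_mul, conjTranspose_conjTranspose, hEh]; noncomm_ring
    have e2 : (V * E)ᴴ * (V * E) = E * (Vᴴ * V * E) := by
      rw [conjTranspose_mul, hEh]; noncomm_ring
    have e3 : (E * E * Vᴴ) * V = (E * E) * (Vᴴ * V) := by noncomm_ring
    have e4 : (Vᴴ * V * E) * E = (Vᴴ * V) * (E * E) := by noncomm_ring
    rw [e1, e2, det_one_sub_mul_comm' V, det_one_sub_mul_comm' E, e3, e4,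
      det_one_sub_mul_comm' (E * E)]
  have hAB : (E * Vᴴ)ᴴ * (V * E) = (V * E) * (V * E) := by
    rw [conjTranspose_mul, conjTranspose_conjTranspose, hEh]
  rw [hAB, hd2] at hH
  have hfin : ‖(1 - E * E).det‖ ≤ ‖(1 - V * E * (V * E)).det‖ := by
    have hnn : 0 ≤ ‖(1 - V * E * (V * E)).det‖ := norm_nonneg _
    have h3 : ‖(1 - E * E).det‖ ^ 2 ≤ ‖(1 - V * E * (V * E)).det‖ ^ 2 := by
      calc ‖(1 - E * E).det‖ ^ 2 ≤ ‖(1 - (V * E)ᴴ * (V * E)).det‖ ^ 2 := by gcongr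
        _ = ‖(1 - (V * E)ᴴ * (V * E)).det‖ * ‖(1 - (V * E)ᴴ * (V * E)).det‖ := by ring
        _ ≤ _ := hH
    exact (pow_le_pow_iff_left₀ (norm_nonneg _) hnn two_ne_zero).mp h3
  have f1 : 1 - E + J = (1 + J) * (1 - V * E) := by
    rw [mul_sub, mul_one, ← mul_assoc, hVr, one_mul]; abel
  have f2 : 1 + E + J = (1 + J) * (1 + V * E) := by
    rw [mul_add, mul_one, ← mul_assoc, hVr, one_mul]; abel
  have f3 : (1 - V * E) * (1 + V * E) = 1 - V * E * (V * E) := by noncomm_ring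
  have f4 : (1 - E) * (1 + E) = 1 - E * E := by noncomm_ring
  rw [f1, f2, det_mul, det_mul, norm_mul, norm_mul]
  calc ‖(1 + J).det‖ ^ 2 * (‖(1 - E).det‖ * ‖(1 + E).det‖)
      = ‖(1 + J).det‖ ^ 2 * ‖(1 - E * E).det‖ := by rw [← norm_mul, ← det_mul, f4]
    _ ≤ ‖(1 + J).det‖ ^ 2 * ‖(1 - V * E * (V * E)).det‖ := by gcongr
    _ = ‖(1 + J).det‖ ^ 2 * (‖(1 - V * E).det‖ * ‖(1 + V * E).det‖) := by
        rw [← norm_mul, ← det_mul, f3]
    _ = _ := by ring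

end Vale.Agent.P358
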