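import Vale.Agent.P358.LogRep
import Vale.Agent.P358.ScalarE

namespace Vale.Agent.P358

open Matrix
open scoped ComplexOrder

/-! ### Kraus form -/

/-- Kraus operators of the channel. -/
private noncomputable def krausOp (γ ν : ℝ) : Fin 4 → Matrix (Fin 2) (Fin 2) ℂ :=
  ![!![(√(1 - ν) : ℝ), 0; 0, (√(1 - ν) : ℝ) * (√(1 - γ) : ℝ)],
    !![0, (√(1 - ν) : ℝ) * (√γ : ℝ); 0, 0],
    !![(√ν : ℝ) * (√(1 - γ) : ℝ), 0; 0, (√ν : ℝ)],
    !![0, 0; (√ν : ℝ) * (√γ : ℝ), 0]]

private theorem gad_kraus {γ ν : ℝ} (hγ : γ ∈ Set.Icc (0 : ℝ) 1) (hν : ν ∈ Set.Icc (0 : ℝ) 1)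
    (M : Matrix (Fin 2) (Fin 2) ℂ) :
    gad γ ν M = ∑ k, krausOp γ ν k * M * (krausOp γ ν k)ᴴ := by
  have h1 : ((√(1 - ν) : ℝ) : ℂ) * ((√(1 - ν) : ℝ) : ℂ) = 1 - ν := by
    rw [← Complex.ofReal_mul, Real.mul_self_sqrt (by linarith [hν.2])]; simp
  have h2 : ((√ν : ℝ) : ℂ) * ((√ν : ℝ) : ℂ) = ν := by
    rw [← Complex.ofReal_mul, Real.mul_self_sqrt hν.1]
  have h3 : ((√(1 - γ) : ℝ) : ℂ) * ((√(1 - γ) : ℝ) : ℂ) = 1 - γ := by
    rw [← Complex.ofReal_mul, Real.mul_self_sqrt (by linarith [hγ.2])]; simp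
  have h4 : ((√γ : ℝ) : ℂ) * ((√γ : ℝ) : ℂ) = γ := by
    rw [← Complex.ofReal_mul, Real.mul_self_sqrt hγ.1]
  ext i j
  fin_cases i <;> fin_cases j <;>
    simp only [gad, krausOp, Fin.sum_univ_four, Matrix.mul_apply, Matrix.trace,
      Fin.sum_univ_two, Matrix.add_apply, Matrix.conjTranspose_apply, Matrix.of_apply,
      Matrix.cons_val', Matrix.cons_val_zero, Matrix.cons_val_one, Matrix.cons_val_fin_one,
      Matrix.diag_apply, Fin.zero_eta, Fin.mk_one, Matrix.cons_val, zero_mul,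
      add_zero, zero_add, Complex.star_def, map_mul, map_zero, Complex.conj_ofReal]
  · linear_combination (-(M 0 0) - M 1 1 * (√γ : ℝ) * (√γ : ℝ)) * h1
      - M 1 1 * (1 - ν) * h4 - M 0 0 * (√(1 - γ) : ℝ) * (√(1 - γ) : ℝ) * h2
      - M 0 0 * ν * h3
  · linear_combination (-(M 0 1) * (√(1 - γ) : ℝ)) * h1 - M 0 1 * (√(1 - γ) : ℝ) * h2
  · linear_combination (-(M 1 0) * (√(1 - γ) : ℝ)) * h1 - M 1 0 * (√(1 - γ) : ℝ) * h2
  · linear_combination (-(M 1 1) * (√(1 - γ) : ℝ) * (√(1 - γ) : ℝ)) * h1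
      - M 1 1 * (1 - ν) * h3 - M 0 0 * (√γ : ℝ) * (√γ : ℝ) * h2
      - M 0 0 * ν * h4 - M 1 1 * h2

/-- product Kraus operators -/
private noncomputable def krausProd (γ ν : ℝ) {n : ℕ} (k : Fin n → Fin 4) :
    Matrix (Fin n → Fin 2) (Fin n → Fin 2) ℂ :=
  fun x u => ∏ i, krausOp γ ν (k i) (x i) (u i)

private theorem gad_single {γ ν : ℝ} (hγ : γ ∈ Set.Icc (0 : ℝ) 1) (hν : ν ∈ Set.Icc (0 : ℝ) 1)
    (u v x y : Fin 2) : gad γ ν (Matrix.single u v 1) x y =
      ∑ k, krausOp γ ν k x u * star (krausOp γ ν k y v) := by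
  rw [gad_kraus hγ hν, Matrix.sum_apply]
  refine Finset.sum_congr rfl fun k _ => ?_
  simp [Matrix.mul_apply, Matrix.single_apply, ite_and]

private theorem tensorPow_kraus {γ ν : ℝ} (hγ : γ ∈ Set.Icc (0 : ℝ) 1)
    (hν : ν ∈ Set.Icc (0 : ℝ) 1) {n : ℕ} (σ : Matrix (Fin n → Fin 2) (Fin n → Fin 2) ℂ) :
    tensorPow (gad γ ν) n σ = ∑ k : Fin n → Fin 4, krausProd γ ν k * σ * (krausProd γ ν k)ᴴ := by
  ext x y
  simp only [tensorPow, Matrix.sum_apply, Matrix.mul_apply, Matrix.conjTranspose_apply, krausProd,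
    gad_single hγ hν]
  have h : ∀ u v : Fin n → Fin 2,
      (∏ i, ∑ k, krausOp γ ν k (x i) (u i) * star (krausOp γ ν k (y i) (v i))) * σ u v
      = ∑ k : Fin n → Fin 4, (∏ i, krausOp γ ν (k i) (x i) (u i)) * σ u v *
        star (∏ i, krausOp γ ν (k i) (y i) (v i)) := by
    intro u v
    rw [Finset.prod_univ_sum, Fintype.piFinset_univ, Finset.sum_mul]
    refine Finset.sum_congr rfl fun k _ => ?_
    rw [Finset.prod_mul_distrib, star_prod]
    ring
  simp only [h]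
  rw [Finset.sum_congr rfl fun u _ => Finset.sum_comm]
  rw [Finset.sum_comm]
  refine Finset.sum_congr rfl fun k _ => ?_
  rw [Finset.sum_comm]
  refine Finset.sum_congr rfl fun v _ => ?_
  rw [Finset.sum_mul]

theorem tensorPow_posSemidef {γ ν : ℝ} (hγ : γ ∈ Set.Icc (0 : ℝ) 1)
    (hν : ν ∈ Set.Icc (0 : ℝ) 1) {n : ℕ} {σ : Matrix (Fin n → Fin 2) (Fin n → Fin 2) ℂ}
    (hσ : σ.PosSemidef) : (tensorPow (gad γ ν) n σ).PosSemidef := by
  rw [tensorPow_kraus hγ hν]
  exact Matrix.posSemidef_sum _ fun k _ => hσ.mul_mul_conjTranspose_same _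

private theorem tensorPow_conjTranspose {γ ν : ℝ} (hγ : γ ∈ Set.Icc (0 : ℝ) 1)
    (hν : ν ∈ Set.Icc (0 : ℝ) 1) {n : ℕ} (σ : Matrix (Fin n → Fin 2) (Fin n → Fin 2) ℂ) :
    tensorPow (gad γ ν) n σᴴ = (tensorPow (gad γ ν) n σ)ᴴ := by
  rw [tensorPow_kraus hγ hν, tensorPow_kraus hγ hν, Matrix.conjTranspose_sum]
  refine Finset.sum_congr rfl fun k _ => ?_
  simp [Matrix.conjTranspose_mul, Matrix.mul_assoc]

private theorem tensorPow_blocks_posSemidef {γ ν : ℝ} (hγ : γ ∈ Set.Icc (0 : ℝ) 1)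
    (hν : ν ∈ Set.Icc (0 : ℝ) 1) {n : ℕ} {A B C : Matrix (Fin n → Fin 2) (Fin n → Fin 2) ℂ}
    (h : (fromBlocks A B Bᴴ C).PosSemidef) :
    (fromBlocks (tensorPow (gad γ ν) n A) (tensorPow (gad γ ν) n B)
      (tensorPow (gad γ ν) n B)ᴴ (tensorPow (gad γ ν) n C)).PosSemidef := by
  rw [← tensorPow_conjTranspose hγ hν]
  have e : fromBlocks (tensorPow (gad γ ν) n A) (tensorPow (gad γ ν) n B)
      (tensorPow (gad γ ν) n Bᴴ) (tensorPow (gad γ ν) n C) =
      ∑ k : Fin n → Fin 4, fromBlocks (krausProd γ ν k) 0 0 (krausProd γ ν k) *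
        fromBlocks A B Bᴴ C * (fromBlocks (krausProd γ ν k) 0 0 (krausProd γ ν k))ᴴ := by
    simp only [tensorPow_kraus hγ hν, Matrix.fromBlocks_conjTranspose, Matrix.fromBlocks_multiply,
      Matrix.conjTranspose_zero, Matrix.mul_zero, Matrix.zero_mul, add_zero, zero_add]
    ext (i | i) (j | j) <;> simp [Matrix.sum_apply]
  rw [e]
  exact Matrix.posSemidef_sum _ fun k _ => h.mul_mul_conjTranspose_same _

/-! ### Diagonal functionals -/

private theorem sum_diag_tensorPow (γ ν : ℝ) {n : ℕ} (g h : Fin n → Fin 2 → ℂ)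
    (hgh : ∀ j, ∀ u v : Fin 2, ∑ b, g j b * gad γ ν (Matrix.single u v 1) b b =
      if u = v then h j u else 0)
    (σ : Matrix (Fin n → Fin 2) (Fin n → Fin 2) ℂ) :
    ∑ x, (∏ j, g j (x j)) * tensorPow (gad γ ν) n σ x x = ∑ u, (∏ j, h j (u j)) * σ u u := by
  simp only [tensorPow, Finset.mul_sum]
  have e : ∀ u v : Fin n → Fin 2, ∑ x : Fin n → Fin 2, (∏ j, g j (x j)) *
      ((∏ i, gad γ ν (Matrix.single (u i) (v i) 1) (x i) (x i)) * σ u v) =
      if u = v then (∏ j, h j (u j)) * σ u v else 0 := by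
    intro u v
    have e1 : ∀ x : Fin n → Fin 2, (∏ j, g j (x j)) *
      ((∏ i, gad γ ν (Matrix.single (u i) (v i) 1) (x i) (x i)) * σ u v) =
      (∏ j, g j (x j) * gad γ ν (Matrix.single (u j) (v j) 1) (x j) (x j)) * σ u v := by
      intro x
      rw [Finset.prod_mul_distrib, mul_assoc]
    simp only [e1]
    rw [← Finset.sum_mul]
    have e2 := Finset.prod_univ_sum (fun _ : Fin n => (Finset.univ : Finset (Fin 2)))
      (fun j b => g j b * gad γ ν (Matrix.single (u j) (v j) 1) b b)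
    rw [Fintype.piFinset_univ] at e2
    rw [← e2]
    simp only [hgh]
    by_cases huv : u = v
    · subst huv
      simp
    · rw [if_neg huv]
      obtain ⟨j, hj⟩ := Function.ne_iff.mp huv
      rw [Finset.prod_eq_zero (Finset.mem_univ j) (if_neg hj), zero_mul]
  rw [Finset.sum_comm]
  refine Finset.sum_congr rfl fun u _ => ?_
  rw [Finset.sum_comm]
  rw [Finset.sum_congr rfl fun v _ => e u v]
  simp

theorem tensorPow_trace (γ ν : ℝ) {n : ℕ} (σ : Matrix (Fin n → Fin 2) (Fin n → Fin 2) ℂ) :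
    (tensorPow (gad γ ν) n σ).trace = σ.trace := by
  have := sum_diag_tensorPow γ ν (n := n) (fun _ _ => 1) (fun _ _ => 1) ?_ σ
  · simpa [Matrix.trace] using this
  · intro j u v
    fin_cases u <;> fin_cases v <;> simp [gad, Matrix.trace, Fin.sum_univ_two]

theorem pop_tensorPow (γ ν : ℝ) {n : ℕ} (σ : Matrix (Fin n → Fin 2) (Fin n → Fin 2) ℂ)
    (i : Fin n) :
    pop (tensorPow (gad γ ν) n σ) i = (1 - γ) * pop σ i + γ * ν * σ.trace.re := by
  have key := sum_diag_tensorPow γ ν (n := n)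
    (fun j b => if j = i then (if b = 1 then 1 else 0) else 1)
    (fun j b => if j = i then ((1 - γ : ℝ) * (if b = 1 then 1 else 0) + (γ * ν : ℝ) : ℂ) else 1) ?_ σ
  · have hp : ∀ M : Matrix (Fin n → Fin 2) (Fin n → Fin 2) ℂ,
        pop M i = (∑ x, (if x i = 1 then (1 : ℂ) else 0) * M x x).re := by
      intro M
      unfold pop
      rw [Complex.re_sum]
      refine Finset.sum_congr rfl fun x _ => ?_
      by_cases h : x i = 1 <;> simp [h]
    have e1 : ∀ x : Fin n → Fin 2, (∏ j, if j = i then (if x j = 1 then (1 : ℂ) else 0) else 1) =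
        if x i = 1 then 1 else 0 := by
      intro x
      rw [Finset.prod_ite_eq' Finset.univ i (fun j => if x j = 1 then (1 : ℂ) else 0)]
      simp
    have e2 : ∀ x : Fin n → Fin 2, (∏ j, if j = i then
        (((1 - γ : ℝ) : ℂ) * (if x j = 1 then 1 else 0) + ((γ * ν : ℝ) : ℂ)) else 1) =
        ((1 - γ : ℝ) : ℂ) * (if x i = 1 then 1 else 0) + ((γ * ν : ℝ) : ℂ) := by
      intro x
      rw [Finset.prod_ite_eq' Finset.univ i (fun j => (((1 - γ : ℝ) : ℂ) * (if x j = 1 then 1 else 0)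
        + ((γ * ν : ℝ) : ℂ)))]
      simp
    simp only [e1, e2] at key
    rw [hp, key, hp]
    simp only [add_mul, Finset.sum_add_distrib, mul_assoc]
    rw [← Finset.mul_sum, ← Finset.mul_sum, Complex.add_re, Complex.re_ofReal_mul,
      Complex.re_ofReal_mul]
    simp [Matrix.trace, mul_assoc]
  · intro j u v
    by_cases hj : j = i
    · fin_cases u <;> fin_cases v <;> simp [gad, Matrix.trace, hj]
    · fin_cases u <;> fin_cases v <;> simp [gad, Matrix.trace, Fin.sum_univ_two, hj]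

/-! ### Induction -/

/-- bit strings of length `n + 1` split according to the first bit -/
private def consSum (n : ℕ) : (Fin n → Fin 2) ⊕ (Fin n → Fin 2) ≃ (Fin (n + 1) → Fin 2) where
  toFun := Sum.elim (fun x => Fin.cons 0 x) (fun x => Fin.cons 1 x)
  invFun := fun x => if x 0 = 0 then Sum.inl (Fin.tail x) else Sum.inr (Fin.tail x)
  left_inv := by
    rintro (x | x) <;> simp
  right_inv := by
    intro x
    by_cases h : x 0 = 0
    · simp only [h, if_true, Sum.elim_inl]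
      rw [← h, Fin.cons_self_tail]
    · have h1 : x 0 = 1 := by omega
      simp only [h, if_false, Sum.elim_inr]
      rw [← h1, Fin.cons_self_tail]

private theorem sum_consSum {n : ℕ} {E : Type*} [AddCommMonoid E] (f : (Fin (n + 1) → Fin 2) → E) :
    ∑ x, f x = ∑ x : Fin n → Fin 2, f (Fin.cons 0 x) + ∑ x : Fin n → Fin 2, f (Fin.cons 1 x) := by
  rw [← (consSum n).sum_comp, Fintype.sum_sum_type]
  rfl

/-- the `(a, b)` block with respect to the first bit -/
private def blk {n : ℕ} (σ : Matrix (Fin (n + 1) → Fin 2) (Fin (n + 1) → Fin 2) ℂ)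
    (a b : Fin 2) : Matrix (Fin n → Fin 2) (Fin n → Fin 2) ℂ :=
  fun x y => σ (Fin.cons a x) (Fin.cons b y)

private theorem submatrix_consSum {n : ℕ}
    (σ : Matrix (Fin (n + 1) → Fin 2) (Fin (n + 1) → Fin 2) ℂ) :
    σ.submatrix (consSum n) (consSum n) =
      fromBlocks (blk σ 0 0) (blk σ 0 1) (blk σ 1 0) (blk σ 1 1) := by
  ext (i | i) (j | j) <;> rfl

private theorem blk_tensorPow (γ ν : ℝ) {n : ℕ}
    (σ : Matrix (Fin (n + 1) → Fin 2) (Fin (n + 1) → Fin 2) ℂ) (a b : Fin 2) :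
    blk (tensorPow (gad γ ν) (n + 1) σ) a b =
      ∑ c, ∑ d, gad γ ν (Matrix.single c d 1) a b • tensorPow (gad γ ν) n (blk σ c d) := by
  ext x y
  simp only [blk, tensorPow, Matrix.sum_apply, Matrix.smul_apply, smul_eq_mul]
  rw [sum_consSum]
  have h : ∀ c : Fin 2, ∑ u : Fin n → Fin 2, ∑ v, (∏ i : Fin (n + 1), gad γ ν (Matrix.single
      ((Fin.cons c u : Fin (n + 1) → Fin 2) i) (v i) 1)
      ((Fin.cons a x : Fin (n + 1) → Fin 2) i) ((Fin.cons b y : Fin (n + 1) → Fin 2) i))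
      * σ (Fin.cons c u) v =
      ∑ d : Fin 2, gad γ ν (Matrix.single c d 1) a b * ∑ u : Fin n → Fin 2, ∑ v : Fin n → Fin 2,
        (∏ i, gad γ ν (Matrix.single (u i) (v i) 1) (x i) (y i)) *
          σ (Fin.cons c u) (Fin.cons d v) := by
    intro c
    rw [Fin.sum_univ_two]
    simp only [Finset.mul_sum, sum_consSum, Finset.sum_add_distrib, Fin.prod_univ_succ,
      Fin.cons_zero, Fin.cons_succ, mul_assoc]
  rw [h, h]
  exact (Fin.sum_univ_two (fun c => ∑ d : Fin 2, gad γ ν (Matrix.single c d 1) a b *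
    ∑ u : Fin n → Fin 2, ∑ v : Fin n → Fin 2,
        (∏ i, gad γ ν (Matrix.single (u i) (v i) 1) (x i) (y i)) *
          σ (Fin.cons c u) (Fin.cons d v))).symm

private theorem tensorPow_succ_eq {γ ν : ℝ} (hγ : γ ∈ Set.Icc (0 : ℝ) 1)
    (hν : ν ∈ Set.Icc (0 : ℝ) 1) {n : ℕ}
    {σ : Matrix (Fin (n + 1) → Fin 2) (Fin (n + 1) → Fin 2) ℂ}
    (hσ : blk σ 1 0 = (blk σ 0 1)ᴴ) :
    (tensorPow (gad γ ν) (n + 1) σ).submatrix (consSum n) (consSum n) =
      gadBlocks γ ν (tensorPow (gad γ ν) n (blk σ 0 0)) (tensorPow (gad γ ν) n (blk σ 0 1))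
        (tensorPow (gad γ ν) n (blk σ 1 1)) := by
  rw [submatrix_consSum, gadBlocks, blk_tensorPow, blk_tensorPow, blk_tensorPow, blk_tensorPow]
  simp only [Fin.sum_univ_two, hσ, tensorPow_conjTranspose hγ hν]
  congr 1
  · ext x y
    simp [gad, Matrix.trace]
    left
    ring
  · ext x y
    simp [gad, Matrix.trace]
  · ext x y
    simp [gad, Matrix.trace]
  · ext x y
    simp [gad, Matrix.trace]

private theorem trPhi_unique {I : Type} [Fintype I] [DecidableEq I] [Unique I]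
    {M : Matrix I I ℂ} (hM : M.IsHermitian) : trPhi M = Real.negMulLog M.trace.re := by
  have h := hM.trace_eq_sum_eigenvalues
  rw [Fintype.sum_unique] at h
  rw [trPhi, dif_pos hM, Fintype.sum_unique, h]
  simp

private theorem pop_nonneg {n : ℕ} {σ : Matrix (Fin n → Fin 2) (Fin n → Fin 2) ℂ}
    (hσ : σ.PosSemidef) (i : Fin n) : 0 ≤ pop σ i := by
  refine Finset.sum_nonneg fun x _ => ?_
  split_ifs
  · exact (Complex.nonneg_iff.mp (hσ.diag_nonneg (i := x))).1
  · exact le_rfl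

private theorem pop_le_trace {n : ℕ} {σ : Matrix (Fin n → Fin 2) (Fin n → Fin 2) ℂ}
    (hσ : σ.PosSemidef) (i : Fin n) : pop σ i ≤ σ.trace.re := by
  rw [Matrix.trace, Complex.re_sum]
  refine Finset.sum_le_sum fun x _ => ?_
  split_ifs
  · exact le_rfl
  · exact (Complex.nonneg_iff.mp (hσ.diag_nonneg (i := x))).1

/-- lower bound on the output entropy from the key inequality -/
theorem tensorPow_lower {γ ν : ℝ} (hγ : γ ∈ Set.Icc (0 : ℝ) 1)
    (hν : ν ∈ Set.Icc (0 : ℝ) 1) (hk : Key γ ν) {n : ℕ}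
    {σ : Matrix (Fin n → Fin 2) (Fin n → Fin 2) ℂ} (hσ : σ.PosSemidef) :
    Real.negMulLog σ.trace.re + ∑ i, EE γ ν σ.trace.re (pop σ i)
      ≤ trPhi (tensorPow (gad γ ν) n σ) := by
  induction n with
  | zero =>
    rw [trPhi_unique (tensorPow_posSemidef hγ hν hσ).isHermitian, tensorPow_trace]
    simp
  | succ n ih =>
    set A := blk σ 0 0 with hA
    set B := blk σ 0 1 with hB
    set C := blk σ 1 1 with hC
    have hsub : σ.submatrix (consSum n) (consSum n) = fromBlocks A B (blk σ 1 0) C :=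
      submatrix_consSum σ
    have hpsd : (fromBlocks A B (blk σ 1 0) C).PosSemidef := by
      rw [← hsub]; exact hσ.submatrix _
    have h10 : blk σ 1 0 = Bᴴ := by
      have := hpsd.isHermitian
      rw [Matrix.isHermitian_fromBlocks_iff] at this
      exact this.2.1.symm
    rw [h10] at hpsd
    have hApsd : A.PosSemidef := by
      exact hpsd.submatrix (Sum.inl)
    have hCpsd : C.PosSemidef := by
      exact hpsd.submatrix (Sum.inr)
    have hT := tensorPow_blocks_posSemidef hγ hν hpsd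
    have h1 := hk _ _ _ _ hT
    rw [← tensorPow_succ_eq hγ hν h10, trPhi_reindex (tensorPow_posSemidef hγ hν hσ),
      tensorPow_trace, tensorPow_trace] at h1
    have hiA := ih hApsd
    have hiC := ih hCpsd
    have htr : σ.trace.re = A.trace.re + C.trace.re := by
      simp only [Matrix.trace, Matrix.diag_apply, Complex.re_sum]
      rw [sum_consSum]
      rfl
    have hp0 : pop σ 0 = C.trace.re := by
      unfold pop
      rw [sum_consSum]
      simp [Matrix.trace, hC, blk]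
    have hps : ∀ i : Fin n, pop σ i.succ = pop A i + pop C i := by
      intro i
      unfold pop
      rw [sum_consSum]
      simp [hA, hC, blk]
    rw [Fin.sum_univ_succ, hp0, htr]
    have hsum : ∑ i : Fin n, EE γ ν (A.trace.re + C.trace.re) (pop σ i.succ) ≤
        ∑ i, EE γ ν A.trace.re (pop A i) + ∑ i, EE γ ν C.trace.re (pop C i) := by
      rw [← Finset.sum_add_distrib]
      refine Finset.sum_le_sum fun i _ => ?_
      rw [hps]
      exact EE_subadd hγ hν (pop_nonneg hApsd i) (pop_le_trace hApsd i) (pop_nonneg hCpsd i)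
        (pop_le_trace hCpsd i)
    linarith

end Vale.Agent.P358
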