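import Vale.Agent.P358.LogRep

namespace Vale.Agent.P358

theorem gibbs_term {p q : ℝ} (hp : 0 ≤ p) (hq : 0 ≤ q) (hpq : q = 0 → p = 0) :
    Real.negMulLog p ≤ -(p * Real.log q) + q - p := by
  rcases hp.eq_or_lt with h | h
  · rw [← h, Real.negMulLog_zero]
    linarith
  · have hq' : 0 < q := by
      rcases hq.eq_or_lt with h2 | h2
      · exact absurd (hpq h2.symm) h.ne'
      · exact h2
    have h1 : Real.log (q / p) ≤ q / p - 1 := Real.log_le_sub_one_of_pos (by positivity)
    rw [Real.log_div hq'.ne' h.ne'] at h1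
    have h2 : p * (Real.log q - Real.log p) ≤ p * (q / p - 1) :=
      mul_le_mul_of_nonneg_left h1 hp
    have h3 : p * (q / p - 1) = q - p := by field_simp
    rw [h3] at h2
    rw [Real.negMulLog]
    linarith

theorem gibbs {I : Type*} [Fintype I] (p q : I → ℝ) (hp : ∀ x, 0 ≤ p x) (hq : ∀ x, 0 ≤ q x)
    (hpq : ∀ x, q x = 0 → p x = 0) (h : ∑ x, q x ≤ ∑ x, p x) :
    ∑ x, Real.negMulLog (p x) ≤ -∑ x, p x * Real.log (q x) := by
  have h1 : ∑ x, Real.negMulLog (p x) ≤ ∑ x, (-(p x * Real.log (q x)) + q x - p x) :=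
    Finset.sum_le_sum fun x _ => gibbs_term (hp x) (hq x) (hpq x)
  rw [Finset.sum_sub_distrib, Finset.sum_add_distrib, Finset.sum_neg_distrib] at h1
  linarith

/-- subadditivity of the Shannon entropy over the bits -/
theorem shannon_le_marginals' {n : ℕ} (p : (Fin n → Fin 2) → ℝ) (hp : ∀ x, 0 ≤ p x)
    (h1 : ∑ x, p x = 1) :
    ∑ x, Real.negMulLog (p x) ≤
      ∑ i, Real.binEntropy (∑ x : Fin n → Fin 2, if x i = 1 then p x else 0) := by
  let q : Fin n → Fin 2 → ℝ := fun i b => ∑ x : Fin n → Fin 2, if x i = b then p x else 0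
  have hq0 : ∀ i b, 0 ≤ q i b := fun i b =>
    Finset.sum_nonneg fun x _ => by split_ifs <;> simp [hp x]
  have hqs : ∀ i, ∑ b, q i b = 1 := by
    intro i
    simp only [q]
    rw [Finset.sum_comm, ← h1]
    refine Finset.sum_congr rfl fun x _ => ?_
    rw [Finset.sum_ite_eq]
    simp
  have hple : ∀ x i, p x ≤ q i (x i) := by
    intro x i
    have := Finset.single_le_sum (f := fun y : Fin n → Fin 2 => if y i = x i then p y else 0)
      (fun y _ => by split_ifs <;> simp [hp y]) (Finset.mem_univ x)
    simpa using this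
  have hsumq : ∑ x : Fin n → Fin 2, ∏ i, q i (x i) = 1 := by
    have := Finset.prod_univ_sum (fun _ : Fin n => (Finset.univ : Finset (Fin 2))) q
    rw [Fintype.piFinset_univ] at this
    rw [← this]
    exact Finset.prod_eq_one fun i _ => hqs i
  have hg := gibbs p (fun x => ∏ i, q i (x i)) hp
    (fun x => Finset.prod_nonneg fun i _ => hq0 i _)
    (fun x hx => by
      obtain ⟨i, _, hi⟩ := Finset.prod_eq_zero_iff.1 hx
      have := hple x i
      rw [hi] at this
      exact le_antisymm this (hp x))
    (by rw [hsumq, h1])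
  refine hg.trans (le_of_eq ?_)
  have h2 : ∀ x, p x * Real.log (∏ i, q i (x i)) = ∑ i, p x * Real.log (q i (x i)) := by
    intro x
    rcases (hp x).eq_or_lt with h | h
    · rw [← h]; simp
    · rw [Real.log_prod, Finset.mul_sum]
      intro i _
      exact (h.trans_le (hple x i)).ne'
  simp_rw [h2]
  rw [Finset.sum_comm, ← Finset.sum_neg_distrib]
  refine Finset.sum_congr rfl fun i _ => ?_
  have h3 : ∑ x, p x * Real.log (q i (x i)) = ∑ b, q i b * Real.log (q i b) := by
    have h4 : ∀ x, p x * Real.log (q i (x i)) =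
        ∑ b, (if x i = b then p x else 0) * Real.log (q i b) := by
      intro x
      have : ∀ b, (if x i = b then p x else 0) * Real.log (q i b) =
          if x i = b then p x * Real.log (q i b) else 0 := by
        intro b; split_ifs <;> simp
      simp_rw [this]
      rw [Finset.sum_ite_eq]
      simp
    simp_rw [h4]
    rw [Finset.sum_comm]
    refine Finset.sum_congr rfl fun b _ => ?_
    rw [← Finset.sum_mul]
  have h5 : q i 0 = 1 - q i 1 := by
    have := hqs i
    rw [Fin.sum_univ_two] at this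
    linarith
  rw [h3, Fin.sum_univ_two, h5]
  change _ = Real.binEntropy (q i 1)
  rw [Real.binEntropy_eq_negMulLog_add_negMulLog_one_sub, Real.negMulLog, Real.negMulLog]
  ring

end Vale.Agent.P358
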